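import Vale.Agent.P298.H766.Germ

/-!
# P298, colength calculus (helper766): additivity, and the formulas of Teissier
-/

namespace Vale.Agent.P298.H766

open Filter Topology Metric Vale.Agent.P298 Module

variable {n m k : ℕ}

/-! ### Power series in one variable -/

theorem order_eq_derivative {g : PowerSeries ℂ} (h0 : PowerSeries.constantCoeff g = 0) :
    g.order = (PowerSeries.derivative ℂ g).order + 1 := by
  by_cases hg : g = 0
  · rw [hg, map_zero, PowerSeries.order_zero]
    rfl
  obtain ⟨N, hN⟩ : ∃ N : ℕ, g.order = N := by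
    have h1 := PowerSeries.order_finite_iff_ne_zero.2 hg
    exact ⟨g.order.toNat, (ENat.natCast_toNat h1.ne).symm⟩
  have h1 := (PowerSeries.order_eq_nat.1 hN)
  have hN0 : N ≠ 0 := by
    rintro rfl
    apply h1.1
    rw [PowerSeries.coeff_zero_eq_constantCoeff_apply, h0]
  obtain ⟨M, rfl⟩ := Nat.exists_eq_succ_of_ne_zero hN0
  have h2 : (PowerSeries.derivative ℂ g).order = M := by
    rw [PowerSeries.order_eq_nat]
    refine ⟨?_, fun i hi => ?_⟩
    · rw [PowerSeries.coeff_derivative]
      exact mul_ne_zero h1.1 (by exact_mod_cast Nat.succ_ne_zero M)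
    · rw [PowerSeries.coeff_derivative,
        h1.2 (i + 1) (Nat.succ_lt_succ hi), zero_mul]
  rw [hN, h2]
  push_cast
  rfl

theorem order_C_mul_aux (g h : PowerSeries ℂ) : (g * h).order = g.order + h.order :=
  PowerSeries.order_mul g h

/-! ### Unit ideals, enlarging the ideal -/

theorem colength_of_unit {s : Fin k → (Fin n → ℂ) → ℂ} {j : Fin k} (hs : Hol (s j))
    (h : s j 0 ≠ 0) (d : ℕ) : Colength s d ↔ d = 0 := by
  classical
  have key : ∀ f, Hol f → InIdeal s f := by
    intro f hf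
    refine ⟨fun i x => if i = j then f x * (s j x)⁻¹ else 0, fun i => ?_, ?_⟩
    · by_cases hi : i = j
      · simp only [hi, if_true]
        exact hf.mul (AnalyticAt.inv hs h)
      · simp only [hi, if_false]
        exact analyticAt_const
    · have hc : ContinuousAt (s j) 0 := AnalyticAt.continuousAt hs
      filter_upwards [hc.eventually_ne h] with x hx
      rw [Finset.sum_eq_single j]
      · rw [if_pos rfl, mul_assoc, inv_mul_cancel₀ hx, mul_one]
      · intro i _ hi
        rw [if_neg hi, zero_mul]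
      · intro hj
        exact absurd (Finset.mem_univ j) hj
  constructor
  · rintro ⟨b, hb, H⟩
    by_contra hd
    obtain ⟨c, -, hc⟩ := H (fun _ => 0) analyticAt_const
    have h1 : ∀ c' : Fin d → ℂ, c' = c := fun c' => hc c' (key _
      (analyticAt_const.sub (Finset.analyticAt_fun_sum _ fun i _ =>
        analyticAt_const.mul (hb i))))
    have h2 := (h1 (fun _ => 0)).trans (h1 (fun _ => 1)).symm
    have h3 := congrFun h2 ⟨0, Nat.pos_of_ne_zero hd⟩
    exact zero_ne_one h3
  · rintro rfl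
    refine ⟨fun i => i.elim0, fun i => i.elim0, fun f hf => ?_⟩
    refine ⟨fun i => i.elim0, ?_, fun c' _ => funext fun i => i.elim0⟩
    refine key _ ?_
    simpa using hf

theorem colength_of_le {s : Fin k → (Fin n → ℂ) → ℂ} {k' : ℕ} {s' : Fin k' → (Fin n → ℂ) → ℂ}
    (hs : ∀ j, Hol (s j)) (hs' : ∀ j, Hol (s' j)) (h : ∀ j, InIdeal s' (s j)) {d : ℕ}
    (hd : Colength s d) : ∃ d', Colength s' d' := by
  rw [colength_iff_ser hs] at hd
  have hle : serIdeal s ≤ serIdeal s' := by
    refine Ideal.span_le.2 ?_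
    rintro _ ⟨j, rfl⟩
    obtain ⟨a, ha, hx⟩ := h j
    have h1 : ser (s j) = ∑ i, ser (a i) * ser (s' i) := by
      have h2 : ser (s j) = ser (fun x => ∑ i, a i x * s' i x) := ser_congr hx
      rw [h2, ser_sum Finset.univ (u := fun i x => a i x * s' i x)
        (fun i => (ha i).mul (hs' i))]
      refine Finset.sum_congr rfl fun i _ => ?_
      rw [ser_mul (ha i) (hs' i)]
    change ser (s j) ∈ serIdeal s'
    rw [h1]
    exact Submodule.sum_mem _ fun i _ => Ideal.mul_mem_left _ _ (Ideal.subset_span ⟨i, rfl⟩)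
  have hfin := hd.1
  have h1 : Module.Finite ℂ (MvPowerSeries (Fin n) ℂ ⧸ serIdeal s') :=
    Module.Finite.of_surjective (Ideal.Quotient.factorₐ ℂ hle).toLinearMap
      (Ideal.Quotient.factor_surjective hle)
  exact ⟨_, (colength_iff_ser hs' _).2 ⟨h1, rfl⟩⟩

/-! ### Additivity -/

section

variable (hford : FordT) (hcm : CMT)

include hford hcm

/-- additivity of the colength along a curve -/
theorem colength_mul {a : Fin m → (Fin (m + 1) → ℂ) → ℂ} {u v : (Fin (m + 1) → ℂ) → ℂ}
    (ha : ∀ i, Hol (a i)) (hu : Hol u) (hv : Hol v) {d d' : ℕ}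
    (h : Colength (Fin.snoc (α := fun _ => (Fin (m + 1) → ℂ) → ℂ) a u) d)
    (h' : Colength (Fin.snoc (α := fun _ => (Fin (m + 1) → ℂ) → ℂ) a v) d') :
    Colength (Fin.snoc (α := fun _ => (Fin (m + 1) → ℂ) → ℂ) a (fun x => u x * v x))
      (d + d') := by
  have huv : Hol (fun x => u x * v x) := hu.mul hv
  by_cases ha0 : ∀ i, a i 0 = 0
  swap
  · push Not at ha0
    obtain ⟨i, hi⟩ := ha0
    have key : ∀ (w : (Fin (m + 1) → ℂ) → ℂ) (e : ℕ),
        Colength (Fin.snoc (α := fun _ => (Fin (m + 1) → ℂ) → ℂ) a w) e ↔ e = 0 := by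
      intro w e
      refine colength_of_unit (j := i.castSucc) ?_ ?_ e
      · simpa using ha i
      · simpa using hi
    rw [key] at h h' ⊢
    omega
  have main : ∀ (l : (Fin (m + 1) → ℂ) → ℂ) (e : ℕ), Hol l → l 0 = 0 →
      Colength (Fin.snoc (α := fun _ => (Fin (m + 1) → ℂ) → ℂ) a l) e →
      Colength (Fin.snoc (α := fun _ => (Fin (m + 1) → ℂ) → ℂ) a (fun x => u x * v x))
        (d + d') := by
    intro l e hl hl0 hle
    obtain ⟨N, hN, k, φ, h1, h2, h3⟩ := exists_arcs hford hcm ha hl ha0 hl0 hle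
    rw [h3 _ huv]
    have h4 := (h3 u hu d).1 h
    have h5 := (h3 v hv d').1 h'
    rw [ser_mul hu hv]
    simp only [map_mul, PowerSeries.order_mul, Finset.sum_add_distrib]
    rw [h4, h5, mul_add]
    push_cast
    rfl
  by_cases hu0 : u 0 = 0
  · exact main u d hu hu0 h
  by_cases hv0 : v 0 = 0
  · exact main v d' hv hv0 h'
  have h1 := (colength_of_unit (j := Fin.last m) (by simpa using hu) (by simpa using hu0) d).1 h
  have h2 := (colength_of_unit (j := Fin.last m) (by simpa using hv) (by simpa using hv0) d').1 h'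
  rw [h1, h2]
  exact (colength_of_unit (j := Fin.last m) (by simpa using huv)
    (by simpa using ⟨hu0, hv0⟩) 0).2 rfl

omit hcm in
omit hford in
theorem inIdeal_snoc_left {a : Fin k → (Fin n → ℂ) → ℂ} {u v : (Fin n → ℂ) → ℂ}
    (hv : Hol v) (j : Fin (k + 1)) :
    InIdeal (Fin.snoc (α := fun _ => (Fin n → ℂ) → ℂ) a u)
      (Fin.snoc (α := fun _ => (Fin n → ℂ) → ℂ) a (fun x => u x * v x) j) := by
  refine Fin.lastCases ?_ (fun i => ?_) j
  · rw [Fin.snoc_last, inIdeal_snoc]
    refine ⟨fun _ _ => 0, v, fun _ => analyticAt_const, hv, ?_⟩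
    filter_upwards with x
    simp [mul_comm]
  · have h := inIdeal_self (Fin.snoc (α := fun _ => (Fin n → ℂ) → ℂ) a u) i.castSucc
    simpa using h

/-- additivity of the colength along a curve, in the other direction -/
theorem exists_colength_of_mul {a : Fin m → (Fin (m + 1) → ℂ) → ℂ} {u v : (Fin (m + 1) → ℂ) → ℂ}
    (ha : ∀ i, Hol (a i)) (hu : Hol u) (hv : Hol v) {e : ℕ}
    (h : Colength (Fin.snoc (α := fun _ => (Fin (m + 1) → ℂ) → ℂ) a (fun x => u x * v x)) e) :
    ∃ d d', Colength (Fin.snoc (α := fun _ => (Fin (m + 1) → ℂ) → ℂ) a u) d ∧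
      Colength (Fin.snoc (α := fun _ => (Fin (m + 1) → ℂ) → ℂ) a v) d' ∧ e = d + d' := by
  have huv : Hol (fun x => u x * v x) := hu.mul hv
  have hvu : (fun x => u x * v x) = fun x => v x * u x := by
    funext x
    ring
  obtain ⟨d, hd⟩ := colength_of_le (hol_snoc ha huv) (hol_snoc ha hu)
    (fun j => inIdeal_snoc_left hv j) h
  obtain ⟨d', hd'⟩ : ∃ d', Colength (Fin.snoc (α := fun _ => (Fin (m + 1) → ℂ) → ℂ) a v) d' := by
    rw [hvu] at h
    exact colength_of_le (hol_snoc ha (hv.mul hu)) (hol_snoc ha hv)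
      (fun j => inIdeal_snoc_left hu j) h
  refine ⟨d, d', hd, hd', ?_⟩
  have h1 := colength_mul hford hcm ha hu hv hd hd'
  rw [colength_iff_ser (hol_snoc ha huv)] at h h1
  rw [← h.2, ← h1.2]

end

end Vale.Agent.P298.H766
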