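import Vale.Agent.P298.H766.Restr

/-!
# P298, colength calculus (helper766): restriction to a coordinate hyperplane
-/

namespace Vale.Agent.P298.H766

open Filter Topology Metric Vale.Agent.P298

variable {n m k k' : ℕ}

theorem inIdeal_snoc {s : Fin k → (Fin n → ℂ) → ℂ} {z f : (Fin n → ℂ) → ℂ} :
    InIdeal (Fin.snoc (α := fun _ => (Fin n → ℂ) → ℂ) s z) f ↔
      ∃ (a : Fin k → (Fin n → ℂ) → ℂ) (b : (Fin n → ℂ) → ℂ), (∀ j, Hol (a j)) ∧ Hol b ∧
        ∀ᶠ x in 𝓝 0, f x = ∑ j, a j x * s j x + b x * z x := by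
  constructor
  · rintro ⟨a, ha, h⟩
    refine ⟨fun j => a j.castSucc, a (Fin.last k), fun j => ha _, ha _, ?_⟩
    filter_upwards [h] with x hx
    rw [hx, Fin.sum_univ_castSucc]
    simp only [Fin.snoc_castSucc, Fin.snoc_last]
  · rintro ⟨a, b, ha, hb, h⟩
    refine ⟨Fin.snoc (α := fun _ => (Fin n → ℂ) → ℂ) a b, fun j => ?_, ?_⟩
    · refine Fin.lastCases ?_ (fun i => ?_) j
      · simpa using hb
      · simpa using ha i
    · filter_upwards [h] with x hx
      rw [hx, Fin.sum_univ_castSucc]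
      simp only [Fin.snoc_castSucc, Fin.snoc_last]

theorem inIdeal_restrict {s : Fin k → (Fin (m + 1) → ℂ) → ℂ} (hs : ∀ j, Hol (s j))
    {F : (Fin (m + 1) → ℂ) → ℂ} (hF : Hol F) :
    InIdeal (Fin.snoc (α := fun _ => (Fin (m + 1) → ℂ) → ℂ) s fun x => x (Fin.last m)) F ↔
      InIdeal (fun j x => s j (Fin.snoc (α := fun _ => ℂ) x 0))
        (fun x => F (Fin.snoc (α := fun _ => ℂ) x 0)) := by
  rw [inIdeal_snoc]
  constructor
  · rintro ⟨a, b, ha, hb, h⟩
    refine ⟨fun j x => a j (Fin.snoc (α := fun _ => ℂ) x 0), fun j => hol_restrict (ha j), ?_⟩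
    filter_upwards [tendsto_incl.eventually h] with x hx
    rw [hx]
    simp
  · rintro ⟨a, ha, h⟩
    have hG : Hol fun x => F x - ∑ j, a j (fun i => x i.castSucc) * s j x :=
      hF.sub (Finset.analyticAt_fun_sum _ fun j _ => (hol_extend (ha j)).mul (hs j))
    obtain ⟨H, hH, hx⟩ := exists_div_last hG (by
      filter_upwards [h] with x hx
      rw [hx]
      simp)
    refine ⟨fun j x => a j (fun i => x i.castSucc), H, fun j => hol_extend (ha j), hH, ?_⟩
    filter_upwards [hx] with x hx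
    rw [← hx]
    ring

/-- the colength of an ideal containing a coordinate is the colength of the restricted ideal -/
theorem colength_restrict {s : Fin k → (Fin (m + 1) → ℂ) → ℂ} (hs : ∀ j, Hol (s j)) (d : ℕ) :
    Colength (Fin.snoc (α := fun _ => (Fin (m + 1) → ℂ) → ℂ) s fun x => x (Fin.last m)) d ↔
      Colength (fun j x => s j (Fin.snoc (α := fun _ => ℂ) x 0)) d := by
  constructor
  · rintro ⟨b, hb, H⟩
    refine ⟨fun i x => b i (Fin.snoc (α := fun _ => ℂ) x 0), fun i => hol_restrict (hb i),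
      fun f hf => ?_⟩
    have key : ∀ c : Fin d → ℂ,
        InIdeal (Fin.snoc (α := fun _ => (Fin (m + 1) → ℂ) → ℂ) s fun x => x (Fin.last m))
          (fun x => f (fun i => x i.castSucc) - ∑ i, c i * b i x) ↔
        InIdeal (fun j x => s j (Fin.snoc (α := fun _ => ℂ) x 0))
          (fun x => f x - ∑ i, c i * b i (Fin.snoc (α := fun _ => ℂ) x 0)) := by
      intro c
      have h1 : Hol fun x : Fin (m + 1) → ℂ => f (fun i => x i.castSucc) - ∑ i, c i * b i x :=
        (hol_extend hf).sub (Finset.analyticAt_fun_sum _ fun i _ =>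
          analyticAt_const.mul (hb i))
      rw [inIdeal_restrict hs h1]
      simp
    obtain ⟨c, hc, hc'⟩ := H _ (hol_extend hf)
    exact ⟨c, (key c).1 hc, fun c' h => hc' c' ((key c').2 h)⟩
  · rintro ⟨b, hb, H⟩
    refine ⟨fun i x => b i (fun j => x j.castSucc), fun i => hol_extend (hb i), fun F hF => ?_⟩
    have key : ∀ c : Fin d → ℂ,
        InIdeal (Fin.snoc (α := fun _ => (Fin (m + 1) → ℂ) → ℂ) s fun x => x (Fin.last m))
          (fun x => F x - ∑ i, c i * b i (fun j => x j.castSucc)) ↔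
        InIdeal (fun j x => s j (Fin.snoc (α := fun _ => ℂ) x 0))
          (fun x => F (Fin.snoc (α := fun _ => ℂ) x 0) - ∑ i, c i * b i x) := by
      intro c
      have h1 : Hol fun x : Fin (m + 1) → ℂ => F x - ∑ i, c i * b i (fun j => x j.castSucc) :=
        hF.sub (Finset.analyticAt_fun_sum _ fun i _ =>
          analyticAt_const.mul (hol_extend (hb i)))
      rw [inIdeal_restrict hs h1]
      simp
    obtain ⟨c, hc, hc'⟩ := H _ (hol_restrict hF)
    exact ⟨c, (key c).2 hc, fun c' h => hc' c' ((key c').1 h)⟩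

end Vale.Agent.P298.H766
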