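import Vale.Agent.P298.H766.Col
import Vale.Agent.P298.H766.Restr2

/-!
# P298, colength calculus (helper766): Taylor series of germs of functions
-/

namespace Vale.Agent.P298.H766

open Filter Topology Metric Vale.Agent.P298 Module

variable {n m k : ℕ}

open Classical in
/-- the Taylor series of a germ -/
noncomputable def ser (u : (Fin n → ℂ) → ℂ) : MvPowerSeries (Fin n) ℂ :=
  if h : Hol u then T n ⟨u, h⟩ else 0

theorem ser_eq {u : (Fin n → ℂ) → ℂ} (h : Hol u) : ser u = T n ⟨u, h⟩ := by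
  rw [ser, dif_pos h]

theorem ser_mul {u v : (Fin n → ℂ) → ℂ} (hu : Hol u) (hv : Hol v) :
    ser (fun x => u x * v x) = ser u * ser v := by
  have h : Hol (fun x => u x * v x) := AnalyticAt.mul hu hv
  rw [ser_eq hu, ser_eq hv, ser_eq h, ← map_mul]
  rfl

theorem ser_add {u v : (Fin n → ℂ) → ℂ} (hu : Hol u) (hv : Hol v) :
    ser (fun x => u x + v x) = ser u + ser v := by
  have h : Hol (fun x => u x + v x) := AnalyticAt.add hu hv
  rw [ser_eq hu, ser_eq hv, ser_eq h, ← map_add]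
  rfl

theorem ser_sub {u v : (Fin n → ℂ) → ℂ} (hu : Hol u) (hv : Hol v) :
    ser (fun x => u x - v x) = ser u - ser v := by
  have h : Hol (fun x => u x - v x) := AnalyticAt.sub hu hv
  rw [ser_eq hu, ser_eq hv, ser_eq h, ← map_sub]
  rfl

theorem ser_const (c : ℂ) : ser (fun _ : Fin n → ℂ => c) = MvPowerSeries.C c := by
  have h : Hol (fun _ : Fin n → ℂ => c) := analyticAt_const
  rw [ser_eq h]
  exact (T n).commutes c

theorem ser_coord (i : Fin n) : ser (fun x : Fin n → ℂ => x i) = MvPowerSeries.X i := by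
  have h : Hol (fun x : Fin n → ℂ => x i) :=
    (ContinuousLinearMap.proj (R := ℂ) (φ := fun _ : Fin n => ℂ) i).analyticAt 0
  rw [ser_eq h]
  exact T_coordF i

theorem ser_congr {u v : (Fin n → ℂ) → ℂ} (h : u =ᶠ[𝓝 0] v) : ser u = ser v := by
  by_cases hu : Hol u
  · have hv : Hol v := AnalyticAt.congr hu h
    rw [ser_eq hu, ser_eq hv, ← sub_eq_zero, ← map_sub]
    refine T_nul ?_
    rw [mem_nul]
    filter_upwards [h] with x hx
    change u x - v x = 0
    rw [hx, sub_self]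
  · have hv : ¬ Hol v := fun hv => hu (AnalyticAt.congr hv h.symm)
    rw [ser, ser, dif_neg hu, dif_neg hv]

theorem ser_pd {u : (Fin n → ℂ) → ℂ} (hu : Hol u) (i : Fin n) :
    ser (pd i u) = MvPowerSeries.pderiv ℂ i (ser u) := by
  rw [ser_eq hu, ser_eq (hol_pd hu i), ← T_pdA]
  rfl

theorem ser_sum {ι : Type*} (t : Finset ι) {u : ι → (Fin n → ℂ) → ℂ}
    (hu : ∀ i, Hol (u i)) : ser (fun x => ∑ i ∈ t, u i x) = ∑ i ∈ t, ser (u i) := by
  classical
  induction t using Finset.induction_on with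
  | empty =>
    simp only [Finset.sum_empty]
    rw [ser_const, map_zero]
  | insert a t ha ih =>
    simp only [Finset.sum_insert ha]
    rw [ser_add (hu a) (Finset.analyticAt_fun_sum t fun i _ => hu i), ih]

theorem constantCoeff_ser {u : (Fin n → ℂ) → ℂ} (hu : Hol u) :
    MvPowerSeries.constantCoeff (ser u) = u 0 := by
  rw [ser_eq hu]
  obtain ⟨c, g, hg⟩ := hadamardA (⟨u, hu⟩ : AnFun n)
  have h1 := T_nul hg
  rw [map_sub, sub_eq_zero] at h1
  have h2 : u 0 = c := by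
    rw [mem_nul] at hg
    have h3 := hg.self_of_nhds
    have h4 : (((⟨u, hu⟩ : AnFun n) - (algebraMap ℂ (AnFun n) c + ∑ i, coordF n i * g i) :
        AnFun n) : (Fin n → ℂ) → ℂ) 0 = u 0 - (c + ∑ i, (0 : ℂ) * (g i : (Fin n → ℂ) → ℂ) 0) := by
      simp [coordF]
    rw [h4] at h3
    simp only [zero_mul, Finset.sum_const_zero, add_zero, Pi.zero_apply] at h3
    exact sub_eq_zero.1 h3
  rw [h1, h2, map_add, map_sum, map_add, map_sum, Finset.sum_eq_zero, add_zero]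
  · rw [(T n).commutes]
    exact MvPowerSeries.constantCoeff_C c
  · intro i _
    rw [map_mul, map_mul, T_coordF, MvPowerSeries.constantCoeff_X, zero_mul]

/-- the ideal of formal power series generated by the Taylor series of germs -/
noncomputable def serIdeal (s : Fin k → (Fin n → ℂ) → ℂ) : Ideal (MvPowerSeries (Fin n) ℂ) :=
  Ideal.span (Set.range fun j => ser (s j))

/-- colength of germs and of formal power series -/
theorem colength_iff_ser {s : Fin k → (Fin n → ℂ) → ℂ} (hs : ∀ j, Hol (s j)) (d : ℕ) :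
    Colength s d ↔ Module.Finite ℂ (MvPowerSeries (Fin n) ℂ ⧸ serIdeal s) ∧
        finrank ℂ (MvPowerSeries (Fin n) ℂ ⧸ serIdeal s) = d := by
  have h : serIdeal s = tayIdeal (toA s hs) := by
    rw [serIdeal, tayIdeal]
    congr 2
    funext j
    exact ser_eq (hs j)
  rw [h]
  exact colength_iff s hs d

theorem serIdeal_snoc (s : Fin k → (Fin n → ℂ) → ℂ) (u : (Fin n → ℂ) → ℂ) :
    serIdeal (Fin.snoc (α := fun _ => (Fin n → ℂ) → ℂ) s u) = serIdeal s ⊔ Ideal.span {ser u} := by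
  rw [serIdeal, serIdeal, ← Ideal.span_union]
  congr 1
  ext x
  constructor
  · rintro ⟨j, rfl⟩
    refine Fin.lastCases ?_ (fun i => ?_) j
    · right
      simp
    · left
      exact ⟨i, by simp⟩
  · rintro (⟨i, rfl⟩ | h)
    · exact ⟨i.castSucc, by simp⟩
    · rw [Set.mem_singleton_iff] at h
      exact ⟨Fin.last k, by simp [h]⟩

theorem hol_snoc {s : Fin k → (Fin n → ℂ) → ℂ} {u : (Fin n → ℂ) → ℂ} (hs : ∀ j, Hol (s j))
    (hu : Hol u) : ∀ j, Hol (Fin.snoc (α := fun _ => (Fin n → ℂ) → ℂ) s u j) := by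
  intro j
  refine Fin.lastCases ?_ (fun i => ?_) j
  · simpa using hu
  · simpa using hs i

/-! ### The formal inputs -/

/-- formal Newton-Puiseux arcs of a curve and the formula for colengths (FORD of helper824) -/
def FordT : Prop := ∀ (n : ℕ) (I : Ideal (MvPowerSeries (Fin n) ℂ)) (l : MvPowerSeries (Fin n) ℂ),
  MvPowerSeries.constantCoeff l = 0 →
  Module.Finite ℂ (MvPowerSeries (Fin n) ℂ ⧸ (I ⊔ Ideal.span {l})) →
  (∀ x, l * x ∈ I → x ∈ I) →
  ∃ N : ℕ, 0 < N ∧ ∃ (k : ℕ) (φ : Fin k → (MvPowerSeries (Fin n) ℂ →ₐ[ℂ] PowerSeries ℂ)),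
    (∀ i, I ≤ RingHom.ker (φ i)) ∧ (∀ i, φ i l = PowerSeries.X ^ N) ∧
    ∀ (u : MvPowerSeries (Fin n) ℂ) (e : ℕ),
      (Module.Finite ℂ (MvPowerSeries (Fin n) ℂ ⧸ (I ⊔ Ideal.span {u})) ∧
        finrank ℂ (MvPowerSeries (Fin n) ℂ ⧸ (I ⊔ Ideal.span {u})) = e) ↔
      ∑ i, (φ i u).order = ((N * e : ℕ) : ℕ∞)

/-- chain rule for formal arcs (helper824) -/
def ChainT : Prop := ∀ (n : ℕ) (φ : MvPowerSeries (Fin n) ℂ →ₐ[ℂ] PowerSeries ℂ)
  (g : MvPowerSeries (Fin n) ℂ), PowerSeries.derivative ℂ (φ g) =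
    ∑ i, φ (MvPowerSeries.pderiv ℂ i g) * PowerSeries.derivative ℂ (φ (MvPowerSeries.X i))

/-- formal arcs preserve the constant coefficient (helper824) -/
def LocT : Prop := ∀ (n : ℕ) (φ : MvPowerSeries (Fin n) ℂ →ₐ[ℂ] PowerSeries ℂ)
  (g : MvPowerSeries (Fin n) ℂ), PowerSeries.constantCoeff (φ g) = MvPowerSeries.constantCoeff g

/-- a system of parameters is a regular sequence (helper25) -/
def CMT : Prop := ∀ (m : ℕ) (a : Fin m → MvPowerSeries (Fin (m + 1)) ℂ)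
  (l : MvPowerSeries (Fin (m + 1)) ℂ), (∀ i, MvPowerSeries.constantCoeff (a i) = 0) →
  MvPowerSeries.constantCoeff l = 0 →
  Module.Finite ℂ (MvPowerSeries (Fin (m + 1)) ℂ ⧸
    (Ideal.span (Set.range a) ⊔ Ideal.span {l})) →
  ∀ x, l * x ∈ Ideal.span (Set.range a) → x ∈ Ideal.span (Set.range a)

/-- the formal arcs of a curve defined by germs: `Fin.snoc a l` is a system of parameters -/
theorem exists_arcs (hford : FordT) (hcm : CMT) {a : Fin m → (Fin (m + 1) → ℂ) → ℂ}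
    {l : (Fin (m + 1) → ℂ) → ℂ} (ha : ∀ i, Hol (a i)) (hl : Hol l) (ha0 : ∀ i, a i 0 = 0)
    (hl0 : l 0 = 0) {d : ℕ}
    (h : Colength (Fin.snoc (α := fun _ => (Fin (m + 1) → ℂ) → ℂ) a l) d) :
    ∃ N : ℕ, 0 < N ∧ ∃ (k : ℕ)
      (φ : Fin k → (MvPowerSeries (Fin (m + 1)) ℂ →ₐ[ℂ] PowerSeries ℂ)),
      (∀ i j, φ i (ser (a j)) = 0) ∧ (∀ i, φ i (ser l) = PowerSeries.X ^ N) ∧
      ∀ u, Hol u → ∀ e : ℕ,
        Colength (Fin.snoc (α := fun _ => (Fin (m + 1) → ℂ) → ℂ) a u) e ↔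
          ∑ i, (φ i (ser u)).order = ((N * e : ℕ) : ℕ∞) := by
  rw [colength_iff_ser (hol_snoc ha hl), serIdeal_snoc] at h
  obtain ⟨N, hN, k, φ, h1, h2, h3⟩ := hford _ (serIdeal a) (ser l)
    (by rw [constantCoeff_ser hl, hl0]) h.1
    (hcm m (fun j => ser (a j)) (ser l) (fun i => by rw [constantCoeff_ser (ha i), ha0])
      (by rw [constantCoeff_ser hl, hl0]) h.1)
  refine ⟨N, hN, k, φ, fun i j => ?_, h2, fun u hu e => ?_⟩
  · have h4 : ser (a j) ∈ serIdeal a := Ideal.subset_span ⟨j, rfl⟩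
    exact (RingHom.mem_ker).1 (h1 i h4)
  · rw [colength_iff_ser (hol_snoc ha hu), serIdeal_snoc, h3]

end Vale.Agent.P298.H766
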