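import Vale.Agent.P298.H766.Plane
import Vale.Agent.P298.H824.Props

/-!
# P298, colength calculus (helper766): the statements without hypotheses
-/

namespace Vale.Agent.P298.H766

open Filter Topology Metric Vale.Agent.P298 Module

variable {n m k : ℕ}

/-- the formal arcs of a curve defined by germs -/
theorem arcs {a : Fin m → (Fin (m + 1) → ℂ) → ℂ} {l : (Fin (m + 1) → ℂ) → ℂ}
    (ha : ∀ i, Hol (a i)) (hl : Hol l) (ha0 : ∀ i, a i 0 = 0) (hl0 : l 0 = 0) {d : ℕ}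
    (h : Colength (Fin.snoc (α := fun _ => (Fin (m + 1) → ℂ) → ℂ) a l) d) :
    ∃ N : ℕ, 0 < N ∧ ∃ (k : ℕ)
      (φ : Fin k → (MvPowerSeries (Fin (m + 1)) ℂ →ₐ[ℂ] PowerSeries ℂ)),
      (∀ i j, φ i (ser (a j)) = 0) ∧ (∀ i, φ i (ser l) = PowerSeries.X ^ N) ∧
      ∀ u, Hol u → ∀ e : ℕ,
        Colength (Fin.snoc (α := fun _ => (Fin (m + 1) → ℂ) → ℂ) a u) e ↔
          ∑ i, (φ i (ser u)).order = ((N * e : ℕ) : ℕ∞) :=
  exists_arcs P298.H824.fordT P298.H824.cmT ha hl ha0 hl0 h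

/-- additivity of the colength along a curve -/
theorem colength_add {a : Fin m → (Fin (m + 1) → ℂ) → ℂ} {u v : (Fin (m + 1) → ℂ) → ℂ}
    (ha : ∀ i, Hol (a i)) (hu : Hol u) (hv : Hol v) {d d' : ℕ}
    (h : Colength (Fin.snoc (α := fun _ => (Fin (m + 1) → ℂ) → ℂ) a u) d)
    (h' : Colength (Fin.snoc (α := fun _ => (Fin (m + 1) → ℂ) → ℂ) a v) d') :
    Colength (Fin.snoc (α := fun _ => (Fin (m + 1) → ℂ) → ℂ) a (fun x => u x * v x))
      (d + d') :=
  colength_mul P298.H824.fordT P298.H824.cmT ha hu hv h h'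

/-- additivity of the colength along a curve, in the other direction -/
theorem exists_colength_add {a : Fin m → (Fin (m + 1) → ℂ) → ℂ} {u v : (Fin (m + 1) → ℂ) → ℂ}
    (ha : ∀ i, Hol (a i)) (hu : Hol u) (hv : Hol v) {e : ℕ}
    (h : Colength (Fin.snoc (α := fun _ => (Fin (m + 1) → ℂ) → ℂ) a (fun x => u x * v x)) e) :
    ∃ d d', Colength (Fin.snoc (α := fun _ => (Fin (m + 1) → ℂ) → ℂ) a u) d ∧
      Colength (Fin.snoc (α := fun _ => (Fin (m + 1) → ℂ) → ℂ) a v) d' ∧ e = d + d' :=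
  exists_colength_of_mul P298.H824.fordT P298.H824.cmT ha hu hv h

/-- Teissier's formula with the Milnor number of the restriction -/
theorem teissier_milnor' {f : (Fin (m + 1) → ℂ) → ℂ} (hf : Hol f) (f0 : f 0 = 0) {μ ν : ℕ}
    (hμ : Milnor f μ)
    (hν : Milnor (fun x : Fin m → ℂ => f (Fin.snoc (α := fun _ => ℂ) x 0)) ν) :
    Colength (Fin.snoc (α := fun _ => (Fin (m + 1) → ℂ) → ℂ)
      (fun j : Fin m => pd j.castSucc f) f) (μ + ν) :=
  teissier_milnor P298.H824.fordT P298.H824.cmT P298.H824.chainT P298.H824.locT hf f0 hμ hν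

/-- (N2-a) for surfaces -/
theorem N2a {f : (Fin 3 → ℂ) → ℂ} (hf : Hol f) (f0 : f 0 = 0) {μ ν : ℕ} (hμ : Milnor f μ)
    (hν : Milnor (fun x : Fin 2 → ℂ => f ![x 0, x 1, 0]) ν) :
    Colength ![f, pd 0 f, pd 1 f] (μ + ν) :=
  n2a P298.H824.fordT P298.H824.cmT P298.H824.chainT P298.H824.locT hf f0 hμ hν

/-- (N2-b) Teissier's formula for plane curves -/
theorem N2b {g : (Fin 2 → ℂ) → ℂ} (hg : Hol g) (g0 : g 0 = 0) {μ d : ℕ} (hμ : Milnor g μ)
    (hd : Colength ![g, fun x => x 0] d) : Colength ![g, pd 1 g] (μ + d - 1) :=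
  n2b P298.H824.fordT P298.H824.cmT P298.H824.chainT P298.H824.locT hg g0 hμ hd

end Vale.Agent.P298.H766
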