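import Vale.Agent.P298.Bdl.B1
import Mathlib

/-!
# P298, colength calculus (helper766): the Taylor series of a germ
-/

namespace Vale.Agent.P298.H766

open Filter Topology Metric Vale.Agent.P298

variable {n : ℕ}

/-- polynomials as analytic functions -/
noncomputable def toAn (n : ℕ) : MvPolynomial (Fin n) ℂ →ₐ[ℂ] AnFun n :=
  MvPolynomial.aeval (coordF n)

theorem toAn_X (i : Fin n) : toAn n (MvPolynomial.X i) = coordF n i := by
  simp [toAn]

theorem toAn_apply (p : MvPolynomial (Fin n) ℂ) (x : Fin n → ℂ) :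
    (toAn n p : (Fin n → ℂ) → ℂ) x = MvPolynomial.eval x p := by
  induction p using MvPolynomial.induction_on with
  | C c =>
    rw [MvPolynomial.eval_C]
    simp only [toAn, MvPolynomial.aeval_C]
    rfl
  | add p q hp hq =>
    rw [map_add, map_add, ← hp, ← hq]
    rfl
  | mul_X p i hp =>
    rw [map_mul, map_mul, toAn_X, MvPolynomial.eval_X, ← hp]
    rfl

theorem hadamardA (f : AnFun n) : ∃ (c : ℂ) (g : Fin n → AnFun n),
    f - (algebraMap ℂ (AnFun n) c + ∑ i, coordF n i * g i) ∈ nul n := by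
  have h1 : AnalyticAt ℂ (fun p : (Fin n → ℂ) × (Fin 0 → ℂ) => (f : (Fin n → ℂ) → ℂ) p.1)
      (0, 0) := by
    have h2 : AnalyticAt ℂ (f : (Fin n → ℂ) → ℂ) ((0 : Fin n → ℂ), (0 : Fin 0 → ℂ)).1 := f.2
    exact h2.comp analyticAt_fst
  obtain ⟨ψ, hψ, h2⟩ := exists_hadamard (0 : Fin 0 → ℂ) h1
  have hg : ∀ i, AnalyticAt ℂ (fun x : Fin n → ℂ => ψ i (x, 0)) 0 := fun i =>
    AnalyticAt.comp₂ (hψ i) analyticAt_id analyticAt_const
  refine ⟨(f : (Fin n → ℂ) → ℂ) 0, fun i => ⟨fun x => ψ i (x, 0), hg i⟩, ?_⟩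
  rw [mem_nul]
  have h3 : Tendsto (fun x : Fin n → ℂ => (x, (0 : Fin 0 → ℂ))) (𝓝 0) (𝓝 (0, 0)) :=
    (Continuous.tendsto (by fun_prop) 0)
  filter_upwards [h3.eventually h2] with x hx
  have h4 : ((f - (algebraMap ℂ (AnFun n) ((f : (Fin n → ℂ) → ℂ) 0) +
      ∑ i, coordF n i * (⟨fun x => ψ i (x, 0), hg i⟩ : AnFun n)) : AnFun n) :
        (Fin n → ℂ) → ℂ) x = (f : (Fin n → ℂ) → ℂ) x - ((f : (Fin n → ℂ) → ℂ) 0 +
          ∑ i, x i * ψ i (x, 0)) := by
    simp [coordF]
  rw [h4, hx]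
  simp

theorem nul_le_qM (M : ℕ) : nul n ≤ qM n M := le_sup_left

theorem mX_pow_le_qM (M : ℕ) : mX n ^ M ≤ qM n M := le_sup_right

theorem mul_mem_qM {a b : AnFun n} {M : ℕ} (ha : a ∈ mX n) (hb : b ∈ qM n M) :
    a * b ∈ qM n (M + 1) := by
  rw [qM, Submodule.mem_sup] at hb
  obtain ⟨y, hy, z, hz, rfl⟩ := hb
  rw [mul_add]
  refine (qM n (M + 1)).add_mem (nul_le_qM _ ((nul n).mul_mem_left _ hy)) (mX_pow_le_qM _ ?_)
  rw [pow_succ']
  exact Ideal.mul_mem_mul ha hz

theorem coordF_mem (i : Fin n) : coordF n i ∈ mX n := Ideal.subset_span ⟨i, rfl⟩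

/-- approximation by polynomials -/
theorem exists_poly (M : ℕ) : ∀ f : AnFun n, ∃ p : MvPolynomial (Fin n) ℂ,
    f - toAn n p ∈ qM n M := by
  induction M with
  | zero =>
    intro f
    refine ⟨0, ?_⟩
    simp [qM]
  | succ M ih =>
    intro f
    obtain ⟨c, g, hg⟩ := hadamardA f
    choose p hp using fun i => ih (g i)
    refine ⟨MvPolynomial.C c + ∑ i, MvPolynomial.X i * p i, ?_⟩
    have h1 : f - toAn n (MvPolynomial.C c + ∑ i, MvPolynomial.X i * p i) =
        (f - (algebraMap ℂ (AnFun n) c + ∑ i, coordF n i * g i)) +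
          ∑ i, coordF n i * (g i - toAn n (p i)) := by
      have h2 : toAn n (MvPolynomial.C c) = algebraMap ℂ (AnFun n) c := by
        simp [toAn]
      rw [map_add, h2, map_sum]
      simp only [map_mul, toAn_X, mul_sub, Finset.sum_sub_distrib]
      ring
    rw [h1]
    exact (qM n (M + 1)).add_mem (nul_le_qM _ hg) (Submodule.sum_mem _ fun i _ =>
      mul_mem_qM (coordF_mem i) (hp i))

/-- a one variable polynomial of size `O (|s| ^ M)` has no terms of degree less than `M` -/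
theorem coeff_eq_zero_of_bound {p : Polynomial ℂ} {M : ℕ} {C : ℝ}
    (h : ∀ᶠ s in 𝓝 (0 : ℂ), ‖p.eval s‖ ≤ C * ‖s‖ ^ M) : ∀ k < M, p.coeff k = 0 := by
  intro k
  induction k using Nat.strong_induction_on with
  | _ k ih =>
  intro hk
  have h1 : Polynomial.X ^ k ∣ p := by
    rw [Polynomial.X_pow_dvd_iff]
    exact fun j hj => ih j hj (hj.trans hk)
  obtain ⟨q, hq⟩ := h1
  have h2 : p.coeff k = q.eval 0 := by
    rw [hq, Polynomial.coeff_X_pow_mul', if_pos le_rfl, Nat.sub_self,
      Polynomial.coeff_zero_eq_eval_zero]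
  rw [h2]
  by_contra hne
  have h3 : Tendsto (fun s : ℂ => ‖q.eval s‖) (𝓝[≠] 0) (𝓝 ‖q.eval 0‖) :=
    (q.continuous.norm.tendsto 0).mono_left nhdsWithin_le_nhds
  have h4 : Tendsto (fun s : ℂ => C * ‖s‖ ^ (M - k)) (𝓝[≠] 0) (𝓝 0) := by
    have h5 : Tendsto (fun s : ℂ => C * ‖s‖ ^ (M - k)) (𝓝 0) (𝓝 (C * ‖(0 : ℂ)‖ ^ (M - k))) :=
      Continuous.tendsto (by fun_prop) 0
    rw [norm_zero, zero_pow (by omega), mul_zero] at h5
    exact h5.mono_left nhdsWithin_le_nhds
  have h6 : ‖q.eval 0‖ ≤ 0 := by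
    refine le_of_tendsto_of_tendsto h3 h4 ?_
    filter_upwards [nhdsWithin_le_nhds h, self_mem_nhdsWithin] with s hs hs0
    have hs0' : 0 < ‖s‖ ^ k := pow_pos (norm_pos_iff.2 hs0) k
    rw [hq, Polynomial.eval_mul, Polynomial.eval_pow, Polynomial.eval_X, norm_mul, norm_pow] at hs
    have h7 : M = k + (M - k) := by omega
    rw [h7, pow_add] at hs
    have h8 : ‖s‖ ^ k * ‖q.eval s‖ ≤ ‖s‖ ^ k * (C * ‖s‖ ^ (M - k)) := by
      calc _ ≤ _ := hs
        _ = _ := by ring
    exact le_of_mul_le_mul_left h8 hs0'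
  exact hne (norm_le_zero_iff.1 h6)

/-- a polynomial in `qM` has no terms of degree less than `M` -/
theorem toAn_mem_qM {p : MvPolynomial (Fin n) ℂ} {M : ℕ} (h : toAn n p ∈ qM n M) :
    p ∈ MvPolynomial.idealOfVars (Fin n) ℂ ^ M := by
  obtain ⟨C, hC⟩ := qM_bound M _ h
  rw [MvPolynomial.mem_pow_idealOfVars_iff']
  have key : ∀ k < M, MvPolynomial.homogeneousComponent k p = 0 := by
    intro k hk
    refine MvPolynomial.funext fun x => ?_
    rw [map_zero]
    -- the polynomial `s ↦ p (s x)`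
    set q : Polynomial ℂ := MvPolynomial.aeval (fun i => Polynomial.C (x i) * Polynomial.X) p
      with hq
    have h1 : ∀ s : ℂ, q.eval s = MvPolynomial.eval (s • x) p := by
      intro s
      rw [hq, MvPolynomial.aeval_def, Polynomial.eval, Polynomial.eval₂_eq_eval_map]
      have h2 : Polynomial.eval s (Polynomial.map (RingHom.id ℂ)
          (MvPolynomial.eval₂ (algebraMap ℂ (Polynomial ℂ))
            (fun i => Polynomial.C (x i) * Polynomial.X) p)) =
          (Polynomial.evalRingHom s) (MvPolynomial.eval₂ (algebraMap ℂ (Polynomial ℂ))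
            (fun i => Polynomial.C (x i) * Polynomial.X) p) := by
        rw [Polynomial.map_id]
        rfl
      rw [h2, MvPolynomial.hom_eval₂]
      have h3 : (Polynomial.evalRingHom s).comp (algebraMap ℂ (Polynomial ℂ)) = RingHom.id ℂ := by
        ext c
        simp
      rw [h3]
      have h4 : (fun i => (Polynomial.evalRingHom s) (Polynomial.C (x i) * Polynomial.X)) =
          s • x := by
        funext i
        simp only [Polynomial.coe_evalRingHom, Polynomial.eval_mul, Polynomial.eval_C,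
          Polynomial.eval_X, Pi.smul_apply, smul_eq_mul]
        ring
      rw [h4]
      rfl
    have h2 : ∀ᶠ s in 𝓝 (0 : ℂ), ‖q.eval s‖ ≤ (C * ‖x‖ ^ M) * ‖s‖ ^ M := by
      have h3 : Tendsto (fun s : ℂ => s • x) (𝓝 0) (𝓝 0) := by
        have h4 : Tendsto (fun s : ℂ => s • x) (𝓝 0) (𝓝 ((0 : ℂ) • x)) :=
          Continuous.tendsto (by fun_prop) 0
        rwa [zero_smul] at h4
      filter_upwards [h3.eventually hC] with s hs
      rw [toAn_apply, ← h1, norm_smul, mul_pow] at hs
      calc _ ≤ _ := hs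
        _ = _ := by ring
    have h3 := coeff_eq_zero_of_bound h2 k hk
    have h4 : q.coeff k = MvPolynomial.eval x (MvPolynomial.homogeneousComponent k p) := by
      have h5 : q = ∑ d ∈ p.support, Polynomial.C (MvPolynomial.coeff d p *
          ∏ i ∈ d.support, x i ^ d i) * Polynomial.X ^ (Finsupp.degree d) := by
        rw [hq, MvPolynomial.aeval_def, MvPolynomial.eval₂_eq]
        refine Finset.sum_congr rfl fun d _ => ?_
        simp only [mul_pow, Finset.prod_mul_distrib, Finset.prod_pow_eq_pow_sum]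
        rw [← mul_assoc]
        congr 1
        rw [Polynomial.C_mul, map_prod]
        simp
      rw [h5, Polynomial.finsetSum_coeff]
      simp only [Polynomial.coeff_C_mul, Polynomial.coeff_X_pow]
      rw [MvPolynomial.homogeneousComponent_apply, map_sum, Finset.sum_filter]
      refine Finset.sum_congr rfl fun d _ => ?_
      by_cases hd : k = Finsupp.degree d
      · rw [if_pos hd, if_pos hd.symm, MvPolynomial.eval_monomial, mul_one]
        rfl
      · rw [if_neg hd, if_neg (fun h => hd h.symm), mul_zero]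
    rw [← h4, h3]
  intro d hd
  have h1 := key _ hd
  have h2 : MvPolynomial.coeff d (MvPolynomial.homogeneousComponent (Finsupp.degree d) p) =
      MvPolynomial.coeff d p := by
    rw [MvPolynomial.coeff_homogeneousComponent, if_pos rfl]
  rw [← h2, h1, MvPolynomial.coeff_zero]

end Vale.Agent.P298.H766
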