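import Mathlib

/-!
# P298, colength calculus (helper766): the ring of formal power series in `n` variables
-/

namespace Vale.Agent.P298.H766

open MvPowerSeries

variable {n : ℕ}

/-- the maximal ideal, as the ideal generated by the variables -/
noncomputable def mR (n : ℕ) : Ideal (MvPowerSeries (Fin n) ℂ) := Ideal.span (Set.range X)

theorem X_mem_mR (i : Fin n) : (X i : MvPowerSeries (Fin n) ℂ) ∈ mR n :=
  Ideal.subset_span ⟨i, rfl⟩

/-- a power series of order at least `M + 1` is a combination of the variables with coefficients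
of order at least `M` -/
theorem exists_eq_sum {M : ℕ} {f : MvPowerSeries (Fin n) ℂ} (hf : ((M + 1 : ℕ) : ℕ∞) ≤ f.order) :
    ∃ g : Fin n → MvPowerSeries (Fin n) ℂ, (∀ i, (M : ℕ∞) ≤ (g i).order) ∧
      f = ∑ i, X i * g i := by
  classical
  set h : Fin n → MvPowerSeries (Fin n) ℂ := fun i d =>
    if d i ≠ 0 ∧ ∀ j < i, d j = 0 then coeff d f else 0 with hh
  have hc : ∀ i d, coeff d (h i) = if d i ≠ 0 ∧ ∀ j < i, d j = 0 then coeff d f else 0 :=
    fun i d => rfl
  have h1 : ∀ i, (X i : MvPowerSeries (Fin n) ℂ) ∣ h i := by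
    intro i
    rw [X_dvd_iff]
    intro d hd
    rw [hc, if_neg (fun h => h.1 hd)]
  choose g hg using h1
  refine ⟨g, fun i => ?_, ?_⟩
  · refine le_order fun d hd => ?_
    have h2 : coeff (Finsupp.single i 1 + d) (h i) = coeff d (g i) := by
      rw [hg, X, coeff_add_monomial_mul, one_mul]
    rw [← h2, hc]
    split_ifs with h3
    · refine coeff_of_lt_order (lt_of_lt_of_le ?_ hf)
      rw [map_add, Finsupp.degree_single]
      have h4 : Finsupp.degree d < M := by exact_mod_cast hd
      exact_mod_cast (by omega : 1 + Finsupp.degree d < M + 1)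
    · rfl
  · have h2 : ∀ i, X i * g i = h i := fun i => (hg i).symm
    simp only [h2]
    ext d
    rw [map_sum]
    simp only [hc]
    by_cases hd : d = 0
    · subst hd
      rw [Finset.sum_eq_zero]
      · refine coeff_of_lt_order (lt_of_lt_of_le ?_ hf)
        rw [map_zero]
        exact_mod_cast Nat.succ_pos M
      · intro i _
        rw [if_neg]
        simp
    · have h3 : ∃ i, d i ≠ 0 := by
        by_contra h4
        push Not at h4
        exact hd (Finsupp.ext h4)
      have h4 : (Finset.univ.filter fun i => d i ≠ 0).Nonempty := by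
        obtain ⟨i, hi⟩ := h3
        exact ⟨i, by simp [hi]⟩
      set i0 := (Finset.univ.filter fun i => d i ≠ 0).min' h4 with hi0
      have h5 : d i0 ≠ 0 := by
        have := Finset.min'_mem _ h4
        rw [← hi0] at this
        simpa using this
      have h6 : ∀ j < i0, d j = 0 := by
        intro j hj
        by_contra h7
        have := Finset.min'_le (Finset.univ.filter fun i => d i ≠ 0) j (by simp [h7])
        exact absurd hj (not_lt.2 this)
      rw [Finset.sum_eq_single i0]
      · rw [if_pos ⟨h5, h6⟩]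
      · intro i _ hi
        rw [if_neg]
        rintro ⟨h7, h8⟩
        rcases lt_or_gt_of_ne hi with h9 | h9
        · exact h7 (h6 i h9)
        · exact h5 (h8 i0 h9)
      · intro h7
        exact absurd (Finset.mem_univ _) h7

theorem mem_mR_pow_of_order : ∀ (M : ℕ) {f : MvPowerSeries (Fin n) ℂ}, (M : ℕ∞) ≤ f.order →
    f ∈ mR n ^ M := by
  intro M
  induction M with
  | zero =>
    intro f _
    simp
  | succ M ih =>
    intro f hf
    obtain ⟨g, hg, rfl⟩ := exists_eq_sum hf
    rw [pow_succ']
    exact Submodule.sum_mem _ fun i _ => Ideal.mul_mem_mul (X_mem_mR i) (ih (hg i))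

theorem order_of_mem_mR_pow (M : ℕ) {f : MvPowerSeries (Fin n) ℂ} (hf : f ∈ mR n ^ M) :
    (M : ℕ∞) ≤ f.order := by
  induction M generalizing f with
  | zero => simp
  | succ M ih =>
    rw [pow_succ'] at hf
    refine Submodule.mul_induction_on hf ?_ ?_
    · intro a ha b hb
      have h1 : (1 : ℕ∞) ≤ a.order := by
        rw [one_le_order_iff_constCoeff_eq_zero]
        have h2 : mR n ≤ RingHom.ker (constantCoeff (σ := Fin n) (R := ℂ)) := by
          refine Ideal.span_le.2 ?_
          rintro _ ⟨i, rfl⟩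
          simp
        exact h2 ha
      calc ((M + 1 : ℕ) : ℕ∞) = 1 + (M : ℕ∞) := by rw [Nat.cast_add, Nat.cast_one, add_comm]
        _ ≤ a.order + b.order := add_le_add h1 (ih hb)
        _ ≤ _ := le_order_mul
    · intro f g hf hg
      exact (le_min hf hg).trans min_order_le_add

theorem maximalIdeal_eq : IsLocalRing.maximalIdeal (MvPowerSeries (Fin n) ℂ) = mR n := by
  refine le_antisymm ?_ ?_
  · intro f hf
    rw [IsLocalRing.mem_maximalIdeal, mem_nonunits_iff, MvPowerSeries.isUnit_iff_constantCoeff]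
      at hf
    have h1 : constantCoeff f = 0 := by
      by_contra h
      exact hf (isUnit_iff_ne_zero.2 h)
    have h2 : ((1 : ℕ) : ℕ∞) ≤ f.order := by
      rw [Nat.cast_one, one_le_order_iff_constCoeff_eq_zero]
      exact h1
    simpa using mem_mR_pow_of_order 1 h2
  · refine Ideal.span_le.2 ?_
    rintro _ ⟨i, rfl⟩
    have h1 : (X i : MvPowerSeries (Fin n) ℂ) ∈
        IsLocalRing.maximalIdeal (MvPowerSeries (Fin n) ℂ) := by
      rw [IsLocalRing.mem_maximalIdeal, mem_nonunits_iff, MvPowerSeries.isUnit_iff_constantCoeff]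
      simp
    exact h1

theorem mem_maximalIdeal_iff {f : MvPowerSeries (Fin n) ℂ} :
    f ∈ IsLocalRing.maximalIdeal (MvPowerSeries (Fin n) ℂ) ↔ constantCoeff f = 0 := by
  rw [IsLocalRing.mem_maximalIdeal, mem_nonunits_iff, MvPowerSeries.isUnit_iff_constantCoeff,
    isUnit_iff_ne_zero, not_not]

/-- an ideal of finite codimension contains a power of the maximal ideal -/
theorem exists_pow_le (J : Ideal (MvPowerSeries (Fin n) ℂ))
    [Module.Finite ℂ (MvPowerSeries (Fin n) ℂ ⧸ J)] : ∃ M, mR n ^ M ≤ J := by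
  by_cases hJ : J = ⊤
  · exact ⟨0, by rw [hJ]; exact le_top⟩
  have hnt : Nontrivial (MvPowerSeries (Fin n) ℂ ⧸ J) := Ideal.Quotient.nontrivial_iff.2 hJ
  have hart : IsArtinianRing (MvPowerSeries (Fin n) ℂ ⧸ J) :=
    IsArtinianRing.of_finite ℂ _
  obtain ⟨M, hM⟩ := IsArtinianRing.isNilpotent_jacobson_bot (R := MvPowerSeries (Fin n) ℂ ⧸ J)
  have hloc : IsLocalRing (MvPowerSeries (Fin n) ℂ ⧸ J) :=
    IsLocalRing.of_surjective' (Ideal.Quotient.mk J) Ideal.Quotient.mk_surjective
  refine ⟨M, fun f hf => ?_⟩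
  rw [← Ideal.Quotient.eq_zero_iff_mem]
  have h1 : Ideal.Quotient.mk J f ∈ (mR n ^ M).map (Ideal.Quotient.mk J) :=
    Ideal.mem_map_of_mem _ hf
  rw [Ideal.map_pow] at h1
  have h2 : (mR n).map (Ideal.Quotient.mk J) ≤ Ideal.jacobson ⊥ := by
    rw [IsLocalRing.jacobson_eq_maximalIdeal _ bot_ne_top, ← maximalIdeal_eq]
    refine Ideal.map_le_iff_le_comap.2 fun x hx => ?_
    rw [Ideal.mem_comap, IsLocalRing.mem_maximalIdeal, mem_nonunits_iff]
    intro hu
    have h3 : IsUnit x := by
      obtain ⟨y, hy⟩ := hu.exists_right_inv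
      obtain ⟨y, rfl⟩ := Ideal.Quotient.mk_surjective y
      rw [← map_mul, ← map_one (Ideal.Quotient.mk J), Ideal.Quotient.eq] at hy
      have h4 : J ≤ IsLocalRing.maximalIdeal _ := IsLocalRing.le_maximalIdeal hJ
      have h5 := h4 hy
      by_contra h6
      have h7 : x * y ∈ IsLocalRing.maximalIdeal (MvPowerSeries (Fin n) ℂ) :=
        Ideal.mul_mem_right _ _ h6
      have h8 := sub_mem h7 h5
      rw [sub_sub_cancel] at h8
      exact (Ideal.ne_top_iff_one _).1 (IsLocalRing.maximalIdeal.isMaximal _).ne_top h8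
    exact hx h3
  have h3 := Ideal.pow_right_mono h2 M h1
  rw [hM] at h3
  simpa using h3

theorem exists_trunc (M : ℕ) (f : MvPowerSeries (Fin n) ℂ) :
    (M : ℕ∞) ≤ (f - (f.truncTotal M : MvPowerSeries (Fin n) ℂ)).order := by
  refine le_order fun d hd => ?_
  have hd' : Finsupp.degree d < M := by exact_mod_cast hd
  rw [map_sub, MvPolynomial.coeff_coe, coeff_truncTotal _ hd', sub_self]

end Vale.Agent.P298.H766
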