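import Vale.Agent.P298.H766.Tay3
import Vale.Agent.P298.H766.Fps

/-!
# P298, colength calculus (helper766): colength of germs and of formal power series
-/

namespace Vale.Agent.P298.H766

open Filter Topology Metric Vale.Agent.P298 Module

variable {n k : ℕ}

/-- the germs `s` as elements of `AnFun n` -/
def toA (s : Fin k → (Fin n → ℂ) → ℂ) (hs : ∀ j, Hol (s j)) : Fin k → AnFun n :=
  fun j => ⟨s j, hs j⟩

/-- the ideal generated by the Taylor series of germs -/
noncomputable def tayIdeal (s : Fin k → AnFun n) : Ideal (MvPowerSeries (Fin n) ℂ) :=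
  Ideal.span (Set.range fun j => T n (s j))

/-- the ideal generated by germs -/
def anIdeal (s : Fin k → AnFun n) : Ideal (AnFun n) := nul n ⊔ Ideal.span (Set.range s)

theorem locIdeal_eq (s : Fin k → (Fin n → ℂ) → ℂ) (hs : ∀ j, Hol (s j)) :
    locIdeal (Set.range s) = anIdeal (toA s hs) := locIdeal_range s hs

theorem map_le (s : Fin k → AnFun n) : (anIdeal s).map (T n) ≤ tayIdeal s := by
  rw [anIdeal, Ideal.map_sup, Ideal.map_span]
  refine sup_le ?_ ?_
  · refine Ideal.map_le_iff_le_comap.2 fun x hx => ?_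
    rw [Ideal.mem_comap, T_nul hx]
    exact zero_mem _
  · rw [← Set.range_comp]
    exact le_rfl

/-- elements of `(T s)` are approximated by elements of `(s)` -/
theorem exists_approx (s : Fin k → AnFun n) (M : ℕ) {f : AnFun n} (hf : T n f ∈ tayIdeal s) :
    ∃ g ∈ anIdeal s, f - g ∈ qM n M := by
  rw [tayIdeal, Ideal.mem_span_range_iff_exists_fun] at hf
  obtain ⟨c, hc⟩ := hf
  refine ⟨∑ j, toAn n ((c j).truncTotal M) * s j, ?_, ?_⟩
  · refine Submodule.sum_mem _ fun j _ => ?_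
    exact Ideal.mul_mem_left _ _ (Ideal.mem_sup_right (Ideal.subset_span ⟨j, rfl⟩))
  · apply mem_qM_of_order
    have h1 : T n (f - ∑ j, toAn n ((c j).truncTotal M) * s j) =
        ∑ j, (c j - ((c j).truncTotal M : MvPowerSeries (Fin n) ℂ)) * T n (s j) := by
      rw [map_sub, map_sum, ← hc, ← Finset.sum_sub_distrib]
      refine Finset.sum_congr rfl fun j _ => ?_
      rw [map_mul, T_toAn, sub_mul]
    rw [h1]
    apply order_of_mem_mR_pow
    refine Submodule.sum_mem _ fun j _ => ?_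
    exact Ideal.mul_mem_right _ _ (mem_mR_pow_of_order M (exists_trunc M (c j)))

theorem mR_pow_le {s : Fin k → AnFun n} {M : ℕ} (h : qM n M ≤ anIdeal s) :
    mR n ^ M ≤ tayIdeal s := by
  have h1 : mR n = (mX n).map (T n) := by
    rw [mX, Ideal.map_span, mR]
    congr 1
    ext x
    constructor
    · rintro ⟨i, rfl⟩
      exact ⟨coordF n i, ⟨i, rfl⟩, T_coordF i⟩
    · rintro ⟨_, ⟨i, rfl⟩, rfl⟩
      exact ⟨i, (T_coordF i).symm⟩
  rw [h1, ← Ideal.map_pow]
  exact (Ideal.map_mono ((mX_pow_le_qM M).trans h)).trans (map_le s)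

/-- the comparison of the quotients, when the ideal contains a power of the maximal ideal -/
theorem mem_iff_of_le {s : Fin k → AnFun n} {M : ℕ} (h : qM n M ≤ anIdeal s) (f : AnFun n) :
    T n f ∈ tayIdeal s ↔ f ∈ anIdeal s := by
  constructor
  · intro hf
    obtain ⟨g, hg, h1⟩ := exists_approx s M hf
    have h2 := add_mem (h h1) hg
    rwa [sub_add_cancel] at h2
  · intro hf
    exact map_le s (Ideal.mem_map_of_mem _ hf)

/-- the isomorphism of the quotients -/
theorem exists_equiv {s : Fin k → AnFun n} {M : ℕ} (h : qM n M ≤ anIdeal s) :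
    Nonempty ((AnFun n ⧸ anIdeal s) ≃ₗ[ℂ] (MvPowerSeries (Fin n) ℂ ⧸ tayIdeal s)) := by
  let φ : (AnFun n ⧸ anIdeal s) →ₐ[ℂ] (MvPowerSeries (Fin n) ℂ ⧸ tayIdeal s) :=
    Ideal.Quotient.liftₐ (anIdeal s) ((Ideal.Quotient.mkₐ ℂ (tayIdeal s)).comp (T n))
      (fun f hf => by
        change Ideal.Quotient.mk (tayIdeal s) (T n f) = 0
        rw [Ideal.Quotient.eq_zero_iff_mem]
        exact (mem_iff_of_le h f).2 hf)
  have hφ : ∀ f, φ (Ideal.Quotient.mk _ f) = Ideal.Quotient.mk _ (T n f) := fun f => rfl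
  refine ⟨LinearEquiv.ofBijective φ.toLinearMap ⟨?_, ?_⟩⟩
  · rw [← LinearMap.ker_eq_bot, LinearMap.ker_eq_bot']
    intro x hx
    obtain ⟨f, rfl⟩ := Ideal.Quotient.mk_surjective x
    have h1 : φ (Ideal.Quotient.mk _ f) = 0 := hx
    rw [hφ, Ideal.Quotient.eq_zero_iff_mem, mem_iff_of_le h] at h1
    exact Ideal.Quotient.eq_zero_iff_mem.2 h1
  · intro y
    obtain ⟨g, rfl⟩ := Ideal.Quotient.mk_surjective y
    refine ⟨Ideal.Quotient.mk _ (toAn n (g.truncTotal M)), ?_⟩
    change φ (Ideal.Quotient.mk _ (toAn n (g.truncTotal M))) = _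
    rw [hφ, T_toAn, eq_comm, Ideal.Quotient.eq]
    exact mR_pow_le h (mem_mR_pow_of_order M (exists_trunc M g))

theorem nakayama_aux {A : Type*} [CommRing A] (N m I : Ideal A) (M : ℕ) (hm : m.FG) (hN : N ≤ I)
    (hunit : ∀ a ∈ m, ∃ w, (a + 1) * w - 1 ∈ N) (hle : m ^ M ≤ I ⊔ m ^ (M + 1)) :
    m ^ M ≤ I := by
  have hjac : m.map (Ideal.Quotient.mk N) ≤ Ideal.jacobson ⊥ := by
    intro x hx
    rw [Ideal.mem_jacobson_bot]
    intro y
    rw [Ideal.mem_map_iff_of_surjective _ Ideal.Quotient.mk_surjective] at hx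
    obtain ⟨a, ha, rfl⟩ := hx
    obtain ⟨b, rfl⟩ := Ideal.Quotient.mk_surjective y
    obtain ⟨w, hw⟩ := hunit (a * b) (Ideal.mul_mem_right _ _ ha)
    refine IsUnit.of_mul_eq_one (Ideal.Quotient.mk N w) ?_
    have h2 : Ideal.Quotient.mk N ((a * b + 1) * w - 1) = 0 := Ideal.Quotient.eq_zero_iff_mem.2 hw
    rw [map_sub, map_mul, map_one, sub_eq_zero, map_add, map_mul, map_one] at h2
    exact h2
  have hfg : ((m ^ M).map (Ideal.Quotient.mk N)).FG := Ideal.FG.map (Ideal.FG.pow hm) _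
  have hle' : (m ^ M).map (Ideal.Quotient.mk N) ≤
      I.map (Ideal.Quotient.mk N) ⊔ m.map (Ideal.Quotient.mk N) •
        (m ^ M).map (Ideal.Quotient.mk N) := by
    have h1 := Ideal.map_mono (f := Ideal.Quotient.mk N) hle
    rwa [Ideal.map_sup, pow_succ', Ideal.map_mul] at h1
  have h1 := Submodule.le_of_le_smul_of_le_jacobson_bot hfg hjac hle'
  intro f hf
  have h2 : Ideal.Quotient.mk N f ∈ I.map (Ideal.Quotient.mk N) := h1 (Ideal.mem_map_of_mem _ hf)
  rw [Ideal.mem_map_iff_of_surjective _ Ideal.Quotient.mk_surjective] at h2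
  obtain ⟨g, hg, h3⟩ := h2
  have h4 : f - g ∈ N := by
    rw [← Ideal.Quotient.eq, h3]
  have h5 := add_mem (hN h4) hg
  rwa [sub_add_cancel] at h5

theorem unit_aux (a : AnFun n) (ha : a ∈ mX n) : ∃ w, (a + 1) * w - 1 ∈ nul n := by
  refine exists_inv _ ?_
  have h2 : mX n ≤ RingHom.ker (ev0 n) := by
    refine Ideal.span_le.2 ?_
    rintro _ ⟨i, rfl⟩
    exact ev0_coordF i
  have h3 : ev0 n a = 0 := h2 ha
  rw [map_add, h3, zero_add, map_one]
  exact one_ne_zero

/-- Nakayama: if the formal ideal has finite colength, the ideal of germs contains a power of the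
maximal ideal -/
theorem exists_qM_le (s : Fin k → AnFun n)
    [Module.Finite ℂ (MvPowerSeries (Fin n) ℂ ⧸ tayIdeal s)] :
    ∃ M, qM n M ≤ anIdeal s := by
  obtain ⟨M, hM⟩ := exists_pow_le (tayIdeal s)
  refine ⟨M, sup_le le_sup_left ?_⟩
  refine nakayama_aux (nul n) (mX n) _ M ?_ le_sup_left unit_aux ?_
  · classical
    exact ⟨Finset.univ.image (coordF n), by simp [mX]⟩
  · intro f hf
    have h1 : T n f ∈ tayIdeal s := by
      refine hM ?_
      exact mem_mR_pow_of_order M (le_order_T (mX_pow_le_qM M hf))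
    obtain ⟨g, hg, h2⟩ := exists_approx s (M + 1) h1
    rw [qM, Submodule.mem_sup] at h2
    obtain ⟨y, hy, z, hz, hyz⟩ := h2
    have h4 : f = (g + y) + z := by
      rw [add_assoc, hyz]
      ring
    rw [h4]
    exact Submodule.add_mem_sup (add_mem hg (Ideal.mem_sup_left hy)) hz

theorem hasColength_iff (s : Fin k → (Fin n → ℂ) → ℂ) (hs : ∀ j, Hol (s j)) (d : ℕ) :
    HasColength (Set.range s) d ↔
      Module.Finite ℂ (MvPowerSeries (Fin n) ℂ ⧸ tayIdeal (toA s hs)) ∧
        finrank ℂ (MvPowerSeries (Fin n) ℂ ⧸ tayIdeal (toA s hs)) = d := by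
  constructor
  · intro h
    obtain ⟨M, hM⟩ := qM_le n d
    have h1 := hM M le_rfl _ h
    rw [locIdeal_eq s hs] at h1
    obtain ⟨e⟩ := exists_equiv h1
    rw [HasColength, locIdeal_eq s hs] at h
    obtain ⟨h2, h3⟩ := h
    exact ⟨Module.Finite.equiv e, by rw [← e.finrank_eq, h3]⟩
  · rintro ⟨h1, h2⟩
    obtain ⟨M, hM⟩ := exists_qM_le (toA s hs)
    obtain ⟨e⟩ := exists_equiv hM
    rw [HasColength, locIdeal_eq s hs]
    exact ⟨Module.Finite.equiv e.symm, by rw [e.finrank_eq, h2]⟩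

theorem colength_of_hasColength {s : Fin k → (Fin n → ℂ) → ℂ} (hs : ∀ j, Hol (s j)) {d : ℕ}
    (h : HasColength (Set.range s) d) : Colength s d := by
  obtain ⟨h1, h2⟩ := h
  set I := locIdeal (Set.range s) with hI
  have hfree : Module.Free ℂ (AnFun n ⧸ I) := Module.Free.of_divisionRing ℂ _
  have b0 := Module.finBasisOfFinrankEq ℂ (AnFun n ⧸ I) h2
  choose B hB using fun i => Ideal.Quotient.mk_surjective (I := I) (b0 i)
  refine ⟨fun i => (B i : (Fin n → ℂ) → ℂ), fun i => (B i).2, fun f hf => ?_⟩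
  set F : AnFun n := ⟨f, hf⟩ with hF
  have hcoe : ∀ c : Fin d → ℂ, ((F - ∑ i, c i • B i : AnFun n) : (Fin n → ℂ) → ℂ) =
      fun x => f x - ∑ i, c i * (B i : (Fin n → ℂ) → ℂ) x := by
    intro c
    funext x
    simp [hF]
  have hiff : ∀ c : Fin d → ℂ,
      InIdeal s (fun x => f x - ∑ i, c i * (B i : (Fin n → ℂ) → ℂ) x) ↔
        Ideal.Quotient.mk I F = ∑ i, c i • b0 i := by
    intro c
    rw [← hcoe, ← mem_locIdeal_iff hs, ← Ideal.Quotient.eq_zero_iff_mem, map_sub, sub_eq_zero,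
      map_sum]
    have h3 : ∀ i, Ideal.Quotient.mk (locIdeal (Set.range s)) (c i • B i) = c i • b0 i := by
      intro i
      rw [← hB]
      rfl
    simp only [h3]
    exact Iff.rfl
  refine ⟨fun i => b0.repr (Ideal.Quotient.mk I F) i, ?_, ?_⟩
  · change InIdeal s (fun x => f x - ∑ i, (b0.repr (Ideal.Quotient.mk I F) i) *
      (B i : (Fin n → ℂ) → ℂ) x)
    rw [hiff]
    exact (b0.sum_repr _).symm
  · intro c hc
    change InIdeal s (fun x => f x - ∑ i, c i * (B i : (Fin n → ℂ) → ℂ) x) at hc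
    rw [hiff] at hc
    funext i
    rw [hc]
    rw [b0.repr_sum_self]

/-- (COL1) colength of germs and of formal power series -/
theorem colength_iff (s : Fin k → (Fin n → ℂ) → ℂ) (hs : ∀ j, Hol (s j)) (d : ℕ) :
    Colength s d ↔
      Module.Finite ℂ (MvPowerSeries (Fin n) ℂ ⧸ tayIdeal (toA s hs)) ∧
        finrank ℂ (MvPowerSeries (Fin n) ℂ ⧸ tayIdeal (toA s hs)) = d := by
  rw [← hasColength_iff s hs]
  exact ⟨hasColength_of_colength hs, colength_of_hasColength hs⟩

end Vale.Agent.P298.H766
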