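import Vale.Agent.P298.H766.Dim
import Vale.Agent.P298.H766.Germ

/-!
# Isolated singularities in at least three variables are irreducible
-/

open Filter Topology Metric Vale.Agent.P298 Module

namespace Vale.Agent.P298.H766

variable {n k : ℕ}

/-- Fewer than `n` germs vanishing at `0` never have finite colength. -/
theorem not_colength {s : Fin k → (Fin n → ℂ) → ℂ} (hs : ∀ j, Hol (s j)) (h0 : ∀ j, s j 0 = 0)
    (hk : k < n) (d : ℕ) : ¬ Colength s d := by
  intro h
  refine not_finite_of_lt (fun j => ser (s j)) (fun j => ?_) hk ((colength_iff_ser hs d).1 h).1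
  rw [constantCoeff_ser (hs j), h0]

theorem finite_of_le' {R : Type*} [CommRing R] [Algebra ℂ R] {I J : Ideal R} (h : I ≤ J)
    (hf : Module.Finite ℂ (R ⧸ I)) : Module.Finite ℂ (R ⧸ J) :=
  Module.Finite.of_surjective (Ideal.Quotient.factorₐ ℂ h).toLinearMap
    (Ideal.Quotient.factor_surjective h)

/-- **The Taylor series of an isolated singularity in at least three variables is
irreducible.** -/
theorem irreducible_ser {f : (Fin n → ℂ) → ℂ} (hf : Hol f) (f0 : f 0 = 0) {μ : ℕ}
    (hμ : Milnor f μ) (hn : 3 ≤ n) : Irreducible (ser f) := by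
  have hpd : ∀ i : Fin n, Hol (pd i f) := fun i => hol_pd hf i
  refine ⟨fun hu => ?_, fun A B hAB => ?_⟩
  · have := MvPowerSeries.isUnit_iff_constantCoeff.1 hu
    rw [constantCoeff_ser hf, f0] at this
    exact not_isUnit_zero this
  · by_contra hne
    push Not at hne
    obtain ⟨hA, hB⟩ := hne
    rw [MvPowerSeries.isUnit_iff_constantCoeff, isUnit_iff_ne_zero, not_not] at hA hB
    have h1 := ((colength_iff_ser hpd μ).1 hμ).1
    have h2 : serIdeal (fun i => pd i f) ≤ Ideal.span (Set.range ![A, B]) := by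
      refine Ideal.span_le.2 ?_
      rintro _ ⟨i, rfl⟩
      simp only
      rw [ser_pd hf, hAB, Derivation.leibniz, smul_eq_mul, smul_eq_mul]
      refine Ideal.add_mem _ (Ideal.mul_mem_right _ _ (Ideal.subset_span ⟨0, rfl⟩))
        (Ideal.mul_mem_right _ _ (Ideal.subset_span ⟨1, rfl⟩))
    refine not_finite_of_lt ![A, B] (fun j => ?_) (by omega) (finite_of_le' h2 h1)
    fin_cases j
    · exact hA
    · exact hB

/-! ### `ℂ⟦x, y⟧` is factorial -/

instance instIsDomainFps (n : ℕ) : IsDomain (MvPowerSeries (Fin n) ℂ) :=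
  NoZeroDivisors.to_isDomain _

/-- `ℂ⟦x⟧` in one variable of type `Fin 1`. -/
noncomputable def oneEquiv : MvPowerSeries (Fin 1) ℂ ≃ₐ[ℂ] PowerSeries ℂ :=
  MvPowerSeries.renameEquiv ℂ (Equiv.ofUnique (Fin 1) Unit)

instance : IsPrincipalIdealRing (MvPowerSeries (Fin 1) ℂ) :=
  IsPrincipalIdealRing.of_surjective (oneEquiv.symm : PowerSeries ℂ →+* MvPowerSeries (Fin 1) ℂ)
    oneEquiv.symm.surjective

instance : UniqueFactorizationMonoid (MvPowerSeries (Fin 2) ℂ) := by
  have h : UniqueFactorizationMonoid (PowerSeries (MvPowerSeries (Fin 1) ℂ)) := inferInstance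
  exact (MvPowerSeries.finSuccEquiv ℂ 1).symm.toMulEquiv.uniqueFactorizationMonoid h

instance : IsIntegrallyClosed (MvPowerSeries (Fin 2) ℂ) := inferInstance

end Vale.Agent.P298.H766
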