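import Vale.Agent.P298.H766.Anc9

/-!
# The anchor field of `Link` (helper471)

Part 3: the theorem.
-/

open Function Module Filter Topology Polynomial Asymptotics

namespace Vale.Agent.P298.H766

open Vale.Agent.P298 Vale.Agent.P298.H707 Vale.Agent.P298.H471
open Vale.Agent.P298.H379 (pt)
open Vale.Agent.P298.H983 (omg)
open Vale.Agent.P298.FF

section orbit

variable {n : ℕ} {K : ℕ} {ζ : Fin n → ℂ × ℂ → ℂ} {σ : Equiv.Perm (Fin n)}

theorem root_pow (h : ∀ᶠ q : ℂ × ℂ in 𝓝 0, ∀ l, ζ l (omg K * q.1, q.2) = ζ (σ l) q) (l : Fin n)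
    (m : ℕ) : (fun u : ℂ => ζ ((σ ^ m) l) (u, 0)) =ᶠ[𝓝 0] fun u => ζ l (omg K ^ m * u, 0) := by
  have h0 : ∀ᶠ u : ℂ in 𝓝 0, ∀ l, ζ l (omg K * u, 0) = ζ (σ l) (u, 0) :=
    tendsto_axis.eventually h
  induction m with
  | zero => simp
  | succ m ih =>
    have ht : Tendsto (fun u : ℂ => omg K * u) (𝓝 0) (𝓝 0) := by
      have : Continuous fun u : ℂ => omg K * u := by fun_prop
      exact this.tendsto' 0 0 (mul_zero _)
    filter_upwards [h0, ht.eventually ih] with u g1 g2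
    rw [pow_succ', Equiv.Perm.mul_apply, ← g1, g2]
    congr 2
    rw [pow_succ]
    ring

end orbit

variable {f : (Fin 3 → ℂ) → ℂ} {κ : Type*} {Θ : κ → ℂ × ℂ → ℂ × ℂ} {n : ℕ}
    {P : ℂ × ℂ → ℂ[X]} {v : ℂ × (ℂ × ℂ) → ℂ} {K : κ → ℕ} {ζ : κ → Fin n → ℂ × ℂ → ℂ}
    {σ ρ : κ → Equiv.Perm (Fin n)}
    {𝒦 : Type*} [Field 𝒦] [Algebra ℂ 𝒦]
    [Algebra (RV f) 𝒦] [IsScalarTower ℂ (RV f) 𝒦] {I : Type*} [Fintype I] [DecidableEq I]

/-- the orders of a function on the charts, as in `Link.ord`. -/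
def OrdAt (M : Model f Θ n P v K ζ σ ρ) (C : H955.CModel (RV f) 𝒦 I)
    (q : κ → Fin n → C.Q) (ka : κ → Fin n → ℕ) (h : (Fin 3 → ℂ) → ℂ) (i : κ) (l : Fin n) : Prop :=
  ∃ (α β δ : ℕ) (u : ℂ × ℂ → ℂ) (g : ℂ → ℂ),
    (α : ℤ) = ka i l * C.vR (q i l).1 (cl f h) ∧
    (β : ℤ) = C.e2 (q i l) * C.y (fun j => C.vR j (cl f h)) (q i l) ∧
    ((β + δ : ℕ) : ℤ) = C.lam (q i l) (algebraMap (RV f) 𝒦 (cl f h)) ∧
    AnalyticAt ℂ u 0 ∧ AnalyticAt ℂ g 0 ∧ g 0 ≠ 0 ∧
    (∀ᶠ p in 𝓝 (0 : ℂ × ℂ), h (M.ch i l p) = p.1 ^ α * p.2 ^ β * u p) ∧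
    (∀ᶠ b in 𝓝 (0 : ℂ), u (0, b) = b ^ δ * g b)

theorem hol_x0 : Hol (fun x : Fin 3 → ℂ => x 0) := (coordF 3 0).2

/-- orders of `x` at the chart of the place of `{x = 0}`. -/
theorem ord_x (M : Model f Θ n P v K ζ σ ρ) (C : H955.CModel (RV f) 𝒦 I)
    (q : κ → Fin n → C.Q) (ka : κ → Fin n → ℕ) {i0 : κ} {l : Fin n}
    (ord : OrdAt M C q ka (fun x => x 0) i0 l) {k : ℕ}
    (hΘ : ∀ᶠ s in 𝓝 (0 : ℂ × ℂ), Θ i0 s = (s.1 ^ (k + 1) * s.2, s.1)) :
    (ka i0 l : ℤ) * C.vR (q i0 l).1 (cl f (fun x => x 0)) = K i0 * (k + 1) ∧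
      C.lam (q i0 l) (algebraMap (RV f) 𝒦 (cl f (fun x => x 0))) = K i0 := by
  have hK := (M.C i0).hK
  obtain ⟨α, β, δ, u, g, h1, h2, h3, hu, hg, hg0, h4, h5⟩ := ord
  have e1 : ∀ᶠ p : ℂ × ℂ in 𝓝 0,
      p.1 ^ (K i0 * (k + 1)) * p.2 ^ (K i0) * (1 : ℂ) = p.1 ^ α * p.2 ^ β * u p := by
    filter_upwards [h4, (MonU.tendsto_powK hK).eventually hΘ] with p g1 g2
    rw [← g1]
    show _ = (Θ i0 (p.1 ^ K i0, p.2 ^ K i0)).1
    rw [g2]
    simp only [mul_one, pow_mul]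
  have hne : ∀ᶠ b : ℂ in 𝓝[≠] 0, u (0, b) ≠ 0 := by
    filter_upwards [nhdsWithin_le_nhds h5,
      nhdsWithin_le_nhds (hg.continuousAt.eventually_ne hg0), self_mem_nhdsWithin] with b g1 g2 g3
    rw [g1]
    exact mul_ne_zero (pow_ne_zero _ g3) g2
  have hα : α = K i0 * (k + 1) := by
    refine le_antisymm ?_ ?_
    · exact exp_le (w := fun _ => 1) analyticAt_const hu e1 (Eventually.of_forall fun _ => one_ne_zero)
    · exact exp_le (u := fun _ => 1) hu analyticAt_const (e1.mono fun p hp => hp.symm) hne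
  subst hα
  have e2 := axis_eq (w := fun _ => 1) analyticAt_const hu e1
  have e3 : ∀ᶠ b : ℂ in 𝓝[≠] 0, b ^ (K i0) = b ^ (β + δ) * g b := by
    filter_upwards [e2, nhdsWithin_le_nhds h5] with b g1 g2
    rw [g2] at g1
    rw [pow_add, ← mul_one (b ^ K i0), g1]
    ring
  have e4 : β + δ = K i0 := pow_eq_of hg.continuousAt hg0 e3
  constructor
  · rw [← h1]
    push_cast
    ring
  · rw [← h3, e4]

open Classical in
/-- the number of places of `{x = 0}` on a component. -/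
theorem rC_eq (C : H955.CModel (RV f) 𝒦 I) {N : ℕ} (hN : N ≠ 0) (q : Fin n → C.Q)
    (ka : Fin n → ℕ) (hnb : ∀ l, C.nb (q l) = none) (he : ∀ l, C.e1 (q l) = N)
    (hlam : ∀ l, C.lam (q l) (algebraMap (RV f) 𝒦 C.x) = N)
    (hka : ∀ l, ∑ l' ∈ Finset.univ.filter (fun l' => q l' = q l), (ka l' : ℤ) = N)
    (hall : ∀ p, C.nb p = none → C.lam p (algebraMap (RV f) 𝒦 C.x) ≠ 0 → ∃ l, q l = p) (i : I) :
    (N : ℤ) * C.rC i = ∑ l ∈ Finset.univ.filter (fun l => (q l).1 = i), (ka l : ℤ) := by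
  classical
  have hN' : (N : ℤ) ≠ 0 := by exact_mod_cast hN
  -- the set of the places
  set S : Finset C.Q := (Finset.univ.filter (fun l => (q l).1 = i)).image q with hS
  have h1 : ∑ l ∈ Finset.univ.filter (fun l => (q l).1 = i), (ka l : ℤ) = ∑ _p ∈ S, (N : ℤ) := by
    rw [hS, ← Finset.sum_fiberwise_of_maps_to (s := Finset.univ.filter (fun l => (q l).1 = i))
      (t := (Finset.univ.filter (fun l => (q l).1 = i)).image q) (g := q)
      (fun l hl => Finset.mem_image_of_mem q hl)]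
    refine Finset.sum_congr rfl fun p hp => ?_
    obtain ⟨l, hl, rfl⟩ := Finset.mem_image.1 hp
    rw [← hka l]
    refine Finset.sum_congr ?_ fun _ _ => rfl
    ext l'
    simp only [Finset.mem_filter, Finset.mem_univ, true_and] at hl ⊢
    constructor
    · exact fun h => h.2
    · exact fun h => ⟨by rw [h]; exact hl, h⟩
  have h2 : C.rC i = (S.card : ℤ) := by
    have hfst : ∀ p ∈ S, p.1 = i := by
      intro p hp
      obtain ⟨l, hl, rfl⟩ := Finset.mem_image.1 hp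
      exact (Finset.mem_filter.1 hl).2
    let mk : Plk ℂ (C.κ i) → C.Q := fun P => ⟨i, P⟩
    have hinj' : Injective mk := by
      intro a b h
      exact eq_of_heq (Sigma.mk.inj h).2
    have hinj : Set.InjOn mk (mk ⁻¹' (S : Set C.Q)) := fun a _ b _ h => hinj' h
    set T : Finset (Plk ℂ (C.κ i)) := S.preimage mk hinj with hT
    have hmem : ∀ P, P ∈ T ↔ ∃ l, q l = ⟨i, P⟩ := by
      intro P
      rw [hT, Finset.mem_preimage, hS, Finset.mem_image]
      constructor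
      · rintro ⟨l, _, h⟩
        exact ⟨l, h⟩
      · rintro ⟨l, h⟩
        exact ⟨l, Finset.mem_filter.2 ⟨Finset.mem_univ _, by rw [h]⟩, h⟩
    have hval : ∀ P, (if C.nb ⟨i, P⟩ = none then
        C.lam ⟨i, P⟩ (algebraMap (RV f) 𝒦 C.x) / C.e1 ⟨i, P⟩ else 0) = if P ∈ T then 1 else 0 := by
      intro P
      by_cases hP : P ∈ T
      · rw [if_pos hP]
        obtain ⟨l, hl⟩ := (hmem P).1 hP
        rw [← hl, if_pos (hnb l), hlam l, he l, Int.ediv_self hN']
      · rw [if_neg hP]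
        by_cases hnb' : C.nb ⟨i, P⟩ = none
        · rw [if_pos hnb']
          by_cases h0 : C.lam ⟨i, P⟩ (algebraMap (RV f) 𝒦 C.x) = 0
          · rw [h0, Int.zero_ediv]
          · exact absurd ((hmem P).2 (hall _ hnb' h0)) hP
        · rw [if_neg hnb']
    rw [H955.CModel.rC, finsum_congr hval,
      finsum_eq_sum_of_support_subset (s := T) _ (fun P hP => by
        by_contra h
        exact hP (if_neg h))]
    rw [Finset.sum_congr rfl fun P hP => if_pos hP, Finset.sum_const, nsmul_eq_mul, mul_one]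
    have himg : S = T.image mk := by
      ext p
      constructor
      · intro hp
        have h5 := hfst p hp
        obtain ⟨j, Pp⟩ := p
        simp only at h5
        subst h5
        exact Finset.mem_image.2 ⟨Pp, by rw [hT, Finset.mem_preimage]; exact hp, rfl⟩
      · intro h
        obtain ⟨Pp, hPp, rfl⟩ := Finset.mem_image.1 h
        rw [hT, Finset.mem_preimage] at hPp
        exact hPp
    rw [himg, Finset.card_image_of_injective _ hinj']
  rw [h1, h2, Finset.sum_const, nsmul_eq_mul, mul_comm]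

open Classical in
/-- **The field `anchor` of `Link`.** `i0` is the chart of the place of the curve `x = 0`
(`Θ = (s ^ (k+1) t, s)`); all hypotheses about `q`, `ka`, `ord`, `zero`, `jac`, `pd2`, `canA` are
fields of `Link`. -/
theorem anchor_of (M : Model f Θ n P v K ζ σ ρ) (C : H955.CModel (RV f) 𝒦 I)
    (q : κ → Fin n → C.Q) (ka : κ → Fin n → ℕ)
    (ord : ∀ h, Hol h → cl f h ≠ 0 → ∀ i l, ∃ (α β δ : ℕ) (u : ℂ × ℂ → ℂ) (g : ℂ → ℂ),
      (α : ℤ) = ka i l * C.vR (q i l).1 (cl f h) ∧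
      (β : ℤ) = C.e2 (q i l) * C.y (fun j => C.vR j (cl f h)) (q i l) ∧
      ((β + δ : ℕ) : ℤ) = C.lam (q i l) (algebraMap (RV f) 𝒦 (cl f h)) ∧
      AnalyticAt ℂ u 0 ∧ AnalyticAt ℂ g 0 ∧ g 0 ≠ 0 ∧
      (∀ᶠ p in 𝓝 (0 : ℂ × ℂ), h (M.ch i l p) = p.1 ^ α * p.2 ^ β * u p) ∧
      (∀ᶠ b in 𝓝 (0 : ℂ), u (0, b) = b ^ δ * g b))
    (zero : ∀ h, Hol h → cl f h = 0 → ∀ i l, ∀ᶠ p in 𝓝 (0 : ℂ × ℂ), h (M.ch i l p) = 0)
    {a b : κ → ℕ} (jac : ∀ i, MonU (jacP (Θ i)) (a i) (b i)) {c d : κ → Fin n → ℕ}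
    (pd2 : ∀ i l, MonU (fun p => pd 2 f (M.ch i l p)) (c i l) (d i l))
    (canA : ∀ i l, (K i * (a i + 1) : ℤ) - c i l = ka i l * (C.K (q i l).1 + 1))
    (i0 : κ) (k : ℕ) (hΘ : ∀ᶠ s in 𝓝 (0 : ℂ × ℂ), Θ i0 s = (s.1 ^ (k + 1) * s.2, s.1))
    (hdisc : ∃ᶠ y in 𝓝 (0 : ℂ), disc n P (0, y) ≠ 0)
    (hx : C.x = cl f (fun x => x 0))
    (hfib : ∀ l l', q i0 l = q i0 l' ↔ ∃ m : ℕ, (σ i0 ^ m) l = l')
    (hnb : ∀ l, C.nb (q i0 l) = none) (he : ∀ l, C.e1 (q i0 l) = K i0)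
    (hcount : ∀ l, ka i0 l * (Finset.univ.filter (fun l' => q i0 l' = q i0 l)).card = K i0)
    (hall : ∀ p, C.nb p = none → C.lam p (algebraMap (RV f) 𝒦 C.x) ≠ 0 → ∃ l, q i0 l = p)
    (G : I → ℤ) :
    ∑ j, C.nodeData.rC j * (2 * G j + C.nodeData.A j + C.nodeData.K j) ≤
      2 * (C.c (G + C.nodeData.A) - C.c G) := by
  have hK := (M.C i0).hK
  have hx0 : cl f (fun x => x 0) ≠ 0 := by rw [← hx]; exact C.x_ne
  -- the arcs
  set r : Fin n → ℂ → ℂ := fun l u => ζ i0 l (u, 0) with hr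
  have hra : ∀ l, AnalyticAt ℂ (r l) 0 := fun l =>
    AnalyticAt.comp_of_eq (g := ζ i0 l) (f := fun u : ℂ => ((u, 0) : ℂ × ℂ)) ((M.C i0).hol l)
      (analyticAt_id.prod analyticAt_const) rfl
  have hr0 : ∀ l, r l 0 = 0 := fun l => (M.C i0).zero l
  have hder : ∀ l, MonU (fun q => (derivative (P (Θ i0 (q.1 ^ K i0, q.2 ^ K i0)))).eval
      (ζ i0 l q)) (c i0 l) (d i0 l) := fun l =>
    monU_der_of_pd M.W M.hf (M.C i0) (M.an i0) (M.zero i0) l (pd2 i0 l)
  have hne' := fun l => der_ne M.W (M.C i0) hΘ hdisc l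
  have hd0 : ∀ l, d i0 l = 0 := by
    intro l
    by_contra hd
    obtain ⟨U, -, -, hU⟩ := hder l
    obtain ⟨u, h1, h2⟩ := ((hne' l).and (nhdsWithin_le_nhds (tendsto_axis.eventually hU))).exists
    refine h1 (h2.trans ?_)
    rw [zero_pow hd, mul_zero, zero_mul]
  have hprod : ∀ l, ∀ᶠ u : ℂ in 𝓝 0,
      (derivative (P (Θ i0 (u ^ K i0, (0 : ℂ) ^ K i0)))).eval (ζ i0 l (u, 0)) =
        ∏ m ∈ Finset.univ.erase l, (r l u - r m u) := fun l =>
    tendsto_axis.eventually (der_eq_prod (M.C i0) l)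
  have hD : ∀ l, (fun u : ℂ => u ^ c i0 l) =O[𝓝 0] fun u => ∏ m ∈ Finset.univ.erase l,
      (r l u - r m u) := by
    intro l
    obtain ⟨c0, hc0, hc⟩ := (hder l).ge
    refine IsBigO.of_bound c0⁻¹ ?_
    filter_upwards [tendsto_axis.eventually hc, hprod l] with u h1 h2
    rw [← h2, norm_pow, inv_mul_eq_div, le_div_iff₀ hc0, mul_comm]
    rw [hd0 l, pow_zero, mul_one] at h1
    exact h1
  have hinj : ∀ l m, r l =ᶠ[𝓝 0] r m → l = m := by
    intro l m h
    by_contra hlm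
    obtain ⟨u, h1, h2, h3⟩ := ((hne' l).and (nhdsWithin_le_nhds ((hprod l).and h))).exists
    refine h1 ?_
    rw [h2]
    exact Finset.prod_eq_zero (Finset.mem_erase.2 ⟨Ne.symm hlm, Finset.mem_univ _⟩)
      (sub_eq_zero.2 h3)
  have hpow := fun l m => root_pow (M.C i0).mon1 l m
  have horb : ∀ l m, (∃ k : ℕ, r m =ᶠ[𝓝 0] fun u => r l (omg (K i0) ^ k * u)) ↔
      ∃ k : ℕ, ((σ i0) ^ k) l = m := by
    intro l m
    refine exists_congr fun k => ?_
    constructor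
    · intro h
      exact hinj _ _ ((hpow l k).trans h.symm)
    · intro h
      rw [← h]
      exact hpow l k
  -- orders of `x`
  have hxo := fun l => ord_x M C q ka (l := l) (ord _ hol_x0 hx0 i0 l) hΘ
  have hA : ∀ l, (ka i0 l : ℤ) * C.nodeData.A (q i0 l).1 = K i0 * (k + 1) := by
    intro l
    have h1 := (hxo l).1
    rw [← hx] at h1
    exact h1
  have hlam : ∀ l, C.lam (q i0 l) (algebraMap (RV f) 𝒦 C.x) = K i0 := by
    intro l
    rw [hx]
    exact (hxo l).2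
  -- the Jacobian
  have ha : a i0 = k + 1 := by
    obtain ⟨U, hU, hU0, hU1⟩ := jac i0
    have e1 : ∀ᶠ p : ℂ × ℂ in 𝓝 0, p.1 ^ (k + 1) * p.2 ^ 0 * (-1 : ℂ) =
        p.1 ^ a i0 * p.2 ^ b i0 * U p := by
      filter_upwards [hU1, jacP_anchor hΘ] with p h1 h2
      rw [← h1, h2]
      ring
    have hUne : ∀ᶠ b : ℂ in 𝓝[≠] 0, U (0, b) ≠ 0 :=
      nhdsWithin_le_nhds (tendsto_axis'.eventually (hU.continuousAt.eventually_ne hU0))
    refine le_antisymm ?_ ?_
    · exact exp_le (w := fun _ => -1) analyticAt_const hU e1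
        (Eventually.of_forall fun _ => by norm_num)
    · exact exp_le (u := fun _ => -1) hU analyticAt_const (e1.mono fun p hp => hp.symm) hUne
  have hKc : ∀ l, (ka i0 l : ℤ) * (C.nodeData.K (q i0 l).1 + 1) = K i0 * (k + 2) - c i0 l := by
    intro l
    have h1 := canA i0 l
    rw [ha] at h1
    push_cast at h1
    have h2 : C.nodeData.K (q i0 l).1 = C.K (q i0 l).1 := rfl
    rw [h2, ← h1]
    ring
  -- the fibres
  have hfs : ∀ l, ∑ l' ∈ Finset.univ.filter (fun l' => q i0 l' = q i0 l), (ka i0 l' : ℤ) = K i0 := by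
    intro l
    set F := Finset.univ.filter (fun l' => q i0 l' = q i0 l) with hF
    have hpos : 0 < F.card := Finset.card_pos.2 ⟨l, by simp [hF]⟩
    have h3 : (F.card : ℤ) * ∑ l' ∈ F, (ka i0 l' : ℤ) = (F.card : ℤ) * K i0 := by
      rw [Finset.mul_sum]
      calc ∑ l' ∈ F, (F.card : ℤ) * (ka i0 l' : ℤ) = ∑ _l' ∈ F, (K i0 : ℤ) := by
            refine Finset.sum_congr rfl fun l' hl' => ?_
            have h4 := hcount l'
            have h5 : q i0 l' = q i0 l := (Finset.mem_filter.1 hl').2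
            rw [h5] at h4
            rw [mul_comm]
            exact_mod_cast h4
        _ = (F.card : ℤ) * K i0 := by rw [Finset.sum_const, nsmul_eq_mul]
    exact mul_left_cancel₀ (by exact_mod_cast hpos.ne') h3
  have hrc : ∀ i, ((K i0 : ℕ) : ℤ) * C.nodeData.rC i =
      ∑ l ∈ Finset.univ.filter (fun l => (q i0 l).1 = i), (ka i0 l : ℤ) :=
    rC_eq C hK (q i0) (ka i0) hnb he hlam hfs hall
  -- the filtration
  have hfin : ∀ G : I → ℤ, Module.Finite ℂ (RV f ⧸ C.lcModel.b G) := fun G =>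
    C.lcModel.finite_b G
  set bb : (I → ℤ) → Ideal (AnFun 3) := fun G => (C.lcModel.b G).comap (clH f) with hbb
  have hmul : ∀ (G : I → ℤ) (h : RV f), C.x * h ∈ C.lcModel.b (G + C.nodeData.A) ↔
      h ∈ C.lcModel.b G := by
    intro G h
    by_cases hh : h = 0
    · rw [hh, mul_zero]
      exact ⟨fun _ => zero_mem _, fun _ => zero_mem _⟩
    have hxh : C.x * h ≠ 0 := by
      intro h0
      have h1 := mul_ne_zero (C.map_ne C.x_ne) (C.map_ne hh)
      rw [← map_mul, h0, map_zero] at h1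
      exact h1 rfl
    rw [C.mem_b hxh, C.mem_b hh]
    refine forall_congr' fun i => ?_
    have h1 : C.vR i (C.x * h) = C.nodeData.A i + C.vR i h := by
      rw [H955.CModel.vR, map_mul, (C.hv i).mul _ _ (C.map_ne C.x_ne) (C.map_ne hh)]
      rfl
    rw [h1, Pi.add_apply]
    constructor
    · intro h2; linarith
    · intro h2; linarith
  have hres := anchor_ineq (N := K i0) hK hra hr0 hinj (omg_prim hK)
    (fun l => ⟨(σ i0) l, by simpa using hpow l 1⟩) (fun l => c i0 l) hD k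
    (fun l => (q i0 l).1) (fun l => (ka i0 l : ℤ)) C.nodeData.A C.nodeData.K C.nodeData.rC hA hKc
    hrc
    (fun l F hF => by
      have h1 : F = Finset.univ.filter (fun l' => q i0 l' = q i0 l) := by
        ext m
        rw [hF m, horb l m, ← hfib l m, Finset.mem_filter]
        exact ⟨fun h => ⟨Finset.mem_univ _, h.symm⟩, fun h => h.2.symm⟩
      rw [h1]
      exact_mod_cast (hcount l).ge)
    bb
    (fun G h => by
      rw [hbb]
      simp only [Ideal.mem_comap]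
      rw [map_mul]
      have h1 : clH f (coordF 3 0) = C.x := by
        rw [clH_apply, hx]
        rfl
      rw [h1]
      exact hmul G _)
    (fun G => (finrank_comap (C.lcModel.b G) (hfin G)).1)
    (fun G h hh l => by
      rw [hbb] at hh
      simp only [Ideal.mem_comap] at hh
      rw [clH_apply] at hh
      have hch : ∀ᶠ u : ℂ in 𝓝 0, M.ch i0 l (u, 0) = ![0, u ^ K i0, r l u] := by
        filter_upwards [tendsto_axis.eventually ((MonU.tendsto_powK hK).eventually hΘ)] with u hu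
        show pt (Θ i0 (u ^ K i0, (0 : ℂ) ^ K i0)) (ζ i0 l (u, 0)) = _
        rw [hu]
        simp [pt, hK, hr]
      by_cases h0 : cl f (h : (Fin 3 → ℂ) → ℂ) = 0
      · have h1 := tendsto_axis.eventually (zero _ h.2 h0 i0 l)
        refine IsBigO.of_bound 0 ?_
        filter_upwards [h1, hch] with u h2 h3
        rw [← h3, h2]
        simp
      · obtain ⟨α, β, δ, u, g, h1, -, -, hu, -, -, h4, -⟩ := ord _ h.2 h0 i0 l
        have h5 := (C.mem_b h0).1 hh (q i0 l).1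
        have h6 : ((ka i0 l : ℤ) * G (q i0 l).1).toNat ≤ α := by
          rw [Int.toNat_le, h1]
          exact mul_le_mul_of_nonneg_left h5 (Int.natCast_nonneg _)
        have h7 : (fun w : ℂ => w ^ α) =O[𝓝 0]
            fun w : ℂ => w ^ ((ka i0 l : ℤ) * G (q i0 l).1).toNat :=
          IsBigO.of_bound 1 (by
            filter_upwards [Metric.ball_mem_nhds (0 : ℂ) one_pos] with w hw
            rw [one_mul, norm_pow, norm_pow]
            exact pow_le_pow_of_le_one (norm_nonneg _) (by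
              rw [mem_ball_zero_iff] at hw; exact hw.le) h6)
        have h8 : (fun w : ℂ => (0 : ℂ) ^ β * u (w, 0)) =O[𝓝 0] fun _ : ℂ => (1 : ℂ) := by
          have h9 : Tendsto (fun w : ℂ => (0 : ℂ) ^ β * u (w, 0)) (𝓝 0) (𝓝 ((0 : ℂ) ^ β * u 0)) :=
            (hu.continuousAt.tendsto.comp tendsto_axis).const_mul _
          exact h9.isBigO_one ℂ
        have h10 := h7.mul h8
        simp only [mul_one] at h10
        refine h10.congr' ?_ EventuallyEq.rfl
        filter_upwards [tendsto_axis.eventually h4, hch] with w g1 g2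
        rw [← g2, g1]
        ring) G
  have e1 := (finrank_comap (C.lcModel.b (G + C.nodeData.A)) (hfin _)).2
  have e2 := (finrank_comap (C.lcModel.b G) (hfin _)).2
  have e3 : C.c (G + C.nodeData.A) = (finrank ℂ (AnFun 3 ⧸ bb (G + C.nodeData.A)) : ℤ) := by
    rw [hbb]
    simp only
    rw [e1]
    rfl
  have e4 : C.c G = (finrank ℂ (AnFun 3 ⧸ bb G) : ℤ) := by
    rw [hbb]
    simp only
    rw [e2]
    rfl
  rw [e3, e4]
  exact hres

end Vale.Agent.P298.H766
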