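import Vale.Agent.P298.H766.Tay2

/-!
# One variable Taylor series and restriction of germs to holomorphic arcs
-/

open Filter Topology Metric Vale.Agent.P298 Asymptotics Polynomial

namespace Vale.Agent.P298.H766

/-- `p` is the Taylor series of `φ` at `0` -/
def IsTay (φ : ℂ → ℂ) (p : PowerSeries ℂ) : Prop :=
  ∀ M : ℕ, (fun u : ℂ => φ u - (PowerSeries.trunc M p).eval u) =O[𝓝 0] fun u => u ^ M

theorem isBigO_of_dvd {q : Polynomial ℂ} {M : ℕ} (h : X ^ M ∣ q) :
    (fun u : ℂ => q.eval u) =O[𝓝 0] fun u => u ^ M := by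
  obtain ⟨r, rfl⟩ := h
  have h1 : (fun u : ℂ => r.eval u) =O[𝓝 0] fun _ => (1 : ℂ) :=
    (r.continuous.tendsto 0).isBigO_one ℂ
  have h2 := (isBigO_refl (fun u : ℂ => u ^ M) (𝓝 0)).mul h1
  simpa using h2

theorem dvd_of_isBigO {q : Polynomial ℂ} {M : ℕ}
    (h : (fun u : ℂ => q.eval u) =O[𝓝 0] fun u => u ^ M) : X ^ M ∣ q := by
  obtain ⟨C, hC⟩ := h.bound
  rw [Polynomial.X_pow_dvd_iff]
  refine coeff_eq_zero_of_bound (C := C) ?_
  filter_upwards [hC] with u hu
  rwa [norm_pow] at hu

namespace IsTay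

variable {φ ψ : ℂ → ℂ} {p q : PowerSeries ℂ}

theorem isBigO_iff (h : IsTay φ p) (M : ℕ) :
    φ =O[𝓝 0] (fun u => u ^ M) ↔ (M : ℕ∞) ≤ p.order := by
  have h1 : φ =O[𝓝 0] (fun u => u ^ M) ↔
      (fun u : ℂ => (PowerSeries.trunc M p).eval u) =O[𝓝 0] fun u => u ^ M := by
    constructor
    · intro h2
      exact (h2.sub (h M)).congr_left fun u => by ring
    · intro h2
      exact ((h M).add h2).congr_left fun u => by ring
  rw [h1]
  constructor
  · intro h2
    have h3 := Polynomial.X_pow_dvd_iff.1 (dvd_of_isBigO h2)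
    refine PowerSeries.le_order _ _ fun k hk => ?_
    have hk' : k < M := by exact_mod_cast hk
    have := h3 k hk'
    rwa [PowerSeries.coeff_trunc, if_pos hk'] at this
  · intro h2
    refine isBigO_of_dvd (Polynomial.X_pow_dvd_iff.2 fun k hk => ?_)
    rw [PowerSeries.coeff_trunc, if_pos hk]
    exact PowerSeries.coeff_of_lt_order k (lt_of_lt_of_le (by exact_mod_cast hk) h2)

theorem congr (h : IsTay φ p) (h' : φ =ᶠ[𝓝 0] ψ) : IsTay ψ p := fun M =>
  (h M).congr' (by filter_upwards [h'] with u hu; rw [hu]) EventuallyEq.rfl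

theorem add (h : IsTay φ p) (h' : IsTay ψ q) : IsTay (fun u => φ u + ψ u) (p + q) := fun M =>
  ((h M).add (h' M)).congr_left fun u => by rw [map_add, eval_add]; ring

theorem neg (h : IsTay φ p) : IsTay (fun u => - φ u) (-p) := fun M =>
  (h M).neg_left.congr_left fun u => by rw [map_neg, eval_neg]; ring

theorem sub (h : IsTay φ p) (h' : IsTay ψ q) : IsTay (fun u => φ u - ψ u) (p - q) := by
  have := h.add h'.neg
  simpa [sub_eq_add_neg] using this

theorem poly (q : Polynomial ℂ) : IsTay (fun u => q.eval u) (q : PowerSeries ℂ) := fun M => by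
  have h : X ^ M ∣ q - PowerSeries.trunc M (q : PowerSeries ℂ) := by
    rw [Polynomial.X_pow_dvd_iff]
    intro k hk
    rw [coeff_sub, PowerSeries.coeff_trunc, if_pos hk, Polynomial.coeff_coe, sub_self]
  exact (isBigO_of_dvd h).congr_left fun u => by rw [eval_sub]

theorem mul (h : IsTay φ p) (h' : IsTay ψ q) : IsTay (fun u => φ u * ψ u) (p * q) := fun M => by
  have h1 : (fun u : ℂ => (PowerSeries.trunc M p).eval u) =O[𝓝 0] fun _ => (1 : ℂ) :=
    ((PowerSeries.trunc M p).continuous.tendsto 0).isBigO_one ℂ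
  have h2 : (fun u : ℂ => (PowerSeries.trunc M q).eval u) =O[𝓝 0] fun _ => (1 : ℂ) :=
    ((PowerSeries.trunc M q).continuous.tendsto 0).isBigO_one ℂ
  have h3 : (fun u : ℂ => u ^ M) =O[𝓝 0] fun _ => (1 : ℂ) :=
    ((continuous_pow M).tendsto (0 : ℂ)).isBigO_one ℂ
  have h4 : φ =O[𝓝 0] fun _ => (1 : ℂ) :=
    (((h M).trans h3).add h1).congr_left fun u => by ring
  have h5 := (h M).mul h2
  have h6 := h4.mul (h' M)
  have h7 : X ^ M ∣ PowerSeries.trunc M p * PowerSeries.trunc M q -
      PowerSeries.trunc M (p * q) := by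
    rw [Polynomial.X_pow_dvd_iff]
    intro k hk
    rw [coeff_sub, PowerSeries.coeff_trunc, if_pos hk, Polynomial.coeff_mul,
      PowerSeries.coeff_mul, sub_eq_zero]
    refine Finset.sum_congr rfl fun x hx => ?_
    have := Finset.HasAntidiagonal.mem_antidiagonal.1 hx
    rw [PowerSeries.coeff_trunc, PowerSeries.coeff_trunc, if_pos (by omega), if_pos (by omega)]
  have h8 := isBigO_of_dvd h7
  simp only [mul_one, one_mul] at h5 h6
  exact ((h5.add h6).add h8).congr_left fun u => by
    rw [eval_sub, eval_mul]; ring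

theorem const (c : ℂ) : IsTay (fun _ => c) (PowerSeries.C c) := by
  have := poly (Polynomial.C c)
  simpa using this

theorem id : IsTay (fun u => u) PowerSeries.X := by
  have := poly (Polynomial.X)
  simpa using this

theorem pow (h : IsTay φ p) (k : ℕ) : IsTay (fun u => φ u ^ k) (p ^ k) := by
  induction k with
  | zero => simpa using const 1
  | succ k ih =>
    have := ih.mul h
    simpa [pow_succ] using this

theorem unique (h : IsTay φ p) (h' : IsTay φ q) : p = q := by
  have h1 := h.sub h'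
  have h2 : ∀ M : ℕ, (M : ℕ∞) ≤ (p - q).order := fun M =>
    (h1.isBigO_iff M).1 (by
      have : (fun u : ℂ => φ u - φ u) = fun _ => (0 : ℂ) := by funext u; ring
      rw [this]
      exact isBigO_zero _ _)
  have h3 : (p - q).order = ⊤ := by
    by_contra hne
    obtain ⟨n, hn⟩ := ENat.ne_top_iff_exists.1 hne
    have := h2 (n + 1)
    rw [← hn] at this
    have h4 : n + 1 ≤ n := by exact_mod_cast this
    omega
  exact sub_eq_zero.1 (PowerSeries.order_eq_top.1 h3)

theorem rescale (h : IsTay φ p) (ω : ℂ) : IsTay (fun u => φ (ω * u)) (PowerSeries.rescale ω p) := by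
  intro M
  have h0 : Tendsto (fun u : ℂ => ω * u) (𝓝 0) (𝓝 0) := by
    have : Continuous fun u : ℂ => ω * u := by fun_prop
    simpa using this.tendsto 0
  have h1 := (h M).comp_tendsto h0
  have h2 : ((fun u : ℂ => u ^ M) ∘ fun u => ω * u) =O[𝓝 0] fun u => u ^ M := by
    refine (isBigO_const_mul_self (ω ^ M) (fun u : ℂ => u ^ M) (𝓝 0)).congr_left fun u => ?_
    simp [mul_pow]
  refine (h1.trans h2).congr_left fun u => ?_
  simp only [Function.comp_apply]
  congr 1
  rw [Polynomial.eval_eq_sum_range' (n := M + 1) (by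
      exact (Nat.lt_succ_of_le ((Polynomial.natDegree_le_iff_coeff_eq_zero).2 fun k hk => by
        rw [PowerSeries.coeff_trunc, if_neg (by omega)]))),
    Polynomial.eval_eq_sum_range' (n := M + 1) (by
      exact (Nat.lt_succ_of_le ((Polynomial.natDegree_le_iff_coeff_eq_zero).2 fun k hk => by
        rw [PowerSeries.coeff_trunc, if_neg (by omega)])))]
  refine Finset.sum_congr rfl fun k _ => ?_
  rw [PowerSeries.coeff_trunc, PowerSeries.coeff_trunc]
  split_ifs
  · rw [PowerSeries.coeff_rescale, mul_pow]; ring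
  · simp

end IsTay

theorem exists_isTay {φ : ℂ → ℂ} (h : AnalyticAt ℂ φ 0) : ∃ p, IsTay φ p := by
  obtain ⟨P, hP⟩ := h
  refine ⟨PowerSeries.mk fun k => P.coeff k, fun M => ?_⟩
  have h1 := hP.isBigO_sub_partialSum_pow M
  simp only [zero_add] at h1
  have h2 : (fun y : ℂ => ‖y‖ ^ M) =O[𝓝 0] fun y => y ^ M :=
    IsBigO.of_bound 1 (Eventually.of_forall fun y => by simp)
  refine (h1.trans h2).congr_left fun u => ?_
  congr 1
  rw [Polynomial.eval_eq_sum_range' (n := M + 1) (by
      exact (Nat.lt_succ_of_le ((Polynomial.natDegree_le_iff_coeff_eq_zero).2 fun k hk => by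
        rw [PowerSeries.coeff_trunc, if_neg (by omega)]))),
    Finset.sum_range_succ, PowerSeries.coeff_trunc, if_neg (lt_irrefl M), zero_mul, add_zero,
    FormalMultilinearSeries.partialSum]
  refine Finset.sum_congr rfl fun k hk => ?_
  rw [PowerSeries.coeff_trunc, if_pos (Finset.mem_range.1 hk), PowerSeries.coeff_mk,
    FormalMultilinearSeries.apply_eq_pow_smul_coeff, smul_eq_mul, mul_comm]

end Vale.Agent.P298.H766
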