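import Vale.Agent.P298.H766.Anc3
import Vale.Agent.P298.H766.Tay1

/-!
# The curve inequality for holomorphic roots
-/

open Filter Topology Metric Vale.Agent.P298 Asymptotics Function Module

namespace Vale.Agent.P298.H766

variable {n : ℕ}

theorem analyticAt_arc {γ : ℂ → (Fin n → ℂ)} (hγ : AnalyticAt ℂ γ 0) (h0 : γ 0 = 0)
    (h : AnFun n) : AnalyticAt ℂ (fun u => (h : (Fin n → ℂ) → ℂ) (γ u)) 0 := by
  have h1 : AnalyticAt ℂ (h : (Fin n → ℂ) → ℂ) (γ 0) := by rw [h0]; exact h.2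
  exact h1.comp hγ

/-- restriction of germs to a holomorphic arc -/
noncomputable def arcHom (γ : ℂ → (Fin n → ℂ)) (hγ : AnalyticAt ℂ γ 0) (h0 : γ 0 = 0) :
    AnFun n →ₐ[ℂ] PowerSeries ℂ where
  toFun h := (exists_isTay (analyticAt_arc hγ h0 h)).choose
  map_one' := (exists_isTay (analyticAt_arc hγ h0 1)).choose_spec.unique (by
    simpa using IsTay.const 1)
  map_zero' := (exists_isTay (analyticAt_arc hγ h0 0)).choose_spec.unique (by
    simpa using IsTay.const 0)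
  map_mul' a b := (exists_isTay (analyticAt_arc hγ h0 (a * b))).choose_spec.unique
    ((exists_isTay (analyticAt_arc hγ h0 a)).choose_spec.mul
      (exists_isTay (analyticAt_arc hγ h0 b)).choose_spec)
  map_add' a b := (exists_isTay (analyticAt_arc hγ h0 (a + b))).choose_spec.unique
    ((exists_isTay (analyticAt_arc hγ h0 a)).choose_spec.add
      (exists_isTay (analyticAt_arc hγ h0 b)).choose_spec)
  commutes' c := (exists_isTay (analyticAt_arc hγ h0 (algebraMap ℂ _ c))).choose_spec.unique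
    (IsTay.const c)

theorem arcHom_spec {γ : ℂ → (Fin n → ℂ)} (hγ : AnalyticAt ℂ γ 0) (h0 : γ 0 = 0) (h : AnFun n) :
    IsTay (fun u => (h : (Fin n → ℂ) → ℂ) (γ u)) (arcHom γ hγ h0 h) :=
  (exists_isTay (analyticAt_arc hγ h0 h)).choose_spec

theorem IsTay.order_le {φ : ℂ → ℂ} {p : PowerSeries ℂ} (h : IsTay φ p) {D : ℕ}
    (hD : (fun u : ℂ => u ^ D) =O[𝓝 0] φ) : p.order ≤ D := by
  by_contra hlt
  push Not at hlt
  have h1 : ((D + 1 : ℕ) : ℕ∞) ≤ p.order := by
    have := Order.add_one_le_of_lt hlt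
    exact_mod_cast this
  have h2 := (h.isBigO_iff (D + 1)).2 h1
  have h3 := hD.trans h2
  have h4 : IsTay (fun u : ℂ => u ^ D) (PowerSeries.X ^ D) := IsTay.id.pow D
  have h5 := (h4.isBigO_iff (D + 1)).1 h3
  rw [PowerSeries.order_X_pow] at h5
  have h6 : D + 1 ≤ D := by exact_mod_cast h5
  omega

theorem IsTay.prod {ι : Type*} (s : Finset ι) {φ : ι → ℂ → ℂ} {p : ι → PowerSeries ℂ}
    (h : ∀ i ∈ s, IsTay (φ i) (p i)) :
    IsTay (fun u => ∏ i ∈ s, φ i u) (∏ i ∈ s, p i) := by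
  classical
  induction s using Finset.induction_on with
  | empty => simpa using IsTay.const 1
  | insert a s ha ih =>
    simp only [Finset.prod_insert ha]
    exact (h a (Finset.mem_insert_self _ _)).mul
      (ih fun i hi => h i (Finset.mem_insert_of_mem hi))

/-- a function with zero Taylor series vanishes near `0` -/
theorem IsTay.eventuallyEq {φ ψ : ℂ → ℂ} {p : PowerSeries ℂ} (h : IsTay φ p) (h' : IsTay ψ p)
    (hφ : AnalyticAt ℂ φ 0) (hψ : AnalyticAt ℂ ψ 0) : φ =ᶠ[𝓝 0] ψ := by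
  have h1 : AnalyticAt ℂ (fun u => φ u - ψ u) 0 := hφ.sub hψ
  have h2 : IsTay (fun u => φ u - ψ u) 0 := by simpa using h.sub h'
  rcases h1.eventually_eq_zero_or_eventually_ne_zero with h3 | h3
  · filter_upwards [h3] with u hu
    exact sub_eq_zero.1 hu
  · exfalso
    -- a nonzero analytic function is not flat
    have h4 : analyticOrderAt (fun u => φ u - ψ u) 0 ≠ ⊤ := by
      intro h5
      rw [analyticOrderAt_eq_top] at h5
      have h6 : ∀ᶠ u in 𝓝[≠] (0 : ℂ), False := by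
        filter_upwards [h3, nhdsWithin_le_nhds h5] with u hu1 hu2
        exact hu1 hu2
      exact (inferInstance : (𝓝[≠] (0 : ℂ)).NeBot).ne (Filter.eventually_false_iff_eq_bot.1 h6)
    obtain ⟨D, hD⟩ := ENat.ne_top_iff_exists.1 h4
    obtain ⟨g, hg, hg0, hgD⟩ := (h1.analyticOrderAt_eq_natCast).1 hD.symm
    have h5 : (fun u : ℂ => u ^ D) =O[𝓝 0] fun u => φ u - ψ u := by
      have h6 : (fun _ : ℂ => (1 : ℂ)) =O[𝓝 0] g := by
        have h7 : Tendsto (fun u => ‖g u‖) (𝓝 0) (𝓝 ‖g 0‖) := hg.continuousAt.norm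
        have h8 : ∀ᶠ u in 𝓝 (0 : ℂ), ‖g 0‖ / 2 < ‖g u‖ :=
          h7.eventually (lt_mem_nhds (by
            have : 0 < ‖g 0‖ := norm_pos_iff.2 hg0
            linarith))
        refine IsBigO.of_bound (2 / ‖g 0‖) ?_
        filter_upwards [h8] with u hu
        have : 0 < ‖g 0‖ := norm_pos_iff.2 hg0
        rw [norm_one, div_mul_eq_mul_div, le_div_iff₀ this]
        linarith
      have h9 := (isBigO_refl (fun u : ℂ => u ^ D) (𝓝 0)).mul h6
      refine (h9.congr_left fun u => mul_one _).trans_eventuallyEq ?_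
      filter_upwards [hgD] with u hu
      rw [hu]; simp
    have h6 := h2.order_le h5
    rw [PowerSeries.order_zero] at h6
    exact absurd h6 (by simp)

/-- The curve inequality for the holomorphic roots of a reduced plane curve. -/
theorem curve_germ (hB : Anc.BranchIneq) {ι : Type} [Fintype ι] [DecidableEq ι]
    {N : ℕ} (hN : N ≠ 0) {ρ : ι → ℂ → ℂ} (hρ : ∀ α, AnalyticAt ℂ (ρ α) 0) (h0 : ∀ α, ρ α 0 = 0)
    (hne : ∀ α β, ρ α =ᶠ[𝓝 0] ρ β → α = β) {ω : ℂ} (hω : IsPrimitiveRoot ω N)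
    (hst : ∀ α, ∃ β, ρ β =ᶠ[𝓝 0] fun u => ρ α (ω * u)) (D : ι → ℕ)
    (hD : ∀ α, (fun u : ℂ => u ^ D α) =O[𝓝 0] fun u => ∏ β ∈ Finset.univ.erase α,
      (ρ α u - ρ β u)) :
    ∃ (κ : Type) (_ : Fintype κ) (q : ι → κ), Surjective q ∧
      (∀ α β, q α = q β ↔ ∃ k : ℕ, ρ β =ᶠ[𝓝 0] fun u => ρ α (ω ^ k * u)) ∧
      ∀ (J : Ideal (AnFun 3)) (d : ι → ℕ), Module.Finite ℂ (AnFun 3 ⧸ J) →
        (∀ h ∈ J, ∀ α, (fun u : ℂ => (h : (Fin 3 → ℂ) → ℂ) ![0, u ^ N, ρ α u]) =O[𝓝 0]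
          fun u => u ^ d α) →
        2 * ∑ α, (d α : ℤ) ≤ 2 * N * (finrank ℂ (AnFun 3 ⧸ J) : ℤ) +
          (∑ α, (D α : ℤ) - N * ((Fintype.card ι : ℤ) - Fintype.card κ)) := by
  choose r hr using fun α => exists_isTay (hρ α)
  have hinj : Injective r := fun α β h =>
    hne α β ((hr α).eventuallyEq (h ▸ hr β) (hρ α) (hρ β))
  have hmul : ∀ c : ℂ, ∀ α, AnalyticAt ℂ (fun u => ρ α (c * u)) 0 := fun c α => by
    have h1 : AnalyticAt ℂ (ρ α) (c * (0 : ℂ)) := by simpa using hρ α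
    exact h1.comp (analyticAt_const.mul analyticAt_id)
  have hres : ∀ (c : ℂ) α β, r β = PowerSeries.rescale c (r α) ↔
      ρ β =ᶠ[𝓝 0] fun u => ρ α (c * u) := fun c α β => by
    constructor
    · intro h
      exact (hr β).eventuallyEq (h ▸ (hr α).rescale c) (hρ β) (hmul c α)
    · intro h
      exact (hr β).unique (((hr α).rescale c).congr h.symm)
  have hst' : ∀ α, ∃ β, r β = PowerSeries.rescale ω (r α) := fun α => by
    obtain ⟨β, hβ⟩ := hst α
    exact ⟨β, (hres ω α β).2 hβ⟩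
  let γ : ι → ℂ → (Fin 3 → ℂ) := fun α u => ![0, u ^ N, ρ α u]
  have hγ : ∀ α, AnalyticAt ℂ (γ α) 0 := fun α => by
    rw [analyticAt_pi_iff]
    intro i
    fin_cases i
    · exact analyticAt_const
    · exact (analyticAt_id.pow N)
    · exact hρ α
  have hγ0 : ∀ α, γ α 0 = 0 := fun α => by
    funext i
    fin_cases i <;> simp [γ, h0, hN]
  obtain ⟨κ, i1, q, h1, h2, h3⟩ := Anc.roots hB hN hinj hω hst'
    (S := AnFun 3) (fun α => arcHom (γ α) (hγ α) (hγ0 α))
    (fun α β h x => by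
      have h4 := (arcHom_spec (hγ α) (hγ0 α) x).rescale ω
      refine (arcHom_spec (hγ β) (hγ0 β) x).unique (h4.congr ?_)
      filter_upwards [(hres ω α β).1 h] with u hu
      have h5 : γ α (ω * u) = γ β u := by
        funext i
        fin_cases i
        · rfl
        · show (ω * u) ^ N = u ^ N
          rw [mul_pow, hω.pow_eq_one, one_mul]
        · exact hu.symm
      rw [h5])
    (coordF 3 1) (coordF 3 2)
    (fun α => (arcHom_spec (hγ α) (hγ0 α) _).unique (IsTay.id.pow N))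
    (fun α => (arcHom_spec (hγ α) (hγ0 α) _).unique (hr α))
  refine ⟨κ, i1, q, h1, fun α β => ?_, fun J d hJ hd => ?_⟩
  · rw [h2]
    exact exists_congr fun k => hres (ω ^ k) α β
  · have h4 := h3 J d hJ (fun h hh α => by
      rw [PowerSeries.X_pow_dvd_iff]
      intro k hk
      exact PowerSeries.coeff_of_lt_order k (lt_of_lt_of_le (by exact_mod_cast hk)
        (((arcHom_spec (hγ α) (hγ0 α) h).isBigO_iff (d α)).1 (hd h hh α))))
    refine h4.trans ?_
    have h5 : ∀ α, ∑ β ∈ Finset.univ.erase α, ((r α - r β).order.toNat : ℤ) ≤ D α := fun α => by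
      have h6 : IsTay (fun u => ∏ β ∈ Finset.univ.erase α, (ρ α u - ρ β u))
          (∏ β ∈ Finset.univ.erase α, (r α - r β)) :=
        IsTay.prod _ fun β _ => (hr α).sub (hr β)
      have h7 := h6.order_le (hD α)
      have h8 : (∏ β ∈ Finset.univ.erase α, (r α - r β)).order =
          ((∑ β ∈ Finset.univ.erase α, (r α - r β).order.toNat : ℕ) : ℕ∞) := by
        have : ∀ s : Finset ι, α ∉ s → (∏ β ∈ s, (r α - r β)).order =
            ((∑ β ∈ s, (r α - r β).order.toNat : ℕ) : ℕ∞) := by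
          intro s
          induction s using Finset.induction_on with
          | empty => intro _; simp
          | insert b s hb ih =>
            intro hα
            rw [Finset.prod_insert hb, Finset.sum_insert hb, PowerSeries.order_mul,
              ih (fun h => hα (Finset.mem_insert_of_mem h)), Nat.cast_add, ENat.natCast_toNat]
            rw [Ne, PowerSeries.order_eq_top, sub_eq_zero]
            intro h
            exact hα (by rw [hinj h]; exact Finset.mem_insert_self _ _)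
        exact this _ (Finset.notMem_erase _ _)
      rw [h8] at h7
      exact_mod_cast h7
    have h9 := Finset.sum_le_sum fun α (_ : α ∈ Finset.univ) => h5 α
    linarith

/-- **One step of the anchor**: `b = (b' : x)`. -/
theorem step_germ (hB : Anc.BranchIneq) {ι : Type} [Fintype ι] [DecidableEq ι]
    {N : ℕ} (hN : N ≠ 0) {ρ : ι → ℂ → ℂ} (hρ : ∀ α, AnalyticAt ℂ (ρ α) 0) (h0 : ∀ α, ρ α 0 = 0)
    (hne : ∀ α β, ρ α =ᶠ[𝓝 0] ρ β → α = β) {ω : ℂ} (hω : IsPrimitiveRoot ω N)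
    (hst : ∀ α, ∃ β, ρ β =ᶠ[𝓝 0] fun u => ρ α (ω * u)) (D : ι → ℕ)
    (hD : ∀ α, (fun u : ℂ => u ^ D α) =O[𝓝 0] fun u => ∏ β ∈ Finset.univ.erase α,
      (ρ α u - ρ β u)) :
    ∃ (κ : Type) (_ : Fintype κ) (q : ι → κ), Surjective q ∧
      (∀ α β, q α = q β ↔ ∃ k : ℕ, ρ β =ᶠ[𝓝 0] fun u => ρ α (ω ^ k * u)) ∧
      ∀ (b b' : Ideal (AnFun 3)) (d : ι → ℕ), (∀ h, coordF 3 0 * h ∈ b' ↔ h ∈ b) →
        Module.Finite ℂ (AnFun 3 ⧸ b') →
        (∀ h ∈ b', ∀ α, (fun u : ℂ => (h : (Fin 3 → ℂ) → ℂ) ![0, u ^ N, ρ α u]) =O[𝓝 0]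
          fun u => u ^ d α) →
        2 * N * (finrank ℂ (AnFun 3 ⧸ b) : ℤ) + 2 * ∑ α, (d α : ℤ) ≤
          2 * N * (finrank ℂ (AnFun 3 ⧸ b') : ℤ) +
          (∑ α, (D α : ℤ) - N * ((Fintype.card ι : ℤ) - Fintype.card κ)) := by
  obtain ⟨κ, i1, q, h1, h2, h3⟩ := curve_germ hB hN hρ h0 hne hω hst D hD
  refine ⟨κ, i1, q, h1, h2, fun b b' d hcol hf hd => ?_⟩
  have hle : b' ≤ b := fun h hh => (hcol h).1 (b'.mul_mem_left _ hh)
  have hf1 := Anc.finite_of_le (k := ℂ) hle hf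
  have hf2 : Module.Finite ℂ (AnFun 3 ⧸ (b' ⊔ Ideal.span {coordF 3 0})) :=
    Anc.finite_of_le le_sup_left hf
  obtain ⟨-, h4⟩ := Vale.Agent.P298.H990.quot_step (k := ℂ) b'
    (b' ⊔ Ideal.span {coordF 3 0}) b (coordF 3 0) rfl hcol hf1 hf2
  have h5 := h3 (b' ⊔ Ideal.span {coordF 3 0}) d hf2 (by
    intro h hh α
    obtain ⟨u, hu, v, hv, rfl⟩ := Submodule.mem_sup.1 hh
    obtain ⟨w, rfl⟩ := Ideal.mem_span_singleton.1 hv
    refine (hd u hu α).congr_left fun z => ?_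
    show (u : (Fin 3 → ℂ) → ℂ) ![0, z ^ N, ρ α z] =
      (u : (Fin 3 → ℂ) → ℂ) ![0, z ^ N, ρ α z] +
        (0 : ℂ) * (w : (Fin 3 → ℂ) → ℂ) ![0, z ^ N, ρ α z]
    rw [zero_mul, add_zero])
  rw [h4]
  push_cast
  nlinarith

end Vale.Agent.P298.H766
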