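import Vale.Agent.P298.H766.Fld
import Vale.Agent.P298.H766.Anc4

/-!
# The function field of an isolated hypersurface singularity in `ℂ³`
-/

open Filter Topology Metric Vale.Agent.P298 Asymptotics Polynomial

namespace Vale.Agent.P298.H766

variable {n : ℕ}

theorem arcHom_nul {γ : ℂ → (Fin n → ℂ)} (hγ : AnalyticAt ℂ γ 0) (h0 : γ 0 = 0) {a : AnFun n}
    (ha : a ∈ nul n) : arcHom γ hγ h0 a = 0 := by
  refine (arcHom_spec hγ h0 a).unique ?_
  have h6 : (a : (Fin n → ℂ) → ℂ) =ᶠ[𝓝 0] 0 := ha
  have h7 : Tendsto γ (𝓝 0) (𝓝 0) := by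
    have := hγ.continuousAt.tendsto
    rwa [h0] at this
  have h8 : IsTay (fun _ => (0 : ℂ)) 0 := by simpa using IsTay.const 0
  refine h8.congr ?_
  filter_upwards [h7.eventually h6] with u hu
  exact hu.symm

theorem order_arcHom {γ : ℂ → (Fin n → ℂ)} (hγ : AnalyticAt ℂ γ 0) (h0 : γ 0 = 0) {M : ℕ}
    {g : AnFun n} (hg : g ∈ qM n M) : (M : ℕ∞) ≤ (arcHom γ hγ h0 g).order := by
  obtain ⟨a, ha, b, hb, rfl⟩ := Submodule.mem_sup.1 hg
  rw [map_add, arcHom_nul hγ h0 ha, zero_add]
  have h8 : mX n ≤ (Ideal.span {PowerSeries.X}).comap (arcHom γ hγ h0).toRingHom := by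
    refine Ideal.span_le.2 ?_
    rintro _ ⟨j, rfl⟩
    rw [SetLike.mem_coe, Ideal.mem_comap, Ideal.mem_span_singleton]
    show PowerSeries.X ∣ arcHom γ hγ h0 (coordF n j)
    rw [PowerSeries.X_dvd_iff]
    have h9 := arcHom_spec hγ h0 (coordF n j)
    have h10 : ((1 : ℕ) : ℕ∞) ≤ (arcHom γ hγ h0 (coordF n j)).order := by
      refine (h9.isBigO_iff 1).1 ?_
      have h11 : DifferentiableAt ℂ (fun u => γ u j) 0 :=
        (differentiableAt_pi.1 hγ.differentiableAt j)
      have h12 := h11.isBigO_sub
      have h13 : γ 0 j = 0 := by rw [h0]; rfl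
      simp only [h13, sub_zero] at h12
      have h14 : (fun u => (coordF n j : (Fin n → ℂ) → ℂ) (γ u)) = fun u => γ u j := rfl
      rw [h14]
      simpa only [pow_one] using h12
    have h15 := PowerSeries.coeff_of_lt_order 0 (lt_of_lt_of_le (by simp) h10)
    rwa [PowerSeries.coeff_zero_eq_constantCoeff_apply] at h15
  have h11 : mX n ^ M ≤ (Ideal.span {(PowerSeries.X : PowerSeries ℂ) ^ M}).comap
      (arcHom γ hγ h0).toRingHom := by
    rw [← Ideal.span_singleton_pow]
    exact (Ideal.pow_right_mono h8 M).trans (Ideal.le_comap_pow _ M)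
  have h12 := h11 hb
  rw [Ideal.mem_comap, Ideal.mem_span_singleton] at h12
  have h13 : (PowerSeries.X : PowerSeries ℂ) ^ M ∣ arcHom γ hγ h0 b := h12
  rw [PowerSeries.X_pow_dvd_iff] at h13
  exact PowerSeries.le_order _ _ fun k hk => h13 k (by exact_mod_cast hk)

/-- A germ which is not zero on the last axis is regular in the last variable. -/
theorem exists_coeff_ne {f : (Fin (n + 1) → ℂ) → ℂ} (hf : Hol f)
    (h : ∃ᶠ z in 𝓝 (0 : ℂ), f (Pi.single (Fin.last n) z) ≠ 0) :
    ∃ k, MvPowerSeries.coeff (Finsupp.single (Fin.last n) k) (ser f) ≠ 0 := by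
  classical
  by_contra hne
  push Not at hne
  have hγ : AnalyticAt ℂ (fun u : ℂ => (Pi.single (Fin.last n) u : Fin (n + 1) → ℂ)) 0 := by
    rw [analyticAt_pi_iff]
    intro j
    by_cases h : j = Fin.last n
    · have : (fun u : ℂ => (Pi.single (Fin.last n) u : Fin (n + 1) → ℂ) j) = fun u => u := by
        funext u; rw [h, Pi.single_eq_same]
      rw [this]
      exact analyticAt_id
    · have : (fun u : ℂ => (Pi.single (Fin.last n) u : Fin (n + 1) → ℂ) j) = fun _ => 0 := by
        funext u; rw [Pi.single_eq_of_ne h]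
      rw [this]
      exact analyticAt_const
  have hγ0 : (fun u : ℂ => (Pi.single (Fin.last n) u : Fin (n + 1) → ℂ)) 0 = 0 := by simp
  have hcoord : ∀ j, arcHom _ hγ hγ0 (coordF (n + 1) j) =
      if j = Fin.last n then PowerSeries.X else 0 := by
    intro j
    refine (arcHom_spec hγ hγ0 _).unique ?_
    split_ifs with h
    · subst h
      have : (fun u : ℂ => (coordF (n + 1) (Fin.last n) : (Fin (n + 1) → ℂ) → ℂ)
          (Pi.single (Fin.last n) u)) = fun u => u := by
        funext u
        show (Pi.single (Fin.last n) u : Fin (n + 1) → ℂ) (Fin.last n) = u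
        simp
      rw [this]
      exact IsTay.id
    · have : (fun u : ℂ => (coordF (n + 1) j : (Fin (n + 1) → ℂ) → ℂ)
          (Pi.single (Fin.last n) u)) = fun u => 0 := by
        funext u
        show (Pi.single (Fin.last n) u : Fin (n + 1) → ℂ) j = 0
        rw [Pi.single_eq_of_ne h]
      rw [this]
      simpa using IsTay.const 0
  have hzero : ∀ M : ℕ, (M : ℕ∞) ≤ (arcHom _ hγ hγ0 ⟨f, hf⟩).order := by
    intro M
    obtain ⟨p, hp⟩ := exists_poly M (⟨f, hf⟩ : AnFun (n + 1))
    have h1 := order_arcHom hγ hγ0 hp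
    have h2 : (M : ℕ∞) ≤ (arcHom _ hγ hγ0 (toAn (n + 1) p)).order := by
      have h3 : arcHom _ hγ hγ0 (toAn (n + 1) p) =
          MvPolynomial.aeval (fun j => if j = Fin.last n then (PowerSeries.X : PowerSeries ℂ)
            else 0) p := by
        have h4 : (arcHom _ hγ hγ0).comp (toAn (n + 1)) =
            MvPolynomial.aeval (fun j => if j = Fin.last n then
              (PowerSeries.X : PowerSeries ℂ) else 0) := by
          refine MvPolynomial.algHom_ext fun j => ?_
          rw [AlgHom.comp_apply, toAn_X, hcoord, MvPolynomial.aeval_X]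
        rw [← h4]; rfl
      rw [h3, MvPolynomial.aeval_def, MvPolynomial.eval₂_eq']
      refine PowerSeries.le_order _ _ fun k hk => ?_
      rw [map_sum]
      refine Finset.sum_eq_zero fun d hd => ?_
      by_cases hd' : ∀ j, j ≠ Fin.last n → d j = 0
      · have h5 : d = Finsupp.single (Fin.last n) (d (Fin.last n)) := by
          ext j
          by_cases hj : j = Fin.last n
          · subst hj; simp
          · rw [hd' j hj, Finsupp.single_eq_of_ne hj]
        have h6 : ∏ j, (if j = Fin.last n then (PowerSeries.X : PowerSeries ℂ) else 0) ^ d j =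
            PowerSeries.X ^ d (Fin.last n) := by
          rw [← Finset.mul_prod_erase _ _ (Finset.mem_univ (Fin.last n)), if_pos rfl,
            Finset.prod_eq_one, mul_one]
          intro j hj
          rw [hd' j (Finset.ne_of_mem_erase hj), pow_zero]
        rw [h6]
        by_cases hkd : k = d (Fin.last n)
        · have h7 : MvPolynomial.coeff d p = 0 := by
            have h8 : (d.degree : ℕ) < M := by
              have h9 : d.degree = d (Fin.last n) := by
                conv_lhs => rw [h5]
                exact Finsupp.degree_single _ _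
              rw [h9, ← hkd]
              exact_mod_cast hk
            have h9 := coeff_tay (M := M) hp h8
            have h10 := hne (d (Fin.last n))
            rw [← h5, ser_eq hf, T_apply, h9] at h10
            exact h10
          rw [h7]
          simp
        · rw [PowerSeries.algebraMap_apply, PowerSeries.coeff_C_mul, PowerSeries.coeff_X_pow,
            if_neg hkd, mul_zero]
      · push Not at hd'
        obtain ⟨j, hj, hj'⟩ := hd'
        rw [Finset.prod_eq_zero (Finset.mem_univ j) (by rw [if_neg hj, zero_pow hj']), mul_zero,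
          map_zero]
    have h3 : arcHom _ hγ hγ0 (⟨f, hf⟩ : AnFun (n + 1)) =
        arcHom _ hγ hγ0 ((⟨f, hf⟩ : AnFun (n + 1)) - toAn (n + 1) p) +
          arcHom _ hγ hγ0 (toAn (n + 1) p) := by
      rw [← map_add, sub_add_cancel]
    rw [h3]
    exact (le_min h1 h2).trans (PowerSeries.min_order_le_order_add _ _)
  have h1 : arcHom _ hγ hγ0 (⟨f, hf⟩ : AnFun (n + 1)) = 0 := by
    rw [← PowerSeries.order_eq_top]
    by_contra hne
    obtain ⟨m, hm⟩ := ENat.ne_top_iff_exists.1 hne
    have := hzero (m + 1)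
    rw [← hm] at this
    have h4 : m + 1 ≤ m := by exact_mod_cast this
    omega
  have h2 := arcHom_spec hγ hγ0 (⟨f, hf⟩ : AnFun (n + 1))
  rw [h1] at h2
  have h3 : IsTay (fun _ => (0 : ℂ)) 0 := by simpa using IsTay.const 0
  have h4 := h2.eventuallyEq h3 (analyticAt_arc hγ hγ0 _) analyticAt_const
  obtain ⟨z, hz, hz'⟩ := (h.and_eventually h4).exists
  exact hz hz'

/-- **Isolated hypersurface singularity in `ℂ³`: Weierstrass polynomial irreducible over
`Frac ℂ⟦x, y⟧`.** -/
theorem exists_weierstrass_germ {f : (Fin 3 → ℂ) → ℂ} (hf : Hol f) (f0 : f 0 = 0) {μ : ℕ}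
    (hμ : Milnor f μ) (hreg : ∃ᶠ z in 𝓝 (0 : ℂ), f ![0, 0, z] ≠ 0) :
    ∃ (P : Polynomial (MvPowerSeries (Fin 2) ℂ)) (h : PowerSeries (MvPowerSeries (Fin 2) ℂ)),
      (lastEquiv 2 (ser f)).IsWeierstrassFactorization P h ∧
      Irreducible (P.map (algebraMap (MvPowerSeries (Fin 2) ℂ)
        (FractionRing (MvPowerSeries (Fin 2) ℂ)))) := by
  refine exists_weierstrass (irreducible_ser hf f0 hμ le_rfl) ?_
  refine exists_coeff_ne (n := 2) hf (hreg.mono fun z hz => ?_)
  have : (Pi.single (Fin.last 2) z : Fin 3 → ℂ) = ![0, 0, z] := by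
    funext j
    fin_cases j <;> rfl
  rwa [this]

end Vale.Agent.P298.H766
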