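import Vale.Agent.P298.H990.Latt

/-!
# The anchor inequality: one step of length `A = div x`

`colen b(G + A) - χ(G + A) ≥ colen b(G) - χ(G)`, from the filtration of the colength by `x` and the
inequality `2 ∑ d_i ≤ 2 colen J + ∑ c_i` on the curve `x = 0`.
-/

open Module

namespace Vale.Agent.P298.H766.Anc

section abs

variable {k S : Type*} [Field k] [CommRing S] [Algebra k S]

/-- The inequality `2 ∑ d_i ≤ 2 dim (S/J) + c` for every ideal `J` of finite codimension all whose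
elements have order at least `d_i` along the `i`-th branch. -/
def CurveIneq {ι : Type*} [Fintype ι] (ψ : ι → S →ₐ[k] PowerSeries k) (c : ℤ) : Prop :=
  ∀ (J : Ideal S) (d : ι → ℕ), Module.Finite k (S ⧸ J) →
    (∀ h ∈ J, ∀ i, (PowerSeries.X : PowerSeries k) ^ d i ∣ ψ i h) →
    2 * ∑ i, (d i : ℤ) ≤ 2 * (finrank k (S ⧸ J) : ℤ) + c

theorem finite_of_le {J J' : Ideal S} (h : J ≤ J') (hf : Module.Finite k (S ⧸ J)) :
    Module.Finite k (S ⧸ J') :=
  Module.Finite.of_surjective (Ideal.Quotient.factorₐ k h).toLinearMap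
    (Ideal.Quotient.factor_surjective h)

theorem step {ι : Type*} [Fintype ι] {ψ : ι → S →ₐ[k] PowerSeries k} {c : ℤ}
    (hc : CurveIneq ψ c) {b b' : Ideal S} {x : S} (hx : ∀ i, ψ i x = 0)
    (hcol : ∀ h, x * h ∈ b' ↔ h ∈ b) (hf : Module.Finite k (S ⧸ b')) (d : ι → ℕ)
    (hd : ∀ h ∈ b', ∀ i, (PowerSeries.X : PowerSeries k) ^ d i ∣ ψ i h) :
    2 * (finrank k (S ⧸ b) : ℤ) + 2 * ∑ i, (d i : ℤ) ≤ 2 * (finrank k (S ⧸ b') : ℤ) + c := by
  have hle : b' ≤ b := fun h hh => (hcol h).1 (b'.mul_mem_left x hh)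
  have h1 := finite_of_le (k := k) hle hf
  have h2 : Module.Finite k (S ⧸ (b' ⊔ Ideal.span {x})) := finite_of_le le_sup_left hf
  obtain ⟨-, h3⟩ := Vale.Agent.P298.H990.quot_step (k := k) b' (b' ⊔ Ideal.span {x}) b x rfl hcol
    h1 h2
  have h4 := hc (b' ⊔ Ideal.span {x}) d h2 (by
    intro h hh i
    obtain ⟨u, hu, v, hv, rfl⟩ := Submodule.mem_sup.1 hh
    obtain ⟨w, rfl⟩ := Ideal.mem_span_singleton.1 hv
    rw [map_add, map_mul, hx, zero_mul, add_zero]
    exact hd u hu i)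
  rw [h3]
  push_cast
  linarith

variable {I : Type*} [Fintype I]

/-- `D . D'` -/
def dot (M : I → I → ℤ) (D D' : I → ℤ) : ℤ := ∑ i, ∑ j, D i * M i j * D' j

theorem dot_add_left (M : I → I → ℤ) (D D' E : I → ℤ) :
    dot M (D + D') E = dot M D E + dot M D' E := by
  simp only [dot, ← Finset.sum_add_distrib, Pi.add_apply]
  refine Finset.sum_congr rfl fun i _ => Finset.sum_congr rfl fun j _ => ?_
  ring

theorem dot_add_right (M : I → I → ℤ) (D E E' : I → ℤ) :
    dot M D (E + E') = dot M D E + dot M D E' := by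
  simp only [dot, ← Finset.sum_add_distrib, Pi.add_apply]
  refine Finset.sum_congr rfl fun i _ => Finset.sum_congr rfl fun j _ => ?_
  ring

theorem dot_comm {M : I → I → ℤ} (hM : ∀ i j, M i j = M j i) (D E : I → ℤ) :
    dot M D E = dot M E D := by
  rw [dot, dot, Finset.sum_comm]
  refine Finset.sum_congr rfl fun i _ => Finset.sum_congr rfl fun j _ => ?_
  rw [hM j i]
  ring

/-- `- (D . D + K . D)`, twice the Riemann-Roch expression. -/
def chi2 (M : I → I → ℤ) (K D : I → ℤ) : ℤ := -(dot M D D + dot M K D)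

/-- **The anchor inequality, one step.** -/
theorem anchor {ι : Type*} [Fintype ι] {ψ : ι → S →ₐ[k] PowerSeries k} {c : ι → ℤ}
    (hc : CurveIneq ψ (∑ i, c i)) {x : S} (hx : ∀ i, ψ i x = 0)
    (M : I → I → ℤ) (hM : ∀ i j, M i j = M j i) (K A : I → ℤ) (b : (I → ℤ) → Ideal S)
    (hb : ∀ D, Module.Finite k (S ⧸ b D))
    (hcol : ∀ D h, x * h ∈ b (D + A) ↔ h ∈ b D) (p : ι → I)
    (hp : ∀ D : I → ℤ, ∑ i, D (p i) = - dot M A D)
    (h1 : ∀ D, ∀ h ∈ b D, ∀ i, (PowerSeries.X : PowerSeries k) ^ (D (p i)).toNat ∣ ψ i h)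
    (h2 : ∀ i, c i ≤ A (p i) - K (p i)) (G : I → ℤ) :
    2 * (finrank k (S ⧸ b G) : ℤ) - chi2 M K G ≤
      2 * (finrank k (S ⧸ b (G + A)) : ℤ) - chi2 M K (G + A) := by
  have h3 := step hc hx (hcol G) (hb (G + A)) (fun i => ((G + A) (p i)).toNat)
    (h1 (G + A))
  have h4 : ∑ i, (G + A) (p i) ≤ ∑ i, (((G + A) (p i)).toNat : ℤ) :=
    Finset.sum_le_sum fun i _ => Int.self_le_toNat _
  have h5 : ∑ i, c i ≤ ∑ i, (A - K) (p i) :=
    Finset.sum_le_sum fun i _ => by simpa using h2 i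
  have h6 := hp (G + A)
  have h7 := hp (A - K)
  have h8 : dot M A (A - K) = dot M A A - dot M A K := by
    have := dot_add_right M A (A - K) K
    rw [sub_add_cancel] at this
    linarith
  have h9 : dot M A (G + A) = dot M A G + dot M A A := dot_add_right M A G A
  have h10 : dot M (G + A) (G + A) = dot M G G + 2 * dot M A G + dot M A A := by
    rw [dot_add_left, dot_add_right, dot_add_right, dot_comm hM G A]; ring
  have h11 : dot M K (G + A) = dot M K G + dot M A K := by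
    rw [dot_add_right, dot_comm hM K A]
  simp only [chi2]
  rw [h10, h11]
  rw [h9] at h6
  rw [h8] at h7
  linarith

end abs

end Vale.Agent.P298.H766.Anc
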