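import Mathlib

/-!
# The roots of a polynomial over `ℂ⟦y⟧` on the cover `y = s ^ N`, grouped into branches
-/

open Polynomial Function

namespace Vale.Agent.P298.H766.Orb

/-- the roots are permuted by `s ↦ ω s` -/
theorem exists_tau {ι : Type*} [Fintype ι] {P : Polynomial (PowerSeries ℂ)} {N : ℕ} (hN : N ≠ 0)
    {ρ : ι → PowerSeries ℂ}
    (hP : P.map (PowerSeries.expand N hN : PowerSeries ℂ →ₐ[ℂ] PowerSeries ℂ).toRingHom =
      ∏ α, (X - C (ρ α))) {ω : ℂ} (hω : ω ^ N = 1) :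
    ∃ τ : ι → ι, ∀ α, ρ (τ α) = PowerSeries.rescale ω (ρ α) := by
  have h1 : (PowerSeries.rescale ω).comp
      (PowerSeries.expand N hN : PowerSeries ℂ →ₐ[ℂ] PowerSeries ℂ).toRingHom =
      (PowerSeries.expand N hN : PowerSeries ℂ →ₐ[ℂ] PowerSeries ℂ).toRingHom := by
    ext p n
    simp only [RingHom.comp_apply, PowerSeries.coeff_rescale, AlgHom.toRingHom_eq_coe,
      RingHom.coe_coe]
    by_cases h : N ∣ n
    · obtain ⟨m, rfl⟩ := h
      rw [pow_mul, hω, one_pow, one_mul]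
    · rw [PowerSeries.coeff_expand_of_not_dvd N hN p h, mul_zero]
  have h2 : (∏ α, (X - C (ρ α)) : Polynomial (PowerSeries ℂ)) =
      ∏ α, (X - C (PowerSeries.rescale ω (ρ α))) := by
    have := congrArg (Polynomial.map (PowerSeries.rescale ω)) hP
    rw [Polynomial.map_map, h1, hP, Polynomial.map_prod] at this
    simpa using this
  have h3 : ∀ α, ∃ β, ρ β = PowerSeries.rescale ω (ρ α) := by
    intro α
    have h4 := congrArg (Polynomial.eval (PowerSeries.rescale ω (ρ α))) h2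
    rw [Polynomial.eval_prod, Polynomial.eval_prod,
      Finset.prod_eq_zero (i := α) (s := Finset.univ)
        (f := fun β => Polynomial.eval (PowerSeries.rescale ω (ρ α))
          (X - C (PowerSeries.rescale ω (ρ β)))) (Finset.mem_univ _) (by simp),
      Finset.prod_eq_zero_iff] at h4
    obtain ⟨β, -, hβ⟩ := h4
    refine ⟨β, ?_⟩
    simp only [eval_sub, eval_X, eval_C, sub_eq_zero] at hβ
    exact hβ.symm
  choose τ hτ using h3
  exact ⟨τ, hτ⟩

theorem iter {ι : Type*} {ρ : ι → PowerSeries ℂ} {ω : ℂ} {τ : ι → ι}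
    (hτ : ∀ α, ρ (τ α) = PowerSeries.rescale ω (ρ α)) (k : ℕ) (α : ι) :
    ρ (τ^[k] α) = PowerSeries.rescale (ω ^ k) (ρ α) := by
  induction k with
  | zero => simp
  | succ k ih => rw [Function.iterate_succ_apply', hτ, ih, PowerSeries.rescale_rescale,
      ← pow_succ]

/-- a series invariant under a primitive `m`-th root of unity is a series in `s ^ m` -/
theorem exists_expand {m : ℕ} (hm : m ≠ 0) {ε : ℂ} (hε : IsPrimitiveRoot ε m)
    {p : PowerSeries ℂ} (hp : PowerSeries.rescale ε p = p) :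
    ∃ q : PowerSeries ℂ, p = PowerSeries.expand m hm q := by
  refine ⟨PowerSeries.mk fun k => PowerSeries.coeff (m * k) p, ?_⟩
  ext n
  rw [PowerSeries.coeff_expand]
  split_ifs with h
  · obtain ⟨k, rfl⟩ := h
    rw [PowerSeries.coeff_mk, Nat.mul_div_cancel_left _ (Nat.pos_of_ne_zero hm)]
  · have h1 := congrArg (PowerSeries.coeff n) hp
    rw [PowerSeries.coeff_rescale] at h1
    have h2 : ε ^ n ≠ 1 := fun h3 => h ((hε.pow_eq_one_iff_dvd n).1 h3)
    have h3 : (ε ^ n - 1) * PowerSeries.coeff n p = 0 := by rw [sub_mul, h1, one_mul, sub_self]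
    exact (mul_eq_zero.1 h3).resolve_left (sub_ne_zero.2 h2)

/-- **Grouping the roots into branches.** -/
theorem exists_branches {ι : Type*} [Fintype ι] {P : Polynomial (PowerSeries ℂ)} {N : ℕ}
    (hN : N ≠ 0) {ρ : ι → PowerSeries ℂ} (hinj : Injective ρ)
    (hP : P.map (PowerSeries.expand N hN : PowerSeries ℂ →ₐ[ℂ] PowerSeries ℂ).toRingHom =
      ∏ α, (X - C (ρ α))) {ω : ℂ} (hω : IsPrimitiveRoot ω N) :
    ∃ (τ : ι → ι) (κ : Type) (_ : Fintype κ) (q : ι → κ) (e m : κ → ℕ) (he : ∀ i, e i ≠ 0)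
      (hm : ∀ i, m i ≠ 0) (ζ : κ → PowerSeries ℂ) (F : (Σ i, Fin (e i)) ≃ ι),
      (∀ α, ρ (τ α) = PowerSeries.rescale ω (ρ α)) ∧
      (∀ i, m i * e i = N) ∧
      (∀ i a, q (F ⟨i, a⟩) = i) ∧
      (∀ α β, q α = q β ↔ ∃ k : ℕ, τ^[k] α = β) ∧
      (∀ i a, ρ (F ⟨i, a⟩) =
        PowerSeries.rescale (ω ^ (a : ℕ)) (PowerSeries.expand (m i) (hm i) (ζ i))) := by
  classical
  obtain ⟨τ, hτ⟩ := exists_tau hN hP hω.pow_eq_one
  have hNp : ∀ α, τ^[N] α = α := fun α => by
    apply hinj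
    rw [iter hτ, hω.pow_eq_one, PowerSeries.rescale_one, RingHom.id_apply]
  have hper : ∀ α, IsPeriodicPt τ N α := hNp
  let S : Setoid ι :=
    { r := fun α β => ∃ k : ℕ, τ^[k] α = β
      iseqv :=
        { refl := fun α => ⟨0, rfl⟩
          symm := by
            rintro α β ⟨k, rfl⟩
            refine ⟨N * k - k, ?_⟩
            rw [← Function.iterate_add_apply, Nat.sub_add_cancel
              (Nat.le_mul_of_pos_left k (Nat.pos_of_ne_zero hN))]
            exact (hper α).mul_const k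
          trans := by
            rintro α β γ ⟨k, rfl⟩ ⟨l, rfl⟩
            exact ⟨l + k, Function.iterate_add_apply τ l k α⟩ } }
  let eκ := Fintype.equivFin (Quotient S)
  let κ := Fin (Fintype.card (Quotient S))
  let rep : κ → ι := fun i => (eκ.symm i).out
  let q : ι → κ := fun α => eκ (Quotient.mk S α)
  have hq : ∀ α β, q α = q β ↔ ∃ k : ℕ, τ^[k] α = β := fun α β => by
    rw [eκ.injective.eq_iff]
    exact Quotient.eq (r := S)
  have hqr : ∀ i, q (rep i) = i := fun i => by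
    have : (Quotient.mk S (eκ.symm i).out) = eκ.symm i := Quotient.out_eq _
    simp only [q, rep]
    rw [this]
    exact eκ.apply_symm_apply i
  let e : κ → ℕ := fun i => minimalPeriod τ (rep i)
  have he : ∀ i, 0 < e i := fun i => (hper (rep i)).minimalPeriod_pos (Nat.pos_of_ne_zero hN)
  have hdvd : ∀ i, e i ∣ N := fun i => (hper (rep i)).minimalPeriod_dvd
  choose m hm using hdvd
  have hm0 : ∀ i, m i ≠ 0 := fun i h => hN (by rw [hm i, h, mul_zero])
  have hζ : ∀ i, ∃ z : PowerSeries ℂ, ρ (rep i) = PowerSeries.expand (m i) (hm0 i) z := by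
    intro i
    refine exists_expand (hm0 i) (ε := ω ^ e i) ?_ ?_
    · exact hω.pow (Nat.pos_of_ne_zero hN) (hm i)
    · rw [← iter hτ]
      congr 1
      exact isPeriodicPt_minimalPeriod τ (rep i)
  choose ζ hζ' using hζ
  have hFq : ∀ (i : κ) (a : ℕ), q (τ^[a] (rep i)) = i := fun i a => by
    rw [← (hq (rep i) _).2 ⟨a, rfl⟩, hqr]
  have hbij : Bijective (fun p : (Σ i, Fin (e i)) => τ^[(p.2 : ℕ)] (rep p.1)) := by
    constructor
    · rintro ⟨i, a⟩ ⟨j, b⟩ h
      simp only at h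
      have hij : i = j := by rw [← hFq i a, h, hFq]
      subst hij
      have := iterate_injOn_Iio_minimalPeriod (f := τ) (x := rep i) a.2 b.2 h
      congr 1
      exact Fin.ext this
    · intro β
      have h1 : q (rep (q β)) = q β := hqr _
      obtain ⟨k, hk⟩ := (hq _ _).1 h1
      refine ⟨⟨q β, ⟨k % e (q β), Nat.mod_lt _ (he _)⟩⟩, ?_⟩
      simp only [e]
      rw [iterate_mod_minimalPeriod_eq, hk]
  refine ⟨τ, κ, inferInstance, q, e, m, fun i => (he i).ne', hm0, ζ, Equiv.ofBijective _ hbij, hτ,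
    fun i => by rw [mul_comm, ← hm i], fun i a => hFq i a, hq, fun i a => ?_⟩
  rw [← hζ' i, ← iter hτ]
  rfl

end Vale.Agent.P298.H766.Orb
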