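import Vale.Agent.P298.H766.Anc
import Vale.Agent.P298.H766.Orb

/-!
# The curve inequality in terms of the roots on the cover `y = s ^ N`
-/

open Polynomial Function Module

namespace Vale.Agent.P298.H766.Anc

open Vale.Agent.P298.H766.Orb

/-- evaluation of `P ∈ ℂ⟦y⟧[z]` at `y = t ^ e`, `z = b` -/
noncomputable def evP (e : ℕ) (he : e ≠ 0) (b : PowerSeries ℂ) (P : Polynomial (PowerSeries ℂ)) :
    PowerSeries ℂ :=
  P.eval₂ (PowerSeries.expand e he : PowerSeries ℂ →ₐ[ℂ] PowerSeries ℂ).toRingHom b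

/-- The branch form of the curve inequality (helper360). -/
def BranchIneq : Prop :=
  ∀ {κ : Type} [Fintype κ] (e : κ → ℕ) (he : ∀ i, e i ≠ 0) (β : κ → PowerSeries ℂ)
    (P : Polynomial (PowerSeries ℂ)) (_ : P.Monic) (_ : P.natDegree = ∑ i, e i)
    (_ : ∀ i, evP (e i) (he i) (β i) P = 0)
    (N : ℕ) (_ : N ≠ 0) (m : κ → ℕ) (hm : ∀ i, m i ≠ 0) (_ : ∀ i, m i * e i = N)
    (ω : κ → ℂ) (_ : ∀ i, IsPrimitiveRoot (ω i) (e i))
    (_ : Injective (fun p : (Σ i, Fin (e i)) => PowerSeries.expand (m p.1) (hm p.1)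
      (PowerSeries.rescale (ω p.1 ^ (p.2 : ℕ)) (β p.1))))
    {S : Type} [CommRing S] [Algebra ℂ S] (ψ : κ → S →ₐ[ℂ] PowerSeries ℂ) (Y Z : S)
    (_ : ∀ i, ψ i Y = PowerSeries.X ^ e i) (_ : ∀ i, ψ i Z = β i),
    CurveIneq ψ (∑ i, (((evP (e i) (he i) (β i) (derivative P)).order.toNat : ℤ) - (e i - 1)))

/-- `expand` is injective -/
theorem expand_injective {m : ℕ} (hm : m ≠ 0) : Injective (PowerSeries.expand m hm :
    PowerSeries ℂ →ₐ[ℂ] PowerSeries ℂ) := by
  intro p q h
  ext k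
  have := congrArg (PowerSeries.coeff (m * k)) h
  simpa using this

theorem rescale_expand {m : ℕ} (hm : m ≠ 0) (ω : ℂ) (p : PowerSeries ℂ) :
    PowerSeries.rescale ω (PowerSeries.expand m hm p) =
      PowerSeries.expand m hm (PowerSeries.rescale (ω ^ m) p) := by
  ext n
  rw [PowerSeries.coeff_rescale, PowerSeries.coeff_expand, PowerSeries.coeff_expand]
  split_ifs with h
  · obtain ⟨k, rfl⟩ := h
    rw [PowerSeries.coeff_rescale, Nat.mul_div_cancel_left _ (Nat.pos_of_ne_zero hm), pow_mul]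
  · rw [mul_zero]

theorem order_rescale {ω : ℂ} (hω : ω ≠ 0) (p : PowerSeries ℂ) :
    (PowerSeries.rescale ω p).order = p.order := by
  apply le_antisymm
  · refine PowerSeries.le_order _ _ fun i hi => ?_
    have := PowerSeries.coeff_of_lt_order i hi
    rw [PowerSeries.coeff_rescale] at this
    exact (mul_eq_zero.1 this).resolve_left (pow_ne_zero i hω)
  · refine PowerSeries.le_order _ _ fun i hi => ?_
    rw [PowerSeries.coeff_rescale, PowerSeries.coeff_of_lt_order i hi, mul_zero]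

theorem expand_evP {e m N : ℕ} (he : e ≠ 0) (hm : m ≠ 0) (hN : N ≠ 0) (h : m * e = N)
    (b : PowerSeries ℂ) (P : Polynomial (PowerSeries ℂ)) :
    PowerSeries.expand m hm (evP e he b P) = evP N hN (PowerSeries.expand m hm b) P := by
  subst h
  have h1 : (PowerSeries.expand (m * e) hN : PowerSeries ℂ →ₐ[ℂ] PowerSeries ℂ).toRingHom =
      ((PowerSeries.expand m hm : PowerSeries ℂ →ₐ[ℂ] PowerSeries ℂ).toRingHom).comp
        (PowerSeries.expand e he : PowerSeries ℂ →ₐ[ℂ] PowerSeries ℂ).toRingHom := by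
    refine RingHom.ext fun x => ?_
    exact PowerSeries.expand_mul m hm e he x
  simp only [evP]
  rw [h1]
  exact Polynomial.hom_eval₂ P _
    (PowerSeries.expand m hm : PowerSeries ℂ →ₐ[ℂ] PowerSeries ℂ).toRingHom b

theorem rescale_evP {N : ℕ} (hN : N ≠ 0) {ω : ℂ} (hω : ω ^ N = 1)
    (b : PowerSeries ℂ) (P : Polynomial (PowerSeries ℂ)) :
    PowerSeries.rescale ω (evP N hN b P) = evP N hN (PowerSeries.rescale ω b) P := by
  have h1 : (PowerSeries.rescale ω).comp
      (PowerSeries.expand N hN : PowerSeries ℂ →ₐ[ℂ] PowerSeries ℂ).toRingHom =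
      (PowerSeries.expand N hN : PowerSeries ℂ →ₐ[ℂ] PowerSeries ℂ).toRingHom := by
    refine RingHom.ext fun x => ?_
    show PowerSeries.rescale ω (PowerSeries.expand N hN x) = PowerSeries.expand N hN x
    rw [rescale_expand, hω, PowerSeries.rescale_one, RingHom.id_apply]
  simp only [evP]
  rw [Polynomial.hom_eval₂, h1]

/-- descent of an algebra map to `ℂ⟦s ^ m⟧` -/
theorem exists_desc {S : Type*} [CommRing S] [Algebra ℂ S] {m : ℕ} (hm : m ≠ 0)
    (Ψ : S →ₐ[ℂ] PowerSeries ℂ) (h : ∀ x, ∃ q, Ψ x = PowerSeries.expand m hm q) :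
    ∃ ψ : S →ₐ[ℂ] PowerSeries ℂ, ∀ x, Ψ x = PowerSeries.expand m hm (ψ x) := by
  let E := AlgEquiv.ofInjective (PowerSeries.expand m hm : PowerSeries ℂ →ₐ[ℂ] PowerSeries ℂ)
    (expand_injective hm)
  refine ⟨(E.symm : _ →ₐ[ℂ] _).comp (Ψ.codRestrict (PowerSeries.expand m hm :
    PowerSeries ℂ →ₐ[ℂ] PowerSeries ℂ).range fun x => ?_), fun x => ?_⟩
  · obtain ⟨q, hq⟩ := h x
    exact ⟨q, hq.symm⟩
  · have h1 := E.apply_symm_apply (Ψ.codRestrict (PowerSeries.expand m hm :
      PowerSeries ℂ →ₐ[ℂ] PowerSeries ℂ).range (fun x => by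
        obtain ⟨q, hq⟩ := h x
        exact ⟨q, hq.symm⟩) x)
    have h2 := congrArg Subtype.val h1
    exact h2.symm

theorem ceil_le {M m : ℕ} (hm : m ≠ 0) {o : ℕ∞} (h : (M : ℕ∞) ≤ m • o) :
    (((M + m - 1) / m : ℕ) : ℕ∞) ≤ o := by
  induction o with
  | top => exact le_top
  | coe o =>
    have h1 : M ≤ m * o := by
      have : (M : ℕ∞) ≤ ((m * o : ℕ) : ℕ∞) := by simpa using h
      exact_mod_cast this
    have h2 : (M + m - 1) / m ≤ o := by
      rw [Nat.div_le_iff_le_mul (Nat.pos_of_ne_zero hm), mul_comm]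
      omega
    exact_mod_cast h2

theorem le_mul_ceil {M m : ℕ} (hm : m ≠ 0) : M ≤ m * ((M + m - 1) / m) := by
  have h1 := Nat.lt_mul_div_succ (M + m - 1) (Nat.pos_of_ne_zero hm)
  have h2 : m * ((M + m - 1) / m + 1) = m * ((M + m - 1) / m) + m := by ring
  omega

/-- **The curve inequality on the cover `y = s ^ N`.** -/
theorem uniform (hB : BranchIneq) {ι : Type} [Fintype ι] {P : Polynomial (PowerSeries ℂ)}
    (hPm : P.Monic) {N : ℕ} (hN : N ≠ 0) {ρ : ι → PowerSeries ℂ} (hinj : Injective ρ)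
    (hP : P.map (PowerSeries.expand N hN : PowerSeries ℂ →ₐ[ℂ] PowerSeries ℂ).toRingHom =
      ∏ α, (X - C (ρ α))) {ω : ℂ} (hω : IsPrimitiveRoot ω N)
    {S : Type} [CommRing S] [Algebra ℂ S] (Ψ : ι → S →ₐ[ℂ] PowerSeries ℂ)
    (hΨ : ∀ α β, ρ β = PowerSeries.rescale ω (ρ α) →
      ∀ h, Ψ β h = PowerSeries.rescale ω (Ψ α h))
    (Y Z : S) (hY : ∀ α, Ψ α Y = PowerSeries.X ^ N) (hZ : ∀ α, Ψ α Z = ρ α) :
    ∃ (κ : Type) (_ : Fintype κ) (q : ι → κ), Surjective q ∧
      (∀ α β, q α = q β ↔ ∃ k : ℕ, ρ β = PowerSeries.rescale (ω ^ k) (ρ α)) ∧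
      ∀ (J : Ideal S) (d : ι → ℕ), Module.Finite ℂ (S ⧸ J) →
        (∀ h ∈ J, ∀ α, (PowerSeries.X : PowerSeries ℂ) ^ d α ∣ Ψ α h) →
        2 * ∑ α, (d α : ℤ) ≤ 2 * N * (finrank ℂ (S ⧸ J) : ℤ) +
          (∑ α, ((evP N hN (ρ α) (derivative P)).order.toNat : ℤ) -
            N * ((Fintype.card ι : ℤ) - Fintype.card κ)) := by
  classical
  obtain ⟨τ, κ, _, q, e, m, he, hm, ζ, F, hτ, hme, hqF, hq, hF⟩ :=
    exists_branches hN hinj hP hω
  have hω0 : ω ≠ 0 := hω.ne_zero hN
  -- the representative of a branch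
  have he0 : ∀ i, 0 < e i := fun i => Nat.pos_of_ne_zero (he i)
  let R : κ → ι := fun i => F ⟨i, ⟨0, he0 i⟩⟩
  have hR : ∀ i, ρ (R i) = PowerSeries.expand (m i) (hm i) (ζ i) := fun i => by
    have := hF i ⟨0, he0 i⟩
    simpa using this
  have hFR : ∀ i (a : Fin (e i)), F ⟨i, a⟩ = τ^[(a : ℕ)] (R i) := fun i a => by
    apply hinj
    rw [iter hτ, hF, hR]
  have hfix : ∀ i, τ^[e i] (R i) = R i := fun i => by
    apply hinj
    rw [iter hτ, hR, rescale_expand, ← pow_mul, mul_comm (e i) (m i), hme, hω.pow_eq_one,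
      PowerSeries.rescale_one, RingHom.id_apply]
  have hΨi : ∀ (k : ℕ) α h, Ψ (τ^[k] α) h = PowerSeries.rescale (ω ^ k) (Ψ α h) := by
    intro k α h
    induction k with
    | zero => simp
    | succ k ih =>
      rw [Function.iterate_succ_apply', hΨ _ _ (hτ _), ih, PowerSeries.rescale_rescale,
        ← pow_succ]
  have hdesc : ∀ i, ∃ ψ : S →ₐ[ℂ] PowerSeries ℂ, ∀ x, Ψ (R i) x =
      PowerSeries.expand (m i) (hm i) (ψ x) := fun i => by
    refine exists_desc (hm i) _ fun x => ?_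
    refine exists_expand (hm i) (ε := ω ^ e i) ?_ ?_
    · exact hω.pow (Nat.pos_of_ne_zero hN) (by rw [mul_comm, hme])
    · rw [← hΨi, hfix]
  choose ψ hψ using hdesc
  have hcard : ∑ i, e i = Fintype.card ι := by
    rw [← Fintype.card_congr F, Fintype.card_sigma]
    simp
  have hdeg : P.natDegree = ∑ i, e i := by
    have h1 : (P.map (PowerSeries.expand N hN :
        PowerSeries ℂ →ₐ[ℂ] PowerSeries ℂ).toRingHom).natDegree = P.natDegree :=
      hPm.natDegree_map _
    rw [← h1, hP, natDegree_prod_of_monic _ _ fun α _ => monic_X_sub_C _, hcard]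
    simp
  have hroot : ∀ α, evP N hN (ρ α) P = 0 := fun α => by
    rw [evP, ← Polynomial.eval_map, hP, eval_prod]
    exact Finset.prod_eq_zero (Finset.mem_univ α) (by simp)
  have hz : ∀ i, evP (e i) (he i) (ζ i) P = 0 := fun i => by
    apply expand_injective (hm i)
    rw [expand_evP (he i) (hm i) hN (hme i), ← hR, hroot, map_zero]
  have hprim : ∀ i, IsPrimitiveRoot (ω ^ m i) (e i) := fun i =>
    hω.pow (Nat.pos_of_ne_zero hN) (hme i).symm
  have hinj' : Injective (fun p : (Σ i, Fin (e i)) => PowerSeries.expand (m p.1) (hm p.1)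
      (PowerSeries.rescale ((ω ^ m p.1) ^ (p.2 : ℕ)) (ζ p.1))) := by
    have h1 : (fun p : (Σ i, Fin (e i)) => PowerSeries.expand (m p.1) (hm p.1)
      (PowerSeries.rescale ((ω ^ m p.1) ^ (p.2 : ℕ)) (ζ p.1))) = fun p => ρ (F p) := by
      funext ⟨i, a⟩
      rw [hF, rescale_expand]
      simp only
      rw [← pow_mul, ← pow_mul, mul_comm]
    rw [h1]
    exact hinj.comp F.injective
  have hc := hB e he ζ P hPm hdeg hz N hN m hm hme (fun i => ω ^ m i) hprim hinj' ψ Y Z
    (fun i => by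
      apply expand_injective (hm i)
      rw [← hψ, hY, map_pow, PowerSeries.expand_X, ← pow_mul, hme])
    (fun i => by
      apply expand_injective (hm i)
      rw [← hψ, hZ, hR])
  refine ⟨κ, inferInstance, q, fun i => ⟨R i, hqF _ _⟩, fun α β => ?_, fun J d hJ hd => ?_⟩
  · rw [hq]
    refine exists_congr fun k => ?_
    rw [← iter hτ]
    exact ⟨fun h => by rw [h], fun h => (hinj h).symm⟩
  · -- the orders on the branches
    have hord : ∀ i (a : Fin (e i)) h, (Ψ (F ⟨i, a⟩) h).order = m i • (ψ i h).order :=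
      fun i a h => by
      rw [hFR, hΨi, order_rescale (pow_ne_zero _ hω0), hψ, PowerSeries.order_expand]
    let M : κ → ℕ := fun i => Finset.univ.sup fun a : Fin (e i) => d (F ⟨i, a⟩)
    let D : κ → ℕ := fun i => (M i + m i - 1) / m i
    have hD : ∀ h ∈ J, ∀ i, (PowerSeries.X : PowerSeries ℂ) ^ D i ∣ ψ i h := by
      intro h hh i
      rw [PowerSeries.X_pow_dvd_iff]
      have h1 : (D i : ℕ∞) ≤ (ψ i h).order := by
        refine ceil_le (hm i) ?_
        obtain ⟨a, -, ha⟩ := Finset.exists_mem_eq_sup (Finset.univ : Finset (Fin (e i)))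
          ⟨⟨0, he0 i⟩, Finset.mem_univ _⟩ fun a : Fin (e i) => d (F ⟨i, a⟩)
        show ((Finset.univ.sup fun a : Fin (e i) => d (F ⟨i, a⟩) : ℕ) : ℕ∞) ≤ _
        rw [ha, ← hord i a h]
        exact PowerSeries.le_order _ _ fun j hj => by
          have := (PowerSeries.X_pow_dvd_iff.1 (hd h hh (F ⟨i, a⟩))) j
          exact this (by exact_mod_cast hj)
      intro j hj
      exact PowerSeries.coeff_of_lt_order j (lt_of_lt_of_le (by exact_mod_cast hj) h1)
    have h1 := hc J D hJ hD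
    have h2 : ∑ α, (d α : ℤ) ≤ N * ∑ i, (D i : ℤ) := by
      rw [← F.sum_comp, Fintype.sum_sigma, Finset.mul_sum]
      refine Finset.sum_le_sum fun i _ => ?_
      have h3 : ∀ a : Fin (e i), d (F ⟨i, a⟩) ≤ m i * D i := fun a =>
        (Finset.le_sup (f := fun a : Fin (e i) => d (F ⟨i, a⟩)) (Finset.mem_univ a)).trans
          (le_mul_ceil (hm i))
      calc ∑ a : Fin (e i), (d (F ⟨i, a⟩) : ℤ) ≤ ∑ _a : Fin (e i), ((m i * D i : ℕ) : ℤ) :=
            Finset.sum_le_sum fun a _ => by exact_mod_cast h3 a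
        _ = (N : ℤ) * D i := by
            rw [Finset.sum_const, Finset.card_univ, Fintype.card_fin, ← hme i]
            push_cast
            ring
    have h3 : ∀ i (a : Fin (e i)), (evP N hN (ρ (F ⟨i, a⟩)) (derivative P)).order.toNat =
        m i * (evP (e i) (he i) (ζ i) (derivative P)).order.toNat := fun i a => by
      rw [hF, ← rescale_evP hN (by rw [← pow_mul, mul_comm, pow_mul, hω.pow_eq_one, one_pow]),
        order_rescale (pow_ne_zero _ hω0), ← expand_evP (he i) (hm i) hN (hme i),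
        PowerSeries.order_expand]
      simp
    have h4 : ∑ α, ((evP N hN (ρ α) (derivative P)).order.toNat : ℤ) =
        N * ∑ i, ((evP (e i) (he i) (ζ i) (derivative P)).order.toNat : ℤ) := by
      rw [← F.sum_comp, Fintype.sum_sigma, Finset.mul_sum]
      refine Finset.sum_congr rfl fun i _ => ?_
      simp only [h3]
      rw [Finset.sum_const, Finset.card_univ, Fintype.card_fin, ← hme i]
      push_cast
      ring
    have h5 : (Fintype.card ι : ℤ) - Fintype.card κ = ∑ i, ((e i : ℤ) - 1) := by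
      rw [Finset.sum_sub_distrib, ← hcard]
      push_cast
      simp
    rw [Finset.sum_sub_distrib] at h1
    rw [h4, h5]
    have h6 : (0 : ℤ) < N := by exact_mod_cast Nat.pos_of_ne_zero hN
    nlinarith

end Vale.Agent.P298.H766.Anc
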