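import Vale.Agent.P298.H766.Anc2

/-!
# The curve inequality in terms of the roots only
-/

open Polynomial Function Module

namespace Vale.Agent.P298.H766.Anc

open Vale.Agent.P298.H766.Orb

/-- A finite set of series stable under `s ↦ ω s` is the set of roots of a polynomial in `s ^ N`. -/
theorem exists_poly {ι : Type*} [Fintype ι] {N : ℕ} (hN : N ≠ 0) {ρ : ι → PowerSeries ℂ}
    (hinj : Injective ρ) {ω : ℂ} (hω : IsPrimitiveRoot ω N)
    (hst : ∀ α, ∃ β, ρ β = PowerSeries.rescale ω (ρ α)) :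
    ∃ P : Polynomial (PowerSeries ℂ), P.Monic ∧
      P.map (PowerSeries.expand N hN : PowerSeries ℂ →ₐ[ℂ] PowerSeries ℂ).toRingHom =
        ∏ α, (X - C (ρ α)) := by
  classical
  choose τ hτ using hst
  have hinjτ : Injective τ := by
    intro α β h
    apply hinj
    have h1 : PowerSeries.rescale ω (ρ α) = PowerSeries.rescale ω (ρ β) := by
      rw [← hτ, ← hτ, h]
    ext k
    have h2 := congrArg (PowerSeries.coeff k) h1
    rw [PowerSeries.coeff_rescale, PowerSeries.coeff_rescale] at h2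
    exact mul_left_cancel₀ (pow_ne_zero k (hω.ne_zero hN)) h2
  have hbij : Bijective τ := Finite.injective_iff_bijective.1 hinjτ
  have h1 : (∏ α, (X - C (ρ α)) : Polynomial (PowerSeries ℂ)).map (PowerSeries.rescale ω) =
      ∏ α, (X - C (ρ α)) := by
    rw [Polynomial.map_prod]
    simp only [Polynomial.map_sub, Polynomial.map_X, Polynomial.map_C, ← hτ]
    exact hbij.prod_comp fun α => X - C (ρ α)
  have hmon : (∏ α, (X - C (ρ α)) : Polynomial (PowerSeries ℂ)).Monic :=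
    monic_prod_of_monic _ _ fun α _ => monic_X_sub_C _
  have h2 : ∀ k, ∃ q, (∏ α, (X - C (ρ α)) : Polynomial (PowerSeries ℂ)).coeff k =
      PowerSeries.expand N hN q := fun k => by
    refine exists_expand hN hω ?_
    conv_rhs => rw [← h1]
    rw [Polynomial.coeff_map]
  have h3 : (∏ α, (X - C (ρ α)) : Polynomial (PowerSeries ℂ)) ∈
      Polynomial.lifts
        (PowerSeries.expand N hN : PowerSeries ℂ →ₐ[ℂ] PowerSeries ℂ).toRingHom := by
    rw [Polynomial.lifts_iff_coeff_lifts]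
    intro k
    obtain ⟨q, hq⟩ := h2 k
    exact ⟨q, hq.symm⟩
  obtain ⟨P, hP1, -, hP2⟩ := Polynomial.lifts_and_natDegree_eq_and_monic h3 hmon
  exact ⟨P, hP2, hP1⟩

theorem evP_derivative {ι : Type*} [Fintype ι] [DecidableEq ι] {N : ℕ} (hN : N ≠ 0)
    {ρ : ι → PowerSeries ℂ}
    {P : Polynomial (PowerSeries ℂ)}
    (hP : P.map (PowerSeries.expand N hN : PowerSeries ℂ →ₐ[ℂ] PowerSeries ℂ).toRingHom =
        ∏ α, (X - C (ρ α))) (α : ι) :
    evP N hN (ρ α) (derivative P) = ∏ β ∈ Finset.univ.erase α, (ρ α - ρ β) := by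
  rw [evP, ← Polynomial.eval_map, ← derivative_map, hP,
    ← Finset.mul_prod_erase Finset.univ (fun β => X - C (ρ β)) (Finset.mem_univ α),
    derivative_mul]
  simp [eval_prod]

/-- **The curve inequality on the cover `y = s ^ N`, in terms of the roots.** -/
theorem roots (hB : BranchIneq) {ι : Type} [Fintype ι] [DecidableEq ι]
    {N : ℕ} (hN : N ≠ 0) {ρ : ι → PowerSeries ℂ} (hinj : Injective ρ)
    {ω : ℂ} (hω : IsPrimitiveRoot ω N)
    (hst : ∀ α, ∃ β, ρ β = PowerSeries.rescale ω (ρ α))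
    {S : Type} [CommRing S] [Algebra ℂ S] (Ψ : ι → S →ₐ[ℂ] PowerSeries ℂ)
    (hΨ : ∀ α β, ρ β = PowerSeries.rescale ω (ρ α) →
      ∀ h, Ψ β h = PowerSeries.rescale ω (Ψ α h))
    (Y Z : S) (hY : ∀ α, Ψ α Y = PowerSeries.X ^ N) (hZ : ∀ α, Ψ α Z = ρ α) :
    ∃ (κ : Type) (_ : Fintype κ) (q : ι → κ), Surjective q ∧
      (∀ α β, q α = q β ↔ ∃ k : ℕ, ρ β = PowerSeries.rescale (ω ^ k) (ρ α)) ∧
      ∀ (J : Ideal S) (d : ι → ℕ), Module.Finite ℂ (S ⧸ J) →
        (∀ h ∈ J, ∀ α, (PowerSeries.X : PowerSeries ℂ) ^ d α ∣ Ψ α h) →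
        2 * ∑ α, (d α : ℤ) ≤ 2 * N * (finrank ℂ (S ⧸ J) : ℤ) +
          (∑ α, ∑ β ∈ Finset.univ.erase α, ((ρ α - ρ β).order.toNat : ℤ) -
            N * ((Fintype.card ι : ℤ) - Fintype.card κ)) := by
  obtain ⟨P, hPm, hP⟩ := exists_poly hN hinj hω hst
  obtain ⟨κ, i1, q, h1, h2, h3⟩ := uniform hB hPm hN hinj hP hω Ψ hΨ Y Z hY hZ
  refine ⟨κ, i1, q, h1, h2, fun J d hJ hd => ?_⟩
  refine (h3 J d hJ hd).trans_eq ?_
  congr 2
  refine Finset.sum_congr rfl fun α _ => ?_
  rw [evP_derivative hN hP]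
  have h4 : ∀ s : Finset ι, α ∉ s → (∏ β ∈ s, (ρ α - ρ β)).order.toNat =
      ∑ β ∈ s, (ρ α - ρ β).order.toNat := by
    intro s
    induction s using Finset.induction_on with
    | empty => intro _; simp
    | insert b s hb ih =>
      intro hα
      rw [Finset.prod_insert hb, Finset.sum_insert hb, PowerSeries.order_mul, ENat.toNat_add,
        ih (fun h => hα (Finset.mem_insert_of_mem h))]
      · rw [Ne, PowerSeries.order_eq_top, sub_eq_zero]
        intro h
        exact hα (by rw [hinj h]; exact Finset.mem_insert_self _ _)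
      · rw [Ne, PowerSeries.order_eq_top, Finset.prod_eq_zero_iff]
        rintro ⟨c, hc, hc'⟩
        rw [sub_eq_zero] at hc'
        exact hα (by rw [hinj hc']; exact Finset.mem_insert_of_mem hc)
  rw [h4 _ (Finset.notMem_erase _ _)]
  push_cast
  rfl

end Vale.Agent.P298.H766.Anc
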