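import Vale.Agent.P298.H766.Anc4
import Vale.Agent.P298.H360.Curve

/-!
# The anchor inequality, unconditional
-/

open Filter Topology Metric Vale.Agent.P298 Asymptotics Function Module

namespace Vale.Agent.P298.H766

theorem branchIneq : Anc.BranchIneq := by
  intro κ _ e he β P hP hdeg hroot N hN m hm hme ω hω hinj S _ _ ψ Y Z hY hZ J d hJ hd
  have := hJ
  have hNe : ∀ i, e i ∣ N := fun i => ⟨m i, by rw [mul_comm, hme]⟩
  have he0 : ∀ i, 0 < e i := fun i => Nat.pos_of_ne_zero (he i)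
  have hdiv : ∀ i, N / e i = m i := fun i => by
    rw [← hme i, Nat.mul_div_cancel _ (he0 i)]
  refine H360.anchor_curve e he0 β P hP hdeg hroot hN hNe hω ?_ ψ Y Z hY hZ J d hd
  have h1 : (fun p : (i : κ) × Fin (e i) =>
      PowerSeries.expand (N / e p.1) (Nat.div_ne_zero_iff_of_dvd (hNe p.1) |>.2 ⟨hN, (he0 p.1).ne'⟩)
        (PowerSeries.rescale (ω p.1 ^ (p.2 : ℕ)) (β p.1))) =
      fun p => PowerSeries.expand (m p.1) (hm p.1)
        (PowerSeries.rescale (ω p.1 ^ (p.2 : ℕ)) (β p.1)) := by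
    funext p
    have : ∀ (a b : ℕ) (ha : a ≠ 0) (hb : b ≠ 0) (h : a = b) (q : PowerSeries ℂ),
        PowerSeries.expand a ha q = PowerSeries.expand b hb q := by
      intro a b ha hb h q
      subst h
      rfl
    exact this _ _ _ _ (hdiv p.1) _
  rw [h1]
  exact hinj

/-- **One step of the anchor**, unconditional. Here `x = x_0`, `y = x_1 = u ^ N` and
`z = x_2 = ρ_α(u)` are the `n` distinct roots of `f(0, u ^ N, z)`; `D α` bounds the order of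
`∏_{β ≠ α} (ρ_α - ρ_β)` (the order of `f_z` at the root) from above, and `κ` is the set of
branches (orbits of `u ↦ ω u`). -/
theorem anchor_step {ι : Type} [Fintype ι] [DecidableEq ι]
    {N : ℕ} (hN : N ≠ 0) {ρ : ι → ℂ → ℂ} (hρ : ∀ α, AnalyticAt ℂ (ρ α) 0) (h0 : ∀ α, ρ α 0 = 0)
    (hne : ∀ α β, ρ α =ᶠ[𝓝 0] ρ β → α = β) {ω : ℂ} (hω : IsPrimitiveRoot ω N)
    (hst : ∀ α, ∃ β, ρ β =ᶠ[𝓝 0] fun u => ρ α (ω * u)) (D : ι → ℕ)
    (hD : ∀ α, (fun u : ℂ => u ^ D α) =O[𝓝 0] fun u => ∏ β ∈ Finset.univ.erase α,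
      (ρ α u - ρ β u)) :
    ∃ (κ : Type) (_ : Fintype κ) (q : ι → κ), Surjective q ∧
      (∀ α β, q α = q β ↔ ∃ k : ℕ, ρ β =ᶠ[𝓝 0] fun u => ρ α (ω ^ k * u)) ∧
      ∀ (b b' : Ideal (AnFun 3)) (d : ι → ℕ), (∀ h, coordF 3 0 * h ∈ b' ↔ h ∈ b) →
        Module.Finite ℂ (AnFun 3 ⧸ b') →
        (∀ h ∈ b', ∀ α, (fun u : ℂ => (h : (Fin 3 → ℂ) → ℂ) ![0, u ^ N, ρ α u]) =O[𝓝 0]
          fun u => u ^ d α) →
        2 * N * (finrank ℂ (AnFun 3 ⧸ b) : ℤ) + 2 * ∑ α, (d α : ℤ) ≤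
          2 * N * (finrank ℂ (AnFun 3 ⧸ b') : ℤ) +
          (∑ α, (D α : ℤ) - N * ((Fintype.card ι : ℤ) - Fintype.card κ)) :=
  step_germ branchIneq hN hρ h0 hne hω hst D hD

end Vale.Agent.P298.H766
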