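import Vale.Agent.P298.H766.Anc5

/-!
# The anchor for an arbitrary coordinate ring and an arbitrary stable family of roots
-/

open Function Module

namespace Vale.Agent.P298.H766

/-- **One step of the anchor, formal version.** `S` is any commutative `ℂ`-algebra (polynomials,
germs, formal power series), `Ψ α : S → ℂ⟦s⟧` the restriction to the root `ρ α` of the curve
`x = 0`, on the cover `y = s ^ N`; the family `ρ` is any finite family of distinct series stable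
under `s ↦ ω s` (all roots, or the roots on some of the branches). -/
theorem anchor_formal {ι : Type} [Fintype ι] [DecidableEq ι]
    {N : ℕ} (hN : N ≠ 0) {ρ : ι → PowerSeries ℂ} (hinj : Injective ρ)
    {ω : ℂ} (hω : IsPrimitiveRoot ω N)
    (hst : ∀ α, ∃ β, ρ β = PowerSeries.rescale ω (ρ α))
    {S : Type} [CommRing S] [Algebra ℂ S] (Ψ : ι → S →ₐ[ℂ] PowerSeries ℂ)
    (hΨ : ∀ α β, ρ β = PowerSeries.rescale ω (ρ α) →
      ∀ h, Ψ β h = PowerSeries.rescale ω (Ψ α h))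
    (x Y Z : S) (hx : ∀ α, Ψ α x = 0) (hY : ∀ α, Ψ α Y = PowerSeries.X ^ N)
    (hZ : ∀ α, Ψ α Z = ρ α) :
    ∃ (κ : Type) (_ : Fintype κ) (q : ι → κ), Surjective q ∧
      (∀ α β, q α = q β ↔ ∃ k : ℕ, ρ β = PowerSeries.rescale (ω ^ k) (ρ α)) ∧
      ∀ (b b' : Ideal S) (d : ι → ℕ), (∀ h, x * h ∈ b' ↔ h ∈ b) → Module.Finite ℂ (S ⧸ b') →
        (∀ h ∈ b', ∀ α, (PowerSeries.X : PowerSeries ℂ) ^ d α ∣ Ψ α h) →
        2 * N * (finrank ℂ (S ⧸ b) : ℤ) + 2 * ∑ α, (d α : ℤ) ≤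
          2 * N * (finrank ℂ (S ⧸ b') : ℤ) +
          (∑ α, ∑ β ∈ Finset.univ.erase α, ((ρ α - ρ β).order.toNat : ℤ) -
            N * ((Fintype.card ι : ℤ) - Fintype.card κ)) := by
  obtain ⟨κ, i1, q, h1, h2, h3⟩ := Anc.roots branchIneq hN hinj hω hst Ψ hΨ Y Z hY hZ
  refine ⟨κ, i1, q, h1, h2, fun b b' d hcol hf hd => ?_⟩
  have hle : b' ≤ b := fun h hh => (hcol h).1 (b'.mul_mem_left _ hh)
  have hf1 := Anc.finite_of_le (k := ℂ) hle hf
  have hf2 : Module.Finite ℂ (S ⧸ (b' ⊔ Ideal.span {x})) := Anc.finite_of_le le_sup_left hf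
  obtain ⟨-, h4⟩ := Vale.Agent.P298.H990.quot_step (k := ℂ) b' (b' ⊔ Ideal.span {x}) b x rfl
    hcol hf1 hf2
  have h5 := h3 (b' ⊔ Ideal.span {x}) d hf2 (by
    intro h hh α
    obtain ⟨u, hu, v, hv, rfl⟩ := Submodule.mem_sup.1 hh
    obtain ⟨w, rfl⟩ := Ideal.mem_span_singleton.1 hv
    rw [map_add, map_mul, hx, zero_mul, add_zero]
    exact hd u hu α)
  rw [h4]
  push_cast
  nlinarith

/-- The same inequality for the ideal on the curve, without the filtration. -/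
theorem curve_formal {ι : Type} [Fintype ι] [DecidableEq ι]
    {N : ℕ} (hN : N ≠ 0) {ρ : ι → PowerSeries ℂ} (hinj : Injective ρ)
    {ω : ℂ} (hω : IsPrimitiveRoot ω N)
    (hst : ∀ α, ∃ β, ρ β = PowerSeries.rescale ω (ρ α))
    {S : Type} [CommRing S] [Algebra ℂ S] (Ψ : ι → S →ₐ[ℂ] PowerSeries ℂ)
    (hΨ : ∀ α β, ρ β = PowerSeries.rescale ω (ρ α) →
      ∀ h, Ψ β h = PowerSeries.rescale ω (Ψ α h))
    (Y Z : S) (hY : ∀ α, Ψ α Y = PowerSeries.X ^ N) (hZ : ∀ α, Ψ α Z = ρ α) :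
    ∃ (κ : Type) (_ : Fintype κ) (q : ι → κ), Surjective q ∧
      (∀ α β, q α = q β ↔ ∃ k : ℕ, ρ β = PowerSeries.rescale (ω ^ k) (ρ α)) ∧
      ∀ (J : Ideal S) (d : ι → ℕ), Module.Finite ℂ (S ⧸ J) →
        (∀ h ∈ J, ∀ α, (PowerSeries.X : PowerSeries ℂ) ^ d α ∣ Ψ α h) →
        2 * ∑ α, (d α : ℤ) ≤ 2 * N * (finrank ℂ (S ⧸ J) : ℤ) +
          (∑ α, ∑ β ∈ Finset.univ.erase α, ((ρ α - ρ β).order.toNat : ℤ) -
            N * ((Fintype.card ι : ℤ) - Fintype.card κ)) :=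
  Anc.roots branchIneq hN hinj hω hst Ψ hΨ Y Z hY hZ

end Vale.Agent.P298.H766
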