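import Vale.Agent.P298.H766.Anc6

/-!
# The anchor in the form of `Link.anchor` (helper471)

Index set `ι` = the roots over the chart of the place of `{x = 0}` (restricted to `{x = 0}`),
`j α` = the component, `ka α` = order of the first coordinate of the chart / `v_j`.
-/

open Function Module Filter Topology

namespace Vale.Agent.P298.H766

open Vale.Agent.P298

theorem sum_fibre_ge {ι κ : Type*} [Fintype ι] [Fintype κ] [DecidableEq κ] {q : ι → κ}
    (hq : Surjective q) {N : ℤ} {ka : ι → ℤ}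
    (h : ∀ α, N ≤ ka α * ((Finset.univ.filter fun β => q β = q α).card : ℤ)) :
    N * (Fintype.card κ : ℤ) ≤ ∑ α, ka α := by
  have h1 : ∑ α, ka α = ∑ c : κ, ∑ α ∈ Finset.univ.filter (fun α => q α = c), ka α :=
    (Finset.sum_fiberwise _ _ _).symm
  have h2 : N * (Fintype.card κ : ℤ) = ∑ _c : κ, N := by
    rw [Finset.sum_const, Finset.card_univ, nsmul_eq_mul, mul_comm]
  rw [h1, h2]
  refine Finset.sum_le_sum fun c _ => ?_
  obtain ⟨α0, rfl⟩ := hq c
  set F := Finset.univ.filter (fun α => q α = q α0) with hF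
  have hpos : 0 < F.card := Finset.card_pos.2 ⟨α0, by simp [hF]⟩
  have h3 : (F.card : ℤ) * N ≤ (F.card : ℤ) * ∑ α ∈ F, ka α := by
    rw [Finset.mul_sum]
    calc (F.card : ℤ) * N = ∑ _α ∈ F, N := by rw [Finset.sum_const, nsmul_eq_mul]
      _ ≤ ∑ α ∈ F, (F.card : ℤ) * ka α := by
        refine Finset.sum_le_sum fun α hα => ?_
        have h4 := h α
        have h5 : q α = q α0 := (Finset.mem_filter.1 hα).2
        rw [h5] at h4
        rw [mul_comm]
        exact h4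
  exact le_of_mul_le_mul_left h3 (by exact_mod_cast hpos)

/-- **The anchor inequality on all cycles.** -/
theorem anchor_ineq {ι : Type} [Fintype ι] [DecidableEq ι] {I : Type*} [Fintype I] [DecidableEq I]
    {N : ℕ} (hN : N ≠ 0) {ρ : ι → ℂ → ℂ} (hρ : ∀ α, AnalyticAt ℂ (ρ α) 0) (h0 : ∀ α, ρ α 0 = 0)
    (hne : ∀ α β, ρ α =ᶠ[𝓝 0] ρ β → α = β) {ω : ℂ} (hω : IsPrimitiveRoot ω N)
    (hst : ∀ α, ∃ β, ρ β =ᶠ[𝓝 0] fun u => ρ α (ω * u)) (D : ι → ℕ)
    (hD : ∀ α, (fun u : ℂ => u ^ D α) =O[𝓝 0] fun u => ∏ β ∈ Finset.univ.erase α,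
      (ρ α u - ρ β u))
    (k : ℕ) (j : ι → I) (ka : ι → ℤ) (A K rC : I → ℤ)
    (hA : ∀ α, ka α * A (j α) = N * (k + 1))
    (hK : ∀ α, ka α * (K (j α) + 1) = N * (k + 2) - D α)
    (hr : ∀ i, N * rC i = ∑ α ∈ Finset.univ.filter (fun α => j α = i), ka α)
    (hsz : ∀ α, ∀ F : Finset ι, (∀ β, β ∈ F ↔ ∃ k : ℕ, ρ β =ᶠ[𝓝 0] fun u => ρ α (ω ^ k * u)) →
      (N : ℤ) ≤ ka α * F.card)
    (b : (I → ℤ) → Ideal (AnFun 3))
    (hb : ∀ G h, coordF 3 0 * h ∈ b (G + A) ↔ h ∈ b G)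
    (hfin : ∀ G, Module.Finite ℂ (AnFun 3 ⧸ b G))
    (hord : ∀ G, ∀ h ∈ b G, ∀ α, (fun u : ℂ => (h : (Fin 3 → ℂ) → ℂ) ![0, u ^ N, ρ α u]) =O[𝓝 0]
      fun u => u ^ (ka α * G (j α)).toNat) (G : I → ℤ) :
    ∑ i, rC i * (2 * G i + A i + K i) ≤
      2 * ((finrank ℂ (AnFun 3 ⧸ b (G + A)) : ℤ) - finrank ℂ (AnFun 3 ⧸ b G)) := by
  classical
  obtain ⟨κ, i1, q, h1, h2, h3⟩ := anchor_step hN hρ h0 hne hω hst D hD
  have h4 := h3 (b G) (b (G + A)) (fun α => (ka α * (G + A) (j α)).toNat) (hb G) (hfin _)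
    (hord (G + A))
  have h5 : (N : ℤ) * (Fintype.card κ : ℤ) ≤ ∑ α, ka α := by
    refine sum_fibre_ge h1 fun α => ?_
    refine hsz α _ fun β => ?_
    rw [Finset.mem_filter]
    constructor
    · rintro ⟨-, h⟩
      exact (h2 α β).1 h.symm
    · intro h
      exact ⟨Finset.mem_univ _, ((h2 α β).2 h).symm⟩
  have h6 : ∀ α, ka α * (G + A) (j α) ≤ (((ka α * (G + A) (j α)).toNat : ℕ) : ℤ) :=
    fun α => Int.self_le_toNat _
  have h7 : 2 * ∑ α, ka α * (G + A) (j α) ≤ 2 * ∑ α, (((ka α * (G + A) (j α)).toNat : ℕ) : ℤ) := by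
    have := Finset.sum_le_sum fun α (_ : α ∈ Finset.univ) => h6 α
    linarith
  -- the sum over the components
  have h8 : (N : ℤ) * ∑ i, rC i * (2 * G i + A i + K i) =
      ∑ α, ka α * (2 * G (j α) + A (j α) + K (j α)) := by
    rw [Finset.mul_sum]
    rw [← Finset.sum_fiberwise (s := Finset.univ) (g := j)
      (f := fun α => ka α * (2 * G (j α) + A (j α) + K (j α)))]
    refine Finset.sum_congr rfl fun i _ => ?_
    rw [← mul_assoc, hr i, Finset.sum_mul]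
    refine Finset.sum_congr rfl fun α hα => ?_
    rw [(Finset.mem_filter.1 hα).2]
  have h9 : ∑ α, ka α * (2 * G (j α) + A (j α) + K (j α)) =
      2 * ∑ α, ka α * (G + A) (j α) - ∑ α, (D α : ℤ) + N * (Fintype.card ι : ℤ) - ∑ α, ka α := by
    have h10 : ∀ α, ka α * (2 * G (j α) + A (j α) + K (j α)) =
        2 * (ka α * (G + A) (j α)) - (D α : ℤ) + N - ka α := by
      intro α
      have e1 := hA α
      have e2 := hK α
      simp only [Pi.add_apply]
      linear_combination (-1) * e1 + e2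
    rw [Finset.sum_congr rfl fun α _ => h10 α, Finset.sum_sub_distrib, Finset.sum_add_distrib,
      Finset.sum_sub_distrib, ← Finset.mul_sum, Finset.sum_const, Finset.card_univ, nsmul_eq_mul]
    ring
  have hN' : (0 : ℤ) < N := by exact_mod_cast Nat.pos_of_ne_zero hN
  refine le_of_mul_le_mul_left ?_ hN'
  rw [h8, h9]
  nlinarith

end Vale.Agent.P298.H766
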