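import Vale.Agent.P298.H766.Anc7
import Vale.Agent.P298.H766.Fps
import Vale.Agent.P298.H471.Link

/-!
# The anchor field of `Link` (helper471)

Part 1: passage from the formal local ring to germs; the arcs over `{x = 0}`.
-/

open Function Module Filter Topology Polynomial Asymptotics

namespace Vale.Agent.P298.H766

open Vale.Agent.P298 Vale.Agent.P298.H707 Vale.Agent.P298.H471
open Vale.Agent.P298.H379 (pt)
open Vale.Agent.P298.H983 (omg)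

variable {f : (Fin 3 → ℂ) → ℂ}

/-! ### germs and the formal local ring -/

/-- the class of a germ, as a homomorphism. -/
noncomputable def clH (f : (Fin 3 → ℂ) → ℂ) : AnFun 3 →ₐ[ℂ] RV f :=
  (Ideal.Quotient.mkₐ ℂ (Ideal.span {ser f})).comp (T 3)

theorem clH_apply (h : AnFun 3) : clH f h = cl f (h : (Fin 3 → ℂ) → ℂ) := by
  rw [cl, ser_eq (u := (h : (Fin 3 → ℂ) → ℂ)) h.2]
  rfl

theorem surj_abs {n : ℕ} {A B : Type*} [CommRing A] [Algebra ℂ A] [CommRing B] [Algebra ℂ B]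
    (φ : A →ₐ[ℂ] MvPowerSeries (Fin n) ℂ)
    (hφ : ∀ p : MvPolynomial (Fin n) ℂ, ∃ a, φ a = (p : MvPowerSeries (Fin n) ℂ))
    (ψ : MvPowerSeries (Fin n) ℂ →ₐ[ℂ] B) (hψ : Surjective ψ) (hB : Module.Finite ℂ B) :
    Surjective (ψ.comp φ) := by
  intro y
  obtain ⟨F, rfl⟩ := hψ y
  have e : (MvPowerSeries (Fin n) ℂ ⧸ RingHom.ker ψ) ≃ₐ[ℂ] B :=
    Ideal.quotientKerAlgEquivOfSurjective hψ
  have hfin : Module.Finite ℂ (MvPowerSeries (Fin n) ℂ ⧸ RingHom.ker ψ) :=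
    Module.Finite.equiv e.symm.toLinearEquiv
  obtain ⟨M, hM⟩ := exists_pow_le (RingHom.ker ψ)
  obtain ⟨a, ha⟩ := hφ (F.truncTotal M)
  refine ⟨a, ?_⟩
  have h1 : F - ((F.truncTotal M : MvPolynomial (Fin n) ℂ) : MvPowerSeries (Fin n) ℂ) ∈
      RingHom.ker ψ := hM (mem_mR_pow_of_order M (exists_trunc M F))
  rw [RingHom.mem_ker, map_sub, sub_eq_zero] at h1
  rw [AlgHom.comp_apply, ha]
  exact h1.symm

theorem finrank_abs {A B : Type*} [CommRing A] [Algebra ℂ A] [CommRing B] [Algebra ℂ B]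
    (ψ : A →ₐ[ℂ] B) (b : Ideal B) (hs : Surjective ((Ideal.Quotient.mkₐ ℂ b).comp ψ))
    (hb : Module.Finite ℂ (B ⧸ b)) :
    Module.Finite ℂ (A ⧸ b.comap ψ) ∧ finrank ℂ (A ⧸ b.comap ψ) = finrank ℂ (B ⧸ b) := by
  have hker : RingHom.ker ((Ideal.Quotient.mkₐ ℂ b).comp ψ) = b.comap ψ := by
    ext h
    rw [RingHom.mem_ker, Ideal.mem_comap, AlgHom.comp_apply]
    exact Ideal.Quotient.eq_zero_iff_mem
  have e : (A ⧸ b.comap ψ) ≃ₐ[ℂ] (B ⧸ b) :=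
    (Ideal.quotientEquivAlgOfEq ℂ hker.symm).trans
      (Ideal.quotientKerAlgEquivOfSurjective hs)
  exact ⟨Module.Finite.equiv e.symm.toLinearEquiv, e.toLinearEquiv.finrank_eq⟩

theorem clH_surj (b : Ideal (RV f)) (hb : Module.Finite ℂ (RV f ⧸ b)) :
    Surjective ((Ideal.Quotient.mkₐ ℂ b).comp (clH f)) := by
  have hs : Surjective ((Ideal.Quotient.mkₐ ℂ b).comp
      (Ideal.Quotient.mkₐ ℂ (Ideal.span {ser f}))) :=
    (Ideal.Quotient.mkₐ_surjective ℂ b).comp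
      (Ideal.Quotient.mkₐ_surjective ℂ (Ideal.span {ser f}))
  have h := surj_abs (B := RV f ⧸ b) (T 3) (fun p => ⟨toAn 3 p, T_toAn p⟩)
    ((Ideal.Quotient.mkₐ ℂ b).comp (Ideal.Quotient.mkₐ ℂ (Ideal.span {ser f}))) hs hb
  exact h

theorem finrank_comap (b : Ideal (RV f)) (hb : Module.Finite ℂ (RV f ⧸ b)) :
    Module.Finite ℂ (AnFun 3 ⧸ b.comap (clH f)) ∧
      finrank ℂ (AnFun 3 ⧸ b.comap (clH f)) = finrank ℂ (RV f ⧸ b) :=
  finrank_abs (clH f) b (clH_surj b hb) hb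

/-! ### two-variable germs on the first axis -/

theorem tendsto_axis : Tendsto (fun u : ℂ => ((u, 0) : ℂ × ℂ)) (𝓝 0) (𝓝 0) := by
  have h : Continuous fun u : ℂ => ((u, 0) : ℂ × ℂ) := by fun_prop
  exact h.tendsto' 0 0 rfl

theorem tendsto_axis' : Tendsto (fun u : ℂ => ((0, u) : ℂ × ℂ)) (𝓝 0) (𝓝 0) := by
  have h : Continuous fun u : ℂ => ((0, u) : ℂ × ℂ) := by fun_prop
  exact h.tendsto' 0 0 rfl

/-- exponents of the first variable coincide. -/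
theorem exp_le {A B α β : ℕ} {w u : ℂ × ℂ → ℂ} (hw : AnalyticAt ℂ w 0) (hu : AnalyticAt ℂ u 0)
    (h : ∀ᶠ p : ℂ × ℂ in 𝓝 0, p.1 ^ A * p.2 ^ B * w p = p.1 ^ α * p.2 ^ β * u p)
    (hw0 : ∀ᶠ b : ℂ in 𝓝[≠] 0, w (0, b) ≠ 0) : α ≤ A := by
  by_contra hlt
  push Not at hlt
  -- points on the second axis
  have h1 : ∀ᶠ b : ℂ in 𝓝[≠] 0, (∀ᶠ p : ℂ × ℂ in 𝓝 (0, b),
      p.1 ^ A * p.2 ^ B * w p = p.1 ^ α * p.2 ^ β * u p) ∧ ContinuousAt w (0, b) ∧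
        ContinuousAt u (0, b) ∧ w (0, b) ≠ 0 ∧ b ≠ 0 := by
    have e1 := tendsto_axis'.eventually h.eventually_nhds
    have e2 := tendsto_axis'.eventually hw.eventually_analyticAt
    have e3 := tendsto_axis'.eventually hu.eventually_analyticAt
    filter_upwards [nhdsWithin_le_nhds e1, nhdsWithin_le_nhds e2, nhdsWithin_le_nhds e3, hw0,
      self_mem_nhdsWithin] with b f1 f2 f3 f4 f5
    exact ⟨f1, f2.continuousAt, f3.continuousAt, f4, f5⟩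
  obtain ⟨b, g1, g2, g3, g4, g5⟩ := h1.exists
  have hc : Tendsto (fun a : ℂ => ((a, b) : ℂ × ℂ)) (𝓝[≠] 0) (𝓝 (0, b)) := by
    have h : Continuous fun a : ℂ => ((a, b) : ℂ × ℂ) := by fun_prop
    exact (h.tendsto' 0 (0, b) rfl).mono_left nhdsWithin_le_nhds
  have k1 : ∀ᶠ a : ℂ in 𝓝[≠] 0, b ^ B * w (a, b) = a ^ (α - A) * b ^ β * u (a, b) := by
    filter_upwards [hc.eventually g1, self_mem_nhdsWithin] with a ha ha0
    have ha0' : a ^ A ≠ 0 := pow_ne_zero _ ha0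
    refine mul_left_cancel₀ ha0' ?_
    have h5 : a ^ α = a ^ A * a ^ (α - A) := by
      rw [← pow_add]; congr 1; omega
    rw [h5] at ha
    linear_combination ha
  have k2 : Tendsto (fun a : ℂ => b ^ B * w (a, b)) (𝓝[≠] 0) (𝓝 (b ^ B * w (0, b))) :=
    (g2.tendsto.comp hc).const_mul _
  have k3 : Tendsto (fun a : ℂ => a ^ (α - A) * b ^ β * u (a, b)) (𝓝[≠] 0)
      (𝓝 ((0 : ℂ) ^ (α - A) * b ^ β * u (0, b))) := by
    refine Tendsto.mul (Tendsto.mul_const _ ?_) (g3.tendsto.comp hc)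
    exact ((continuous_id.pow (α - A)).tendsto' (0 : ℂ) _ rfl).mono_left nhdsWithin_le_nhds
  have k4 := tendsto_nhds_unique (k2.congr' k1) k3
  rw [zero_pow (by omega), zero_mul, zero_mul] at k4
  exact mul_ne_zero (pow_ne_zero _ g5) g4 k4

/-- `a ↦ a ^ K` preserves punctured neighbourhoods. -/
theorem tendsto_pow_punct {K : ℕ} (hK : K ≠ 0) :
    Tendsto (fun a : ℂ => a ^ K) (𝓝[≠] 0) (𝓝[≠] 0) := by
  refine tendsto_nhdsWithin_iff.2 ⟨?_, ?_⟩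
  · exact ((continuous_pow K).tendsto' (0 : ℂ) 0 (zero_pow hK)).mono_left nhdsWithin_le_nhds
  · filter_upwards [self_mem_nhdsWithin] with a ha
    exact pow_ne_zero K ha

variable {n : ℕ} {P : ℂ × ℂ → ℂ[X]} {v : ℂ × (ℂ × ℂ) → ℂ} {Θ : ℂ × ℂ → ℂ × ℂ} {K : ℕ}
    {ζ : Fin n → ℂ × ℂ → ℂ} {σ ρ : Equiv.Perm (Fin n)}

theorem monU_der_of_pd (W : WD f n P v) (hf : Hol f) (C : CR P Θ n K ζ σ ρ)
    (hΘ : AnalyticAt ℂ Θ 0) (hΘ0 : Θ 0 = 0) (l : Fin n) {c d : ℕ}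
    (h : MonU (fun q => pd 2 f (chart Θ K (ζ l) q)) c d) :
    MonU (fun q => (derivative (P (Θ (q.1 ^ K, q.2 ^ K)))).eval (ζ l q)) c d := by
  have ht := tendsto_zp C.hK hΘ hΘ0 (C.hol l) (C.zero l)
  have hv : AnalyticAt ℂ (fun q : ℂ × ℂ => v (ζ l q, Θ (q.1 ^ K, q.2 ^ K))) 0 := by
    have h1 : AnalyticAt ℂ (fun q : ℂ × ℂ => Θ (q.1 ^ K, q.2 ^ K)) 0 :=
      AnalyticAt.comp_of_eq hΘ (analyticAt_powK K 0) (powK_zero C.hK)
    refine AnalyticAt.comp_of_eq (g := v) W.va ((C.hol l).prod h1) ?_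
    rw [powK_zero C.hK, hΘ0, C.zero l]
    rfl
  have hv0 : v (ζ l 0, Θ ((0 : ℂ × ℂ).1 ^ K, (0 : ℂ × ℂ).2 ^ K)) ≠ 0 := by
    rw [powK_zero C.hK, hΘ0, C.zero l]
    exact W.v0
  have h5 := (MonU.of_unit hv hv0).mul h
  rw [zero_add, zero_add] at h5
  refine h5.congr ?_
  filter_upwards [ht.eventually (W.pd_eq hf), C.f_eq_zero W hΘ hΘ0 l] with q h1 h2
  have h4 := h1 h2
  rw [← h4]
  simp only [chart]
  ring

/-- the derivative at a root is the product of the differences. -/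
theorem der_eq_prod (C : CR P Θ n K ζ σ ρ) (l : Fin n) :
    ∀ᶠ q : ℂ × ℂ in 𝓝 0, (derivative (P (Θ (q.1 ^ K, q.2 ^ K)))).eval (ζ l q) =
      ∏ m ∈ Finset.univ.erase l, (ζ l q - ζ m q) := by
  filter_upwards [C.prod] with q hq
  rw [hq]
  exact H983.eval_derivative_prod (fun i => ζ i q) l

end Vale.Agent.P298.H766
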