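import Vale.Agent.P298.H766.Anc8

/-!
# The anchor field of `Link` (helper471)

Part 2: the chart of the place of `{x = 0}`.
-/

open Function Module Filter Topology Polynomial Asymptotics

namespace Vale.Agent.P298.H766

open Vale.Agent.P298 Vale.Agent.P298.H707 Vale.Agent.P298.H471
open Vale.Agent.P298.H379 (pt)
open Vale.Agent.P298.H983 (omg)

theorem omg_prim {K : ℕ} (hK : K ≠ 0) : IsPrimitiveRoot (omg K) K :=
  Complex.isPrimitiveRoot_exp K hK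

/-- a comparison of two-variable expansions restricted to the second axis. -/
theorem axis_eq {A B β : ℕ} {w u : ℂ × ℂ → ℂ} (hw : AnalyticAt ℂ w 0) (hu : AnalyticAt ℂ u 0)
    (h : ∀ᶠ p : ℂ × ℂ in 𝓝 0, p.1 ^ A * p.2 ^ B * w p = p.1 ^ A * p.2 ^ β * u p) :
    ∀ᶠ b : ℂ in 𝓝[≠] 0, b ^ B * w (0, b) = b ^ β * u (0, b) := by
  have e1 := tendsto_axis'.eventually h.eventually_nhds
  have e2 := tendsto_axis'.eventually hw.eventually_analyticAt
  have e3 := tendsto_axis'.eventually hu.eventually_analyticAt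
  filter_upwards [nhdsWithin_le_nhds e1, nhdsWithin_le_nhds e2, nhdsWithin_le_nhds e3]
    with b g1 g2 g3
  have hc : Tendsto (fun a : ℂ => ((a, b) : ℂ × ℂ)) (𝓝[≠] 0) (𝓝 (0, b)) := by
    have h : Continuous fun a : ℂ => ((a, b) : ℂ × ℂ) := by fun_prop
    exact (h.tendsto' 0 (0, b) rfl).mono_left nhdsWithin_le_nhds
  have k1 : ∀ᶠ a : ℂ in 𝓝[≠] 0, b ^ B * w (a, b) = b ^ β * u (a, b) := by
    filter_upwards [hc.eventually g1, self_mem_nhdsWithin] with a ha ha0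
    have ha0' : a ^ A ≠ 0 := pow_ne_zero _ ha0
    refine mul_left_cancel₀ ha0' ?_
    linear_combination ha
  have k2 : Tendsto (fun a : ℂ => b ^ B * w (a, b)) (𝓝[≠] 0) (𝓝 (b ^ B * w (0, b))) :=
    (g2.continuousAt.tendsto.comp hc).const_mul _
  have k3 : Tendsto (fun a : ℂ => b ^ β * u (a, b)) (𝓝[≠] 0) (𝓝 (b ^ β * u (0, b))) :=
    (g3.continuousAt.tendsto.comp hc).const_mul _
  exact tendsto_nhds_unique (k2.congr' k1) k3

theorem pow_eq_of {N m : ℕ} {g : ℂ → ℂ} (hg : ContinuousAt g 0) (hg0 : g 0 ≠ 0)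
    (h : ∀ᶠ b : ℂ in 𝓝[≠] 0, b ^ N = b ^ m * g b) : m = N := by
  have hg' : Tendsto g (𝓝[≠] 0) (𝓝 (g 0)) := hg.tendsto.mono_left nhdsWithin_le_nhds
  rcases lt_trichotomy m N with hlt | heq | hlt
  · exfalso
    have k1 : ∀ᶠ b : ℂ in 𝓝[≠] 0, b ^ (N - m) = g b := by
      filter_upwards [h, self_mem_nhdsWithin] with b hb hb0
      have hb0' : b ^ m ≠ 0 := pow_ne_zero _ hb0
      refine mul_left_cancel₀ hb0' ?_
      rw [← hb, ← pow_add]; congr 1; omega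
    have k2 : Tendsto (fun b : ℂ => b ^ (N - m)) (𝓝[≠] 0) (𝓝 0) :=
      ((continuous_pow (N - m)).tendsto' (0 : ℂ) 0 (zero_pow (by omega))).mono_left
        nhdsWithin_le_nhds
    exact hg0 (tendsto_nhds_unique (hg'.congr' (k1.mono fun b hb => hb.symm)) k2)
  · exact heq
  · exfalso
    have k1 : ∀ᶠ b : ℂ in 𝓝[≠] 0, b ^ (m - N) * g b = 1 := by
      filter_upwards [h, self_mem_nhdsWithin] with b hb hb0
      have hb0' : b ^ N ≠ 0 := pow_ne_zero _ hb0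
      refine mul_left_cancel₀ hb0' ?_
      rw [mul_one, ← mul_assoc, ← pow_add]
      rw [show N + (m - N) = m by omega]
      exact hb.symm
    have k2 : Tendsto (fun b : ℂ => b ^ (m - N) * g b) (𝓝[≠] 0) (𝓝 (0 * g 0)) := by
      refine Tendsto.mul ?_ hg'
      exact ((continuous_pow (m - N)).tendsto' (0 : ℂ) 0 (zero_pow (by omega))).mono_left
        nhdsWithin_le_nhds
    have k3 := tendsto_nhds_unique (k2.congr' (k1.mono fun b hb => hb)) tendsto_const_nhds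
    rw [zero_mul] at k3
    exact zero_ne_one k3

/-- the Jacobian of `(s ^ (k+1) t, s)`. -/
theorem jacP_anchor {Θ : ℂ × ℂ → ℂ × ℂ} {k : ℕ}
    (hΘ : ∀ᶠ s in 𝓝 (0 : ℂ × ℂ), Θ s = (s.1 ^ (k + 1) * s.2, s.1)) :
    ∀ᶠ s in 𝓝 (0 : ℂ × ℂ), jacP Θ s = - s.1 ^ (k + 1) := by
  filter_upwards [hΘ.eventually_nhds] with s hs
  have h1 : HasFDerivAt (fun s : ℂ × ℂ => s.1 ^ (k + 1) * s.2) _ s :=
    ((hasFDerivAt_fst (𝕜 := ℂ) (E := ℂ) (F := ℂ) (p := s)).pow (k + 1)).mul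
      (hasFDerivAt_snd (𝕜 := ℂ) (E := ℂ) (F := ℂ) (p := s))
  have h2 := h1.prodMk (hasFDerivAt_fst (𝕜 := ℂ) (E := ℂ) (F := ℂ) (p := s))
  have h3 : fderiv ℂ Θ s = _ := (h2.congr_of_eventuallyEq hs).fderiv
  rw [jacP, h3]
  simp

variable {f : (Fin 3 → ℂ) → ℂ} {n : ℕ} {P : ℂ × ℂ → ℂ[X]} {v : ℂ × (ℂ × ℂ) → ℂ}
    {Θ : ℂ × ℂ → ℂ × ℂ} {K : ℕ} {ζ : Fin n → ℂ × ℂ → ℂ} {σ ρ : Equiv.Perm (Fin n)}

/-- on the curve `x = 0` the derivative at the roots does not vanish. -/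
theorem der_ne (W : WD f n P v) (C : CR P Θ n K ζ σ ρ) {k : ℕ}
    (hΘ : ∀ᶠ s in 𝓝 (0 : ℂ × ℂ), Θ s = (s.1 ^ (k + 1) * s.2, s.1))
    (hd : ∃ᶠ y in 𝓝 (0 : ℂ), disc n P (0, y) ≠ 0) (l : Fin n) :
    ∀ᶠ u : ℂ in 𝓝[≠] 0, (derivative (P (Θ (u ^ K, (0 : ℂ) ^ K)))).eval (ζ l (u, 0)) ≠ 0 := by
  have hK := C.hK
  have h1 : AnalyticAt ℂ (fun y : ℂ => disc n P (0, y)) 0 :=
    AnalyticAt.comp_of_eq (g := disc n P) (f := fun y : ℂ => ((0, y) : ℂ × ℂ)) W.analyticAt_disc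
      (analyticAt_const.prod analyticAt_id) rfl
  have h2 : ∀ᶠ y in 𝓝[≠] (0 : ℂ), disc n P (0, y) ≠ 0 := by
    rcases h1.eventually_eq_zero_or_eventually_ne_zero with h | h
    · exfalso
      obtain ⟨y, hy1, hy2⟩ := (hd.and_eventually h).exists
      exact hy1 hy2
    · exact h
  have h3 := (tendsto_pow_punct hK).eventually h2
  have h4 := tendsto_axis.eventually ((MonU.tendsto_powK hK).eventually hΘ)
  have h5 := tendsto_axis.eventually C.prod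
  filter_upwards [h3, nhdsWithin_le_nhds h4, nhdsWithin_le_nhds h5] with u g3 g4 g5
  have g6 : Θ (u ^ K, (0 : ℂ) ^ K) = (0, u ^ K) := by
    rw [g4]
    simp [hK]
  rw [g6]
  refine (W.disc_ne _).1 g3 _ ?_
  rw [← g6]
  rw [g5, eval_prod]
  exact Finset.prod_eq_zero (Finset.mem_univ l) (by simp)

end Vale.Agent.P298.H766
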