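import Vale.Agent.P298.H766.Fps

/-!
# Fewer elements than variables never have finite colength
-/

open Module

namespace Vale.Agent.P298.H766

section gen

variable {K R : Type*} [Field K] [CommRing R] [Algebra K R] {k d : ℕ}

/-- the monomial `b_l * ∏ a_i ^ α_i` -/
def mon (a : Fin k → R) (b : Fin d → R) (j : ℕ) (p : Fin d × (Fin k → Fin j)) : R :=
  b p.1 * ∏ i, a i ^ (p.2 i : ℕ)

theorem mul_mem_span_mon (a : Fin k → R) (b : Fin d → R) (j : ℕ) (i : Fin k) {v : R}
    (hv : v ∈ Submodule.span K (Set.range (mon a b j))) :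
    a i * v ∈ Submodule.span K (Set.range (mon a b (j + 1))) := by
  classical
  refine Submodule.span_induction ?_ ?_ ?_ ?_ hv
  · rintro _ ⟨⟨l, α⟩, rfl⟩
    refine Submodule.subset_span ⟨⟨l, fun i' =>
      if i' = i then ⟨(α i' : ℕ) + 1, by have := (α i').2; omega⟩
      else ⟨(α i' : ℕ), by have := (α i').2; omega⟩⟩, ?_⟩
    simp only [mon]
    rw [← Finset.mul_prod_erase _ _ (Finset.mem_univ i),
      ← Finset.mul_prod_erase Finset.univ (fun i' => a i' ^ (α i' : ℕ)) (Finset.mem_univ i)]
    rw [if_pos rfl]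
    have h1 : ∏ x ∈ Finset.univ.erase i, a x ^ ((if x = i then
        (⟨(α x : ℕ) + 1, by have := (α x).2; omega⟩ : Fin (j + 1))
        else ⟨(α x : ℕ), by have := (α x).2; omega⟩ : Fin (j + 1)) : ℕ) =
        ∏ x ∈ Finset.univ.erase i, a x ^ (α x : ℕ) :=
      Finset.prod_congr rfl fun x hx => by rw [if_neg (Finset.ne_of_mem_erase hx)]
    rw [h1]
    simp only [pow_succ]
    ring
  · simp
  · intro x y _ _ hx hy
    rw [mul_add]
    exact Submodule.add_mem _ hx hy
  · intro c x _ hx
    rw [mul_smul_comm]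
    exact Submodule.smul_mem _ _ hx

theorem span_pow (a : Fin k → R) (b : Fin d → R)
    (hb : ∀ r : R, ∃ v ∈ Submodule.span K (Set.range b), r - v ∈ Ideal.span (Set.range a)) (j : ℕ) :
    ∀ r : R, ∃ v ∈ Submodule.span K (Set.range (mon a b j)),
      r - v ∈ Ideal.span (Set.range a) ^ j := by
  classical
  induction j with
  | zero =>
    intro r
    exact ⟨0, Submodule.zero_mem _, by simp⟩
  | succ j ih =>
    intro r
    obtain ⟨v, hv, hr⟩ := hb r
    obtain ⟨c, hc⟩ := (Ideal.mem_span_range_iff_exists_fun).1 hr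
    choose w hw hw' using fun i => ih (c i)
    refine ⟨v + ∑ i, a i * w i, Submodule.add_mem _ ?_ (Submodule.sum_mem _ fun i _ =>
      mul_mem_span_mon a b j i (hw i)), ?_⟩
    · have h1 : Submodule.span K (Set.range b) ≤
          Submodule.span K (Set.range (mon a b (j + 1))) := by
        refine Submodule.span_le.2 ?_
        rintro _ ⟨l, rfl⟩
        exact Submodule.subset_span ⟨⟨l, fun _ => 0⟩, by simp [mon]⟩
      exact h1 hv
    · have h2 : r - (v + ∑ i, a i * w i) = ∑ i, a i * (c i - w i) := by
        have h3 : r - v = ∑ i, a i * c i := by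
          rw [← hc]
          exact Finset.sum_congr rfl fun i _ => mul_comm _ _
        rw [← sub_sub, h3, ← Finset.sum_sub_distrib]
        exact Finset.sum_congr rfl fun i _ => by rw [mul_sub]
      rw [h2, pow_succ']
      exact Submodule.sum_mem _ fun i _ =>
        Ideal.mul_mem_mul (Ideal.subset_span ⟨i, rfl⟩) (hw' i)

theorem finrank_quot_pow_le (a : Fin k → R) (hf : Module.Finite K (R ⧸ Ideal.span (Set.range a)))
    (j : ℕ) : Module.Finite K (R ⧸ Ideal.span (Set.range a) ^ j) ∧
      finrank K (R ⧸ Ideal.span (Set.range a) ^ j) ≤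
        finrank K (R ⧸ Ideal.span (Set.range a)) * j ^ k := by
  classical
  set I := Ideal.span (Set.range a) with hI
  let B := finBasis K (R ⧸ I)
  choose b hb using fun l => Ideal.Quotient.mk_surjective (I := I) (B l)
  have h1 : ∀ r : R, ∃ v ∈ Submodule.span K (Set.range b), r - v ∈ I := by
    intro r
    refine ⟨∑ l, B.repr (Ideal.Quotient.mk I r) l • b l, Submodule.sum_mem _ fun l _ =>
      Submodule.smul_mem _ _ (Submodule.subset_span ⟨l, rfl⟩), ?_⟩
    rw [← Ideal.Quotient.eq, map_sum]
    conv_lhs => rw [← B.sum_repr (Ideal.Quotient.mk I r)]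
    refine Finset.sum_congr rfl fun l _ => ?_
    rw [← hb l]
    rfl
  have h2 := span_pow (K := K) a b h1 j
  let F : (Fin (finrank K (R ⧸ I)) × (Fin k → Fin j) → K) →ₗ[K] (R ⧸ I ^ j) :=
    (Ideal.Quotient.mkₐ K (I ^ j)).toLinearMap ∘ₗ Fintype.linearCombination K (mon a b j)
  have hF : Function.Surjective F := by
    intro y
    obtain ⟨r, rfl⟩ := Ideal.Quotient.mk_surjective y
    obtain ⟨v, hv, hr⟩ := h2 r
    rw [← Fintype.range_linearCombination K] at hv
    obtain ⟨c, rfl⟩ := hv
    refine ⟨c, ?_⟩
    exact (Ideal.Quotient.eq.2 hr).symm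
  have h3 : Module.Finite K (R ⧸ I ^ j) := Module.Finite.of_surjective F hF
  refine ⟨h3, ?_⟩
  have h4 := LinearMap.finrank_le_finrank_of_surjective hF
  rw [Module.finrank_fintype_fun_eq_card, Fintype.card_prod, Fintype.card_fin,
    Fintype.card_fun, Fintype.card_fin, Fintype.card_fin] at h4
  exact h4

end gen

section fps

open MvPowerSeries

variable {n k : ℕ}

/-- **Fewer than `n` elements of the maximal ideal never have finite colength.** -/
theorem not_finite_of_lt (a : Fin k → MvPowerSeries (Fin n) ℂ)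
    (ha : ∀ j, constantCoeff (a j) = 0) (hk : k < n) :
    ¬ Module.Finite ℂ (MvPowerSeries (Fin n) ℂ ⧸ Ideal.span (Set.range a)) := by
  classical
  intro hf
  set d := finrank ℂ (MvPowerSeries (Fin n) ℂ ⧸ Ideal.span (Set.range a)) with hd
  -- the ideal is contained in the ideal of the variables
  have hle : Ideal.span (Set.range a) ≤ mR n := by
    refine Ideal.span_le.2 ?_
    rintro _ ⟨j, rfl⟩
    have h1 : ((1 : ℕ) : ℕ∞) ≤ (a j).order := by
      have := (one_le_order_iff_constCoeff_eq_zero (f := a j)).2 (ha j)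
      exact_mod_cast this
    have := mem_mR_pow_of_order 1 h1
    rwa [pow_one] at this
  have key : ∀ t : ℕ, t ^ n ≤ d * (n * t) ^ k := by
    intro t
    obtain ⟨h1, h2⟩ := finrank_quot_pow_le (K := ℂ) a hf (n * t)
    refine le_trans ?_ h2
    -- coefficients
    let G : MvPowerSeries (Fin n) ℂ →ₗ[ℂ] ((Fin n → Fin t) → ℂ) :=
      LinearMap.pi fun α => coeff (Finsupp.equivFunOnFinite.symm fun i => (α i : ℕ))
    have hG : ∀ f ∈ Ideal.span (Set.range a) ^ (n * t), G f = 0 := by
      intro f hf
      have h3 := order_of_mem_mR_pow _ (Ideal.pow_right_mono hle _ hf)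
      funext α
      refine coeff_of_lt_order (lt_of_lt_of_le ?_ h3)
      rcases Nat.eq_zero_or_pos t with ht | ht
      · subst ht
        rcases Nat.eq_zero_or_pos n with hn | hn
        · omega
        · exact (α ⟨0, hn⟩).elim0
      · have h4 : (Finsupp.equivFunOnFinite.symm fun i => ((α i : ℕ))).degree < n * t := by
          rw [Finsupp.degree_eq_sum]
          have h5 : ∀ i : Fin n, ((α i : ℕ)) ≤ t - 1 := fun i => by
            have := (α i).2; omega
          calc ∑ i, (Finsupp.equivFunOnFinite.symm fun i => ((α i : ℕ))) i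
              ≤ ∑ _i : Fin n, (t - 1) := Finset.sum_le_sum fun i _ => h5 i
            _ = n * (t - 1) := by simp
            _ < n * t := by
              exact Nat.mul_lt_mul_of_pos_left (by omega) (by omega)
        exact_mod_cast h4
    have hGs : Function.Surjective G := by
      intro c
      refine ⟨∑ α, monomial (Finsupp.equivFunOnFinite.symm fun i => ((α i : ℕ))) (c α), ?_⟩
      funext β
      simp only [G, LinearMap.pi_apply, map_sum]
      rw [Finset.sum_eq_single β]
      · rw [coeff_monomial_same]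
      · intro α _ hα
        rw [coeff_monomial, if_neg]
        intro h
        apply hα
        have h6 := Finsupp.equivFunOnFinite.symm.injective h
        funext i
        exact Fin.ext (congrFun h6 i).symm
      · intro h
        exact absurd (Finset.mem_univ β) h
    let Q : (MvPowerSeries (Fin n) ℂ ⧸ Ideal.span (Set.range a) ^ (n * t)) →ₗ[ℂ]
        ((Fin n → Fin t) → ℂ) :=
      (((Ideal.span (Set.range a) ^ (n * t)).restrictScalars ℂ).liftQ G fun f hf => hG f hf) ∘ₗ
        (Submodule.Quotient.restrictScalarsEquiv ℂ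
          (Ideal.span (Set.range a) ^ (n * t))).symm.toLinearMap
    have hQ : Function.Surjective Q := by
      intro c
      obtain ⟨f, rfl⟩ := hGs c
      exact ⟨Ideal.Quotient.mk _ f, rfl⟩
    have h7 := LinearMap.finrank_le_finrank_of_surjective hQ
    rw [Module.finrank_fintype_fun_eq_card, Fintype.card_fun, Fintype.card_fin,
      Fintype.card_fin] at h7
    exact h7
  -- growth
  have h8 := key (d * n ^ k + 1)
  set t := d * n ^ k + 1 with ht
  have h9 : t ^ n ≤ (d * n ^ k) * t ^ k := by
    calc t ^ n ≤ d * (n * t) ^ k := h8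
      _ = (d * n ^ k) * t ^ k := by rw [mul_pow]; ring
  have h10 : t * t ^ k ≤ t ^ n := by
    rw [← pow_succ']
    exact Nat.pow_le_pow_right (by omega) hk
  have h11 : 0 < t ^ k := Nat.pow_pos (by omega)
  have h12 : t * t ^ k ≤ (d * n ^ k) * t ^ k := h10.trans h9
  have h13 := Nat.le_of_mul_le_mul_right h12 h11
  omega

end fps

end Vale.Agent.P298.H766
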