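import Vale.Agent.P298.H766.Irr

/-!
# The Weierstrass polynomial and the function field of a hypersurface germ
-/

open Polynomial

namespace Vale.Agent.P298.H766

variable {n : ℕ}

instance : IsAdicComplete (IsLocalRing.maximalIdeal (MvPowerSeries (Fin n) ℂ))
    (MvPowerSeries (Fin n) ℂ) := by
  rw [maximalIdeal_eq]
  exact inferInstanceAs (IsAdicComplete (Ideal.span (Set.range MvPowerSeries.X))
    (MvPowerSeries (Fin n) ℂ))

/-- series in `n + 1` variables as series in the last variable -/
noncomputable def lastEquiv (n : ℕ) :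
    MvPowerSeries (Fin (n + 1)) ℂ ≃ₐ[ℂ] PowerSeries (MvPowerSeries (Fin n) ℂ) :=
  (MvPowerSeries.renameEquiv ℂ finSuccEquivLast).trans (MvPowerSeries.optionEquivLeft (Fin n) ℂ)

theorem lastEquiv_X_last : lastEquiv n (MvPowerSeries.X (Fin.last n)) = PowerSeries.X := by
  have h : (MvPowerSeries.renameEquiv ℂ (finSuccEquivLast (n := n)))
      (MvPowerSeries.X (Fin.last n)) = MvPowerSeries.X none := by
    have := MvPowerSeries.rename_X (R := ℂ) (finSuccEquivLast (n := n)) (Fin.last n)
    rw [finSuccEquivLast_last] at this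
    exact this
  rw [lastEquiv, AlgEquiv.trans_apply, h, MvPowerSeries.optionEquivLeft_X_none]

theorem lastEquiv_X_castSucc (i : Fin n) :
    lastEquiv n (MvPowerSeries.X i.castSucc) = PowerSeries.C (MvPowerSeries.X i) := by
  have h : (MvPowerSeries.renameEquiv ℂ (finSuccEquivLast (n := n)))
      (MvPowerSeries.X i.castSucc) = MvPowerSeries.X (some i) := by
    have := MvPowerSeries.rename_X (R := ℂ) (finSuccEquivLast (n := n)) i.castSucc
    rw [finSuccEquivLast_castSucc] at this
    exact this
  rw [lastEquiv, AlgEquiv.trans_apply, h, MvPowerSeries.optionEquivLeft_X_some]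

theorem coeff_coeff_lastEquiv (F : MvPowerSeries (Fin (n + 1)) ℂ) (k : ℕ) (x : Fin n →₀ ℕ) :
    MvPowerSeries.coeff x (PowerSeries.coeff k (lastEquiv n F)) =
      MvPowerSeries.coeff (x.embDomain Fin.castSuccEmb + Finsupp.single (Fin.last n) k) F := by
  have h1 : x.optionElim k = Finsupp.embDomain finSuccEquivLast.toEmbedding
      (x.embDomain Fin.castSuccEmb + Finsupp.single (Fin.last n) k) := by
    ext a
    cases a with
    | none =>
      have h2 := Finsupp.embDomain_apply_self (finSuccEquivLast (n := n)).toEmbedding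
        (x.embDomain Fin.castSuccEmb + Finsupp.single (Fin.last n) k) (Fin.last n)
      simp only [Equiv.coe_toEmbedding, finSuccEquivLast_last] at h2
      rw [h2, Finsupp.add_apply, Finsupp.single_eq_same, Finsupp.embDomain_of_notMem_range]
      · simp
      · rintro ⟨i, hi⟩
        exact absurd hi (Fin.castSucc_lt_last i).ne
    | some i =>
      have h2 := Finsupp.embDomain_apply_self (finSuccEquivLast (n := n)).toEmbedding
        (x.embDomain Fin.castSuccEmb + Finsupp.single (Fin.last n) k) i.castSucc
      simp only [Equiv.coe_toEmbedding, finSuccEquivLast_castSucc] at h2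
      have h3 := Finsupp.embDomain_apply_self Fin.castSuccEmb x i
      rw [Fin.coe_castSuccEmb] at h3
      rw [h2, Finsupp.add_apply, h3, Finsupp.single_eq_of_ne (Fin.castSucc_lt_last i).ne]
      simp
  rw [lastEquiv, AlgEquiv.trans_apply, MvPowerSeries.coeff_coeff_optionEquivLeft, h1]
  exact MvPowerSeries.coeff_embDomain_rename _ _ _

/-- A distinguished polynomial whose power series is irreducible is irreducible over the fraction
field. -/
theorem irreducible_of_distinguished {A : Type*} [CommRing A] [IsDomain A] [IsLocalRing A]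
    [IsIntegrallyClosed A] {P : Polynomial A}
    (hP : P.IsDistinguishedAt (IsLocalRing.maximalIdeal A))
    (hirr : Irreducible (P : PowerSeries A)) :
    Irreducible (P.map (algebraMap A (FractionRing A))) := by
  rw [← hP.monic.irreducible_iff_irreducible_map_fraction_map (K := FractionRing A),
    hP.monic.irreducible_iff_natDegree]
  refine ⟨fun h => ?_, fun f g hf hg hfg => ?_⟩
  · rw [h] at hirr
    exact hirr.not_isUnit (by simp)
  · by_contra hne
    push Not at hne
    obtain ⟨hf0, hg0⟩ := hne
    have h1 := hP.map_eq_X_pow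
    rw [← hfg, Polynomial.map_mul] at h1
    -- both factors reduce to powers of `X`
    have key : ∀ q : Polynomial A, q.Monic → q.natDegree ≠ 0 →
        q.map (Ideal.Quotient.mk (IsLocalRing.maximalIdeal A)) ∣
          X ^ (f * g).natDegree → ¬ IsUnit (q : PowerSeries A) := by
      intro q hq hq0 hdvd hu
      rw [PowerSeries.isUnit_iff_constantCoeff] at hu
      have h2 : IsUnit (q.coeff 0) := by simpa using hu
      obtain ⟨i, hi, hi'⟩ := (dvd_prime_pow Polynomial.prime_X _).1 hdvd
      have h3 : (q.map (Ideal.Quotient.mk (IsLocalRing.maximalIdeal A))).natDegree =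
          q.natDegree := hq.natDegree_map _
      have h4 := Polynomial.natDegree_eq_of_degree_eq (degree_eq_degree_of_associated hi')
      rw [h3, natDegree_X_pow] at h4
      have h5 : X ∣ q.map (Ideal.Quotient.mk (IsLocalRing.maximalIdeal A)) :=
        (dvd_pow_self X (by rw [← h4]; exact hq0)).trans hi'.symm.dvd
      rw [Polynomial.X_dvd_iff, Polynomial.coeff_map] at h5
      have h6 := (h2.map (Ideal.Quotient.mk (IsLocalRing.maximalIdeal A)))
      rw [h5] at h6
      exact not_isUnit_zero h6
    have h7 : (P : PowerSeries A) = (f : PowerSeries A) * (g : PowerSeries A) := by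
      rw [← hfg, Polynomial.coe_mul]
    rcases hirr.isUnit_or_isUnit h7 with h | h
    · exact key f hf hf0 ⟨_, h1.symm⟩ h
    · exact key g hg hg0 (Dvd.intro_left _ h1) h

/-- The ring `A⟦X⟧ / (G)` inside a field generated by a root of the Weierstrass polynomial. -/
theorem exists_theta {A : Type*} [CommRing A] [IsDomain A] [IsLocalRing A]
    [IsAdicComplete (IsLocalRing.maximalIdeal A) A] {G h : PowerSeries A} {P : Polynomial A}
    (H : G.IsWeierstrassFactorization P h) {L K : Type*} [Field L] [Algebra A L]
    [IsFractionRing A L] [Field K] [Algebra L K] [Algebra A K] [IsScalarTower A L K] (z : K)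
    (hz : ∀ q : Polynomial L, aeval z q = 0 ↔ P.map (algebraMap A L) ∣ q) :
    ∃ θ : PowerSeries A →ₐ[A] K, (∀ g, θ g = 0 ↔ G ∣ g) ∧ θ PowerSeries.X = z ∧
      ∀ q : Polynomial A, θ (q : PowerSeries A) = aeval z q := by
  have h0 : ∀ q : Polynomial A, aeval z q = 0 ↔ P ∣ q := fun q => by
    rw [← Polynomial.map_dvd_map (algebraMap A L) (IsFractionRing.injective A L)
      H.isDistinguishedAt.monic, ← hz, aeval_map_algebraMap]
  let ev : (Polynomial A ⧸ Ideal.span {P}) →ₐ[A] K :=
    Ideal.Quotient.liftₐ (Ideal.span {P}) (aeval z) fun q hq =>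
      (h0 q).2 (Ideal.mem_span_singleton.1 hq)
  have hev : ∀ q, ev (Ideal.Quotient.mk _ q) = aeval z q := fun q => rfl
  let θ : PowerSeries A →ₐ[A] K := (ev.comp (H.algEquivQuotient.symm : _ →ₐ[A] _)).comp
    (Ideal.Quotient.mkₐ A (Ideal.span {G}))
  have hθp : ∀ q : Polynomial A, θ (q : PowerSeries A) = aeval z q := fun q => by
    have h1 : H.algEquivQuotient (Ideal.Quotient.mk _ q) =
        Ideal.Quotient.mkₐ A (Ideal.span {G}) (q : PowerSeries A) := by
      rfl
    show ev (H.algEquivQuotient.symm (Ideal.Quotient.mkₐ A (Ideal.span {G})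
      (q : PowerSeries A))) = _
    rw [← h1, AlgEquiv.symm_apply_apply, hev]
  refine ⟨θ, fun g => ?_, ?_, hθp⟩
  · have h2 : Function.Injective ev := by
      rw [injective_iff_map_eq_zero]
      intro x hx
      obtain ⟨q, rfl⟩ := Ideal.Quotient.mk_surjective x
      rw [hev, h0] at hx
      exact Ideal.Quotient.eq_zero_iff_mem.2 (Ideal.mem_span_singleton.2 hx)
    show ev (H.algEquivQuotient.symm (Ideal.Quotient.mk (Ideal.span {G}) g)) = 0 ↔ _
    rw [map_eq_zero_iff _ h2, map_eq_zero_iff _ H.algEquivQuotient.symm.injective,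
      Ideal.Quotient.eq_zero_iff_mem, Ideal.mem_span_singleton]
  · have := hθp X
    rwa [Polynomial.coe_X, aeval_X] at this

/-- **Weierstrass polynomial, function field and the embedding of the local ring**, for an
irreducible series in `x, y, z` which is regular in `z`. -/
theorem exists_weierstrass {F : MvPowerSeries (Fin 3) ℂ} (hF : Irreducible F)
    (hreg : ∃ k, MvPowerSeries.coeff (Finsupp.single 2 k) F ≠ 0) :
    ∃ (P : Polynomial (MvPowerSeries (Fin 2) ℂ)) (h : PowerSeries (MvPowerSeries (Fin 2) ℂ)),
      (lastEquiv 2 F).IsWeierstrassFactorization P h ∧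
      Irreducible (P.map (algebraMap (MvPowerSeries (Fin 2) ℂ)
        (FractionRing (MvPowerSeries (Fin 2) ℂ)))) := by
  have h1 : (lastEquiv 2 F).map (IsLocalRing.residue (MvPowerSeries (Fin 2) ℂ)) ≠ 0 := by
    intro h
    obtain ⟨k, hk⟩ := hreg
    apply hk
    have h2 := congrArg (PowerSeries.coeff k) h
    rw [PowerSeries.coeff_map, map_zero, IsLocalRing.residue_eq_zero_iff,
      IsLocalRing.mem_maximalIdeal, mem_nonunits_iff, MvPowerSeries.isUnit_iff_constantCoeff,
      isUnit_iff_ne_zero, not_not, ← MvPowerSeries.coeff_zero_eq_constantCoeff_apply,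
      coeff_coeff_lastEquiv] at h2
    simpa using h2
  obtain ⟨P, h, H⟩ := PowerSeries.exists_isWeierstrassFactorization h1
  refine ⟨P, h, H, irreducible_of_distinguished H.isDistinguishedAt ?_⟩
  have h3 : Irreducible (lastEquiv 2 F) := (MulEquiv.irreducible_iff (lastEquiv 2)).2 hF
  have h4 : Associated (P : PowerSeries (MvPowerSeries (Fin 2) ℂ)) (lastEquiv 2 F) :=
    ⟨H.isUnit.unit, H.eq_mul.symm⟩
  exact h4.irreducible_iff.2 h3

end Vale.Agent.P298.H766
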