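import Vale.Agent.P298.H766.Teis

/-!
# P298, colength calculus (helper766): packages N2-a and N2-b
-/

namespace Vale.Agent.P298.H766

open Filter Topology Metric Vale.Agent.P298 Module

variable {n m k k' : ℕ}

theorem colength_of_range {s : Fin k → (Fin n → ℂ) → ℂ} {s' : Fin k' → (Fin n → ℂ) → ℂ}
    (h : ∀ j, ∃ i, s j = s' i) (h' : ∀ j, ∃ i, s' j = s i) (d : ℕ) :
    Colength s d ↔ Colength s' d := by
  refine colength_congr (fun j => ?_) (fun j => ?_) d
  · obtain ⟨i, hi⟩ := h j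
    rw [hi]
    exact inIdeal_self _ i
  · obtain ⟨i, hi⟩ := h' j
    rw [hi]
    exact inIdeal_self _ i

/-- the colength of the maximal ideal is one -/
theorem colength_coord : Colength (fun (i : Fin n) (x : Fin n → ℂ) => x i) 1 := by
  refine ⟨fun _ _ => 1, fun _ => analyticAt_const, fun f hf => ?_⟩
  refine ⟨fun _ => f 0, ?_, fun c hc => ?_⟩
  · have h1 : AnalyticAt ℂ (fun p : (Fin n → ℂ) × (Fin 0 → ℂ) => f p.1) (0, 0) := by
      have h2 : AnalyticAt ℂ f ((0 : Fin n → ℂ), (0 : Fin 0 → ℂ)).1 := hf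
      exact h2.comp analyticAt_fst
    obtain ⟨ψ, hψ, h2⟩ := exists_hadamard (0 : Fin 0 → ℂ) h1
    refine ⟨fun i x => ψ i (x, 0), fun i =>
      AnalyticAt.comp₂ (hψ i) analyticAt_id analyticAt_const, ?_⟩
    have h3 : Tendsto (fun x : Fin n → ℂ => (x, (0 : Fin 0 → ℂ))) (𝓝 0) (𝓝 (0, 0)) :=
      (Continuous.tendsto (by fun_prop) 0)
    filter_upwards [h3.eventually h2] with x hx
    rw [hx]
    simp [mul_comm]
  · obtain ⟨a, ha, hx⟩ := hc
    have h1 := hx.self_of_nhds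
    funext i
    have hi : i = 0 := Subsingleton.elim _ _
    subst hi
    simp only [Fin.sum_univ_one, Fin.isValue, mul_one, Pi.zero_apply, mul_zero,
      Finset.sum_const_zero] at h1
    exact (sub_eq_zero.1 h1).symm

theorem colength_coord_snoc (j0 : Fin (m + 1)) :
    Colength (Fin.snoc (α := fun _ => (Fin (m + 1) → ℂ) → ℂ)
      (fun (j : Fin m) (x : Fin (m + 1) → ℂ) => x (j0.succAbove j)) (fun x => x j0)) 1 := by
  refine (colength_of_range (fun j => ?_) (fun j => ?_) 1).2 (colength_coord (n := m + 1))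
  · refine Fin.lastCases ?_ (fun i => ?_) j
    · exact ⟨j0, by rw [Fin.snoc_last]⟩
    · exact ⟨j0.succAbove i, by rw [Fin.snoc_castSucc]⟩
  · by_cases hj : j = j0
    · exact ⟨Fin.last m, by rw [Fin.snoc_last, hj]⟩
    · obtain ⟨j', rfl⟩ := Fin.exists_succAbove_eq hj
      exact ⟨j'.castSucc, by rw [Fin.snoc_castSucc]⟩

section

variable (hford : FordT) (hcm : CMT) (hchain : ChainT) (hloc : LocT)

include hford hcm hchain hloc

/-- (N2-a) for surfaces -/
theorem n2a {f : (Fin 3 → ℂ) → ℂ} (hf : Hol f) (f0 : f 0 = 0) {μ ν : ℕ} (hμ : Milnor f μ)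
    (hν : Milnor (fun x : Fin 2 → ℂ => f ![x 0, x 1, 0]) ν) :
    Colength ![f, pd 0 f, pd 1 f] (μ + ν) := by
  have h1 : (fun x : Fin 2 → ℂ => f ![x 0, x 1, 0]) =
      fun x : Fin 2 → ℂ => f (Fin.snoc (α := fun _ => ℂ) x 0) := by
    funext x
    congr 1
    funext i
    fin_cases i <;> rfl
  rw [h1] at hν
  refine (colength_of_range (fun j => ?_) (fun j => ?_) _).1
    (teissier_milnor hford hcm hchain hloc hf f0 hμ hν)
  · fin_cases j
    · exact ⟨1, rfl⟩
    · exact ⟨2, rfl⟩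
    · exact ⟨0, rfl⟩
  · fin_cases j
    · exact ⟨2, rfl⟩
    · exact ⟨0, rfl⟩
    · exact ⟨1, rfl⟩

/-- the intersection number of the line `x = 0` with `∂g/∂y = 0` -/
theorem colength_line {g : (Fin 2 → ℂ) → ℂ} (hg : Hol g) (g0 : g 0 = 0) {d : ℕ}
    (hd : Colength ![g, fun x => x 0] d) :
    0 < d ∧ Colength ![fun x => x 0, pd 1 g] (d - 1) := by
  have h := line hford hcm hchain hloc hg g0 (1 : Fin 2) (d := d) (colength_coord_snoc 1)
    ((colength_of_range (fun j => ?_) (fun j => ?_) _).1 hd)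
  · refine ⟨h.1, (colength_of_range (fun j => ?_) (fun j => ?_) _).1 h.2⟩
    · fin_cases j
      · exact ⟨0, rfl⟩
      · exact ⟨1, rfl⟩
    · fin_cases j
      · exact ⟨0, rfl⟩
      · exact ⟨1, rfl⟩
  · fin_cases j
    · exact ⟨1, rfl⟩
    · exact ⟨0, rfl⟩
  · fin_cases j
    · exact ⟨1, rfl⟩
    · exact ⟨0, rfl⟩

/-- (N2-b) Teissier's formula for plane curves -/
theorem n2b {g : (Fin 2 → ℂ) → ℂ} (hg : Hol g) (g0 : g 0 = 0) {μ d : ℕ} (hμ : Milnor g μ)
    (hd : Colength ![g, fun x => x 0] d) : Colength ![g, pd 1 g] (μ + d - 1) := by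
  obtain ⟨hd0, h1⟩ := colength_line hford hcm hchain hloc hg g0 hd
  have h2 : Colength (Fin.snoc (α := fun _ => (Fin 2 → ℂ) → ℂ)
      (fun j : Fin 1 => pd ((0 : Fin 2).succAbove j) g) (fun x => x 0)) (d - 1) := by
    refine (colength_of_range (fun j => ?_) (fun j => ?_) _).1 h1
    · fin_cases j
      · exact ⟨1, rfl⟩
      · exact ⟨0, rfl⟩
    · fin_cases j
      · exact ⟨1, rfl⟩
      · exact ⟨0, rfl⟩
  have h3 := teissier hford hcm hchain hloc hg g0 (0 : Fin 2)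
    ((colength_milnor_iff (f := g) (0 : Fin 2) μ).2 hμ) h2
  have h4 : μ + (d - 1) = μ + d - 1 := by omega
  rw [h4] at h3
  refine (colength_of_range (fun j => ?_) (fun j => ?_) _).1 h3
  · fin_cases j
    · exact ⟨1, rfl⟩
    · exact ⟨0, rfl⟩
  · fin_cases j
    · exact ⟨1, rfl⟩
    · exact ⟨0, rfl⟩

end

end Vale.Agent.P298.H766
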