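import Vale.Agent.P298.Bdl.B1
import Mathlib

/-!
# P298, colength calculus (helper766): restriction to a coordinate hyperplane; ideals
-/

namespace Vale.Agent.P298.H766

open Filter Topology Metric Vale.Agent.P298

variable {n m k k' : ℕ}

/-- two families of germs generating the same ideal have the same colength -/
theorem inIdeal_trans {s : Fin k → (Fin n → ℂ) → ℂ} {s' : Fin k' → (Fin n → ℂ) → ℂ}
    (h : ∀ j, InIdeal s' (s j)) {f : (Fin n → ℂ) → ℂ} (hf : InIdeal s f) : InIdeal s' f := by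
  choose b hb hs using h
  obtain ⟨a, ha, hf⟩ := hf
  refine ⟨fun i x => ∑ j, a j x * b j i x, fun i => ?_, ?_⟩
  · exact Finset.analyticAt_fun_sum _ fun j _ => (ha j).mul (hb j i)
  · filter_upwards [hf, eventually_all.2 hs] with x hx hx'
    rw [hx]
    have h1 : ∀ j, a j x * s j x = ∑ i, a j x * b j i x * s' i x := by
      intro j
      rw [hx' j, Finset.mul_sum]
      refine Finset.sum_congr rfl fun i _ => ?_
      ring
    simp only [h1]
    rw [Finset.sum_comm]
    refine Finset.sum_congr rfl fun i _ => ?_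
    rw [Finset.sum_mul]

theorem colength_congr {s : Fin k → (Fin n → ℂ) → ℂ} {s' : Fin k' → (Fin n → ℂ) → ℂ}
    (h : ∀ j, InIdeal s' (s j)) (h' : ∀ j, InIdeal s (s' j)) (d : ℕ) :
    Colength s d ↔ Colength s' d := by
  have key : ∀ f, InIdeal s f ↔ InIdeal s' f := fun f =>
    ⟨inIdeal_trans h, inIdeal_trans h'⟩
  constructor
  · rintro ⟨b, hb, H⟩
    refine ⟨b, hb, fun f hf => ?_⟩
    obtain ⟨c, hc, hc'⟩ := H f hf
    exact ⟨c, (key _).1 hc, fun c' hc'' => hc' c' ((key _).2 hc'')⟩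
  · rintro ⟨b, hb, H⟩
    refine ⟨b, hb, fun f hf => ?_⟩
    obtain ⟨c, hc, hc'⟩ := H f hf
    exact ⟨c, (key _).2 hc, fun c' hc'' => hc' c' ((key _).1 hc'')⟩

theorem inIdeal_self (s : Fin k → (Fin n → ℂ) → ℂ) (j : Fin k) : InIdeal s (s j) := by
  classical
  refine ⟨fun i _ => if i = j then 1 else 0, fun i => analyticAt_const, ?_⟩
  filter_upwards with x
  simp

theorem inIdeal_of_eventuallyEq {s : Fin k → (Fin n → ℂ) → ℂ} {f g : (Fin n → ℂ) → ℂ}
    (h : InIdeal s f) (hfg : g =ᶠ[𝓝 0] f) : InIdeal s g := by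
  obtain ⟨a, ha, hx⟩ := h
  refine ⟨a, ha, ?_⟩
  filter_upwards [hx, hfg] with x h1 h2
  rw [h2, h1]

/-- the inclusion of the hyperplane, as a continuous linear map -/
noncomputable def inclL (m : ℕ) : (Fin m → ℂ) →L[ℂ] (Fin (m + 1) → ℂ) :=
  ContinuousLinearMap.pi fun i : Fin (m + 1) =>
    Fin.lastCases (motive := fun _ => (Fin m → ℂ) →L[ℂ] ℂ) 0
      (fun j => ContinuousLinearMap.proj j) i

theorem inclL_apply (x : Fin m → ℂ) : inclL m x = Fin.snoc (α := fun _ => ℂ) x 0 := by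
  funext i
  refine Fin.lastCases ?_ (fun j => ?_) i
  · simp [inclL]
  · simp [inclL]

/-- the projection onto the hyperplane, as a continuous linear map -/
noncomputable def projL (m : ℕ) : (Fin (m + 1) → ℂ) →L[ℂ] (Fin m → ℂ) :=
  ContinuousLinearMap.pi fun i : Fin m => ContinuousLinearMap.proj i.castSucc

theorem projL_apply (x : Fin (m + 1) → ℂ) : projL m x = fun i => x i.castSucc := rfl

theorem hol_restrict {f : (Fin (m + 1) → ℂ) → ℂ} (hf : Hol f) :
    Hol fun x : Fin m → ℂ => f (Fin.snoc (α := fun _ => ℂ) x 0) := by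
  have h1 : AnalyticAt ℂ f (inclL m 0) := by
    rw [map_zero]
    exact hf
  have h2 := h1.comp ((inclL m).analyticAt 0)
  have h3 : f ∘ (inclL m) = fun x : Fin m → ℂ => f (Fin.snoc (α := fun _ => ℂ) x 0) := by
    funext x
    simp only [Function.comp_apply, inclL_apply]
  rw [h3] at h2
  exact h2

theorem hol_extend {f : (Fin m → ℂ) → ℂ} (hf : Hol f) :
    Hol fun x : Fin (m + 1) → ℂ => f (fun i => x i.castSucc) := by
  have h1 : AnalyticAt ℂ f (projL m 0) := by
    rw [map_zero]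
    exact hf
  exact h1.comp ((projL m).analyticAt 0)

theorem tendsto_incl : Tendsto (fun x : Fin m → ℂ => (Fin.snoc (α := fun _ => ℂ) x 0 :
    Fin (m + 1) → ℂ)) (𝓝 0) (𝓝 0) := by
  have h1 : Tendsto (inclL m) (𝓝 0) (𝓝 (inclL m 0)) := (inclL m).continuous.tendsto 0
  rw [map_zero] at h1
  have h3 : (inclL m : (Fin m → ℂ) → (Fin (m + 1) → ℂ)) =
      fun x : Fin m → ℂ => (Fin.snoc (α := fun _ => ℂ) x 0 : Fin (m + 1) → ℂ) := by
    funext x
    exact inclL_apply x
  rw [h3] at h1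
  exact h1

theorem tendsto_proj : Tendsto (fun x : Fin (m + 1) → ℂ => fun i : Fin m => x i.castSucc)
    (𝓝 0) (𝓝 0) := by
  have h1 : Tendsto (projL m) (𝓝 0) (𝓝 (projL m 0)) := (projL m).continuous.tendsto 0
  rw [map_zero] at h1
  exact h1

/-- a germ vanishing on the hyperplane is divisible by the last coordinate -/
theorem exists_div_last {G : (Fin (m + 1) → ℂ) → ℂ} (hG : Hol G)
    (h0 : ∀ᶠ x in 𝓝 (0 : Fin m → ℂ), G (Fin.snoc (α := fun _ => ℂ) x 0) = 0) :
    ∃ H : (Fin (m + 1) → ℂ) → ℂ, Hol H ∧ ∀ᶠ x in 𝓝 0, G x = H x * x (Fin.last m) := by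
  have hπ : ‖(inclL m).comp (projL m)‖ ≤ 1 := by
    refine ContinuousLinearMap.opNorm_le_bound _ zero_le_one fun v => ?_
    rw [one_mul, ContinuousLinearMap.comp_apply, inclL_apply, projL_apply]
    refine (pi_norm_le_iff_of_nonneg (norm_nonneg _)).2 fun i => ?_
    refine Fin.lastCases ?_ (fun j => ?_) i
    · simp
    · rw [Fin.snoc_castSucc]
      exact norm_le_pi_norm v j.castSucc
  obtain ⟨Q, hQ, h⟩ := exists_division ((inclL m).comp (projL m)) hπ hG
  refine ⟨fun x => Q x (Pi.single (Fin.last m) 1), ?_, ?_⟩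
  · exact (ContinuousLinearMap.apply ℂ ℂ
      (Pi.single (Fin.last m) 1 : Fin (m + 1) → ℂ)).analyticAt _ |>.comp hQ
  · filter_upwards [h, tendsto_proj.eventually h0] with x hx hx0
    have e1 : (0 : Fin (m + 1) → ℂ) + ((inclL m).comp (projL m)) (x - 0) =
        Fin.snoc (α := fun _ => ℂ) (fun i : Fin m => x i.castSucc) 0 := by
      rw [sub_zero, zero_add, ContinuousLinearMap.comp_apply, inclL_apply]
      rfl
    rw [e1, hx0, sub_zero] at hx
    have e2 : x - Fin.snoc (α := fun _ => ℂ) (fun i : Fin m => x i.castSucc) 0 =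
        x (Fin.last m) • (Pi.single (Fin.last m) 1 : Fin (m + 1) → ℂ) := by
      funext i
      refine Fin.lastCases ?_ (fun j => ?_) i
      · simp
      · simp [Fin.castSucc_ne_last]
    rw [e2, map_smul, smul_eq_mul] at hx
    rw [hx]
    ring

end Vale.Agent.P298.H766
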