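import Vale.Agent.P298.H766.Tay

/-!
# P298, colength calculus (helper766): the Taylor series as a homomorphism of algebras
-/

namespace Vale.Agent.P298.H766

open Filter Topology Metric Vale.Agent.P298

variable {n : ℕ}

theorem qM_anti {M M' : ℕ} (h : M ≤ M') : qM n M' ≤ qM n M :=
  sup_le (nul_le_qM M) ((Ideal.pow_le_pow_right h).trans (mX_pow_le_qM M))

/-- the Taylor series of an analytic function -/
noncomputable def tay (f : AnFun n) : MvPowerSeries (Fin n) ℂ := fun d =>
  MvPolynomial.coeff d (Classical.choose (exists_poly (n := n) (Finsupp.degree d + 1) f))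

theorem coeff_tay {M : ℕ} {f : AnFun n} {p : MvPolynomial (Fin n) ℂ}
    (h : f - toAn n p ∈ qM n M) {d : Fin n →₀ ℕ} (hd : Finsupp.degree d < M) :
    MvPowerSeries.coeff d (tay f) = MvPolynomial.coeff d p := by
  have h1 := Classical.choose_spec (exists_poly (n := n) (Finsupp.degree d + 1) f)
  set q := Classical.choose (exists_poly (n := n) (Finsupp.degree d + 1) f) with hq
  have h2 : toAn n (p - q) ∈ qM n (Finsupp.degree d + 1) := by
    have h3 : toAn n (p - q) = (f - toAn n q) - (f - toAn n p) := by
      rw [map_sub]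
      ring
    rw [h3]
    exact sub_mem h1 (qM_anti hd h)
  have h3 := toAn_mem_qM h2
  rw [MvPolynomial.mem_pow_idealOfVars_iff'] at h3
  have h4 := h3 d (Nat.lt_succ_self _)
  rw [MvPolynomial.coeff_sub, sub_eq_zero] at h4
  rw [h4]
  rfl

/-- the Taylor series, as a homomorphism of algebras -/
noncomputable def T (n : ℕ) : AnFun n →ₐ[ℂ] MvPowerSeries (Fin n) ℂ where
  toFun := tay
  map_one' := by
    ext d
    have h : (1 : AnFun n) - toAn n 1 ∈ qM n (Finsupp.degree d + 1) := by
      rw [map_one, sub_self]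
      exact zero_mem _
    rw [coeff_tay h (Nat.lt_succ_self _), ← MvPolynomial.coe_one, MvPolynomial.coeff_coe]
  map_mul' f g := by
    ext d
    obtain ⟨p, hp⟩ := exists_poly (n := n) (Finsupp.degree d + 1) f
    obtain ⟨q, hq⟩ := exists_poly (n := n) (Finsupp.degree d + 1) g
    have h : f * g - toAn n (p * q) ∈ qM n (Finsupp.degree d + 1) := by
      have h1 : f * g - toAn n (p * q) = f * (g - toAn n q) + toAn n q * (f - toAn n p) := by
        rw [map_mul]
        ring
      rw [h1]
      exact add_mem (Ideal.mul_mem_left _ _ hq) (Ideal.mul_mem_left _ _ hp)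
    rw [coeff_tay h (Nat.lt_succ_self _), MvPowerSeries.coeff_mul, MvPolynomial.coeff_mul]
    refine Finset.sum_congr rfl fun x hx => ?_
    have hx' : x.1 + x.2 = d := Finset.HasAntidiagonal.mem_antidiagonal.1 hx
    have h2 : Finsupp.degree x.1 + Finsupp.degree x.2 = Finsupp.degree d := by
      rw [← map_add, hx']
    rw [coeff_tay hp (by omega), coeff_tay hq (by omega)]
  map_zero' := by
    ext d
    have h : (0 : AnFun n) - toAn n 0 ∈ qM n (Finsupp.degree d + 1) := by
      rw [map_zero, sub_self]
      exact zero_mem _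
    rw [coeff_tay h (Nat.lt_succ_self _)]
    simp
  map_add' f g := by
    ext d
    obtain ⟨p, hp⟩ := exists_poly (n := n) (Finsupp.degree d + 1) f
    obtain ⟨q, hq⟩ := exists_poly (n := n) (Finsupp.degree d + 1) g
    have h : f + g - toAn n (p + q) ∈ qM n (Finsupp.degree d + 1) := by
      have h1 : f + g - toAn n (p + q) = (f - toAn n p) + (g - toAn n q) := by
        rw [map_add]
        ring
      rw [h1]
      exact add_mem hp hq
    rw [coeff_tay h (Nat.lt_succ_self _), map_add, MvPolynomial.coeff_add,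
      coeff_tay hp (Nat.lt_succ_self _), coeff_tay hq (Nat.lt_succ_self _)]
  commutes' c := by
    ext d
    have h : algebraMap ℂ (AnFun n) c - toAn n (MvPolynomial.C c) ∈
        qM n (Finsupp.degree d + 1) := by
      have h1 : toAn n (MvPolynomial.C c) = algebraMap ℂ (AnFun n) c := by
        simp [toAn]
      rw [h1, sub_self]
      exact zero_mem _
    rw [coeff_tay h (Nat.lt_succ_self _)]
    classical
    rw [MvPolynomial.coeff_C]
    have h2 : algebraMap ℂ (MvPowerSeries (Fin n) ℂ) c = MvPowerSeries.C c := rfl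
    rw [h2, MvPowerSeries.coeff_C]
    simp only [eq_comm]

theorem T_apply (f : AnFun n) : T n f = tay f := rfl

theorem T_toAn (p : MvPolynomial (Fin n) ℂ) : T n (toAn n p) = (p : MvPowerSeries (Fin n) ℂ) := by
  ext d
  have h : toAn n p - toAn n p ∈ qM n (Finsupp.degree d + 1) := by
    rw [sub_self]
    exact zero_mem _
  rw [T_apply, coeff_tay h (Nat.lt_succ_self _), MvPolynomial.coeff_coe]

theorem T_coordF (i : Fin n) : T n (coordF n i) = MvPowerSeries.X i := by
  rw [← toAn_X, T_toAn, MvPolynomial.coe_X]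

/-- functions in `qM` have Taylor series of order at least `M` -/
theorem le_order_T {M : ℕ} {f : AnFun n} (h : f ∈ qM n M) : (M : ℕ∞) ≤ (T n f).order := by
  refine MvPowerSeries.le_order fun d hd => ?_
  have h1 : f - toAn n 0 ∈ qM n M := by rwa [map_zero, sub_zero]
  rw [T_apply, coeff_tay h1 (by exact_mod_cast hd)]
  simp

/-- a function whose Taylor series has order at least `M` is in `qM` -/
theorem mem_qM_of_order {M : ℕ} {f : AnFun n} (h : (M : ℕ∞) ≤ (T n f).order) : f ∈ qM n M := by
  obtain ⟨p, hp⟩ := exists_poly (n := n) M f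
  have h1 : p ∈ MvPolynomial.idealOfVars (Fin n) ℂ ^ M := by
    rw [MvPolynomial.mem_pow_idealOfVars_iff']
    intro d hd
    rw [← coeff_tay hp hd, ← T_apply]
    exact MvPowerSeries.coeff_of_lt_order (lt_of_lt_of_le (by exact_mod_cast hd) h)
  have h2 : toAn n p ∈ qM n M := by
    refine mX_pow_le_qM M ?_
    have h3 : (MvPolynomial.idealOfVars (Fin n) ℂ ^ M).map (toAn n) ≤ mX n ^ M := by
      rw [Ideal.map_pow]
      refine Ideal.pow_right_mono ?_ M
      rw [MvPolynomial.idealOfVars, Ideal.map_span, Ideal.span_le]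
      rintro _ ⟨_, ⟨i, rfl⟩, rfl⟩
      have h4 : (toAn n) (MvPolynomial.X i) ∈ mX n := by
        rw [toAn_X]
        exact coordF_mem i
      exact h4
    exact h3 (Ideal.mem_map_of_mem _ h1)
  have h3 : f = (f - toAn n p) + toAn n p := by ring
  rw [h3]
  exact add_mem hp h2

theorem T_nul {f : AnFun n} (h : f ∈ nul n) : T n f = 0 := by
  ext d
  have h1 : f - toAn n 0 ∈ qM n (Finsupp.degree d + 1) := by
    rw [map_zero, sub_zero]
    exact nul_le_qM _ h
  rw [T_apply, coeff_tay h1 (Nat.lt_succ_self _)]
  simp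

end Vale.Agent.P298.H766
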