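import Vale.Agent.P298.H766.Tay2

/-!
# P298, colength calculus (helper766): partial derivatives of the Taylor series
-/

namespace Vale.Agent.P298.H766

open Filter Topology Metric Vale.Agent.P298

variable {n : ℕ}

theorem hol_pd {f : (Fin n → ℂ) → ℂ} (hf : AnalyticAt ℂ f 0) (i : Fin n) :
    AnalyticAt ℂ (pd i f) 0 := by
  have h1 : AnalyticAt ℂ (fderiv ℂ f) 0 := hf.fderiv
  exact (ContinuousLinearMap.analyticAt
    (ContinuousLinearMap.apply ℂ ℂ (Pi.single i 1 : Fin n → ℂ)) _).comp h1

/-- the partial derivative on `AnFun n` -/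
noncomputable def pdA (i : Fin n) (f : AnFun n) : AnFun n :=
  ⟨pd i (f : (Fin n → ℂ) → ℂ), hol_pd f.2 i⟩

theorem pdA_apply (i : Fin n) (f : AnFun n) (x : Fin n → ℂ) :
    (pdA i f : (Fin n → ℂ) → ℂ) x = pd i (f : (Fin n → ℂ) → ℂ) x := rfl

theorem ev_diff (f : AnFun n) :
    ∀ᶠ x in 𝓝 (0 : Fin n → ℂ), DifferentiableAt ℂ (f : (Fin n → ℂ) → ℂ) x := by
  have h : AnalyticAt ℂ (f : (Fin n → ℂ) → ℂ) 0 := f.2
  filter_upwards [h.eventually_analyticAt] with x hx
  exact hx.differentiableAt

theorem pdA_add (i : Fin n) (f g : AnFun n) : pdA i (f + g) - (pdA i f + pdA i g) ∈ nul n := by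
  rw [mem_nul]
  filter_upwards [ev_diff f, ev_diff g] with x hf hg
  have h1 : ((pdA i (f + g) - (pdA i f + pdA i g) : AnFun n) : (Fin n → ℂ) → ℂ) x =
      pd i ((f : (Fin n → ℂ) → ℂ) + (g : (Fin n → ℂ) → ℂ)) x -
        (pd i (f : (Fin n → ℂ) → ℂ) x + pd i (g : (Fin n → ℂ) → ℂ) x) := rfl
  rw [h1, pd, fderiv_add hf hg]
  simp [pd]

theorem pdA_mul (i : Fin n) (f g : AnFun n) :
    pdA i (f * g) - (f * pdA i g + g * pdA i f) ∈ nul n := by
  rw [mem_nul]
  filter_upwards [ev_diff f, ev_diff g] with x hf hg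
  have h1 : ((pdA i (f * g) - (f * pdA i g + g * pdA i f) : AnFun n) : (Fin n → ℂ) → ℂ) x =
      pd i ((f : (Fin n → ℂ) → ℂ) * (g : (Fin n → ℂ) → ℂ)) x -
        ((f : (Fin n → ℂ) → ℂ) x * pd i (g : (Fin n → ℂ) → ℂ) x +
          (g : (Fin n → ℂ) → ℂ) x * pd i (f : (Fin n → ℂ) → ℂ) x) := rfl
  rw [h1, pd, fderiv_mul hf hg]
  simp [pd]

theorem pdA_nul (i : Fin n) {f : AnFun n} (h : f ∈ nul n) : pdA i f ∈ nul n := by
  rw [mem_nul] at h ⊢
  filter_upwards [h.fderiv (𝕜 := ℂ)] with x hx
  rw [pdA_apply, pd, hx]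
  simp

theorem pdA_neg (i : Fin n) (f : AnFun n) : pdA i (-f) = -pdA i f := by
  apply Subtype.ext
  funext x
  change pd i (-(f : (Fin n → ℂ) → ℂ)) x = -pd i (f : (Fin n → ℂ) → ℂ) x
  rw [pd, fderiv_neg]
  rfl

theorem pdA_sub (i : Fin n) (f g : AnFun n) : pdA i (f - g) - (pdA i f - pdA i g) ∈ nul n := by
  have h := pdA_add i f (-g)
  rw [pdA_neg, ← sub_eq_add_neg, ← sub_eq_add_neg] at h
  exact h

theorem pdA_algebraMap (i : Fin n) (c : ℂ) : pdA i (algebraMap ℂ (AnFun n) c) = 0 := by
  apply Subtype.ext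
  funext x
  change pd i (fun _ => c) x = 0
  simp [pd]

theorem pdA_coordF (i j : Fin n) :
    pdA i (coordF n j) = algebraMap ℂ (AnFun n) (if i = j then 1 else 0) := by
  apply Subtype.ext
  funext x
  change pd i (fun x : Fin n → ℂ => x j) x = (if i = j then 1 else 0)
  have h : (fun x : Fin n → ℂ => x j) =
      (ContinuousLinearMap.proj (R := ℂ) (φ := fun _ : Fin n => ℂ) j) := rfl
  rw [pd, h, ContinuousLinearMap.fderiv]
  simp only [ContinuousLinearMap.proj_apply, Pi.single_apply, eq_comm]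

/-- congruence modulo functions vanishing near zero -/
theorem pdA_congr (i : Fin n) {f g : AnFun n} (h : f - g ∈ nul n) :
    pdA i f - pdA i g ∈ nul n := by
  have h1 := (nul n).sub_mem (pdA_nul i h) (pdA_sub i f g)
  rwa [sub_sub_cancel] at h1

theorem pdA_toAn (i : Fin n) (p : MvPolynomial (Fin n) ℂ) :
    pdA i (toAn n p) - toAn n (MvPolynomial.pderiv i p) ∈ nul n := by
  induction p using MvPolynomial.induction_on with
  | C c =>
    have h1 : toAn n (MvPolynomial.C c) = algebraMap ℂ (AnFun n) c := by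
      simp [toAn]
    rw [h1, pdA_algebraMap, MvPolynomial.pderiv_C, map_zero, sub_zero]
    exact zero_mem _
  | add p q hp hq =>
    have h1 := (nul n).add_mem (pdA_add i (toAn n p) (toAn n q)) ((nul n).add_mem hp hq)
    have h2 : pdA i (toAn n (p + q)) - toAn n (MvPolynomial.pderiv i (p + q)) =
        pdA i (toAn n p + toAn n q) - (pdA i (toAn n p) + pdA i (toAn n q)) +
          (pdA i (toAn n p) - toAn n (MvPolynomial.pderiv i p) +
            (pdA i (toAn n q) - toAn n (MvPolynomial.pderiv i q))) := by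
      rw [map_add, map_add, map_add]
      ring
    rw [h2]
    exact h1
  | mul_X p j hp =>
    have h1 := pdA_mul i (toAn n p) (coordF n j)
    have h2 := (nul n).mul_mem_left (coordF n j) hp
    have h3 := (nul n).add_mem h1 h2
    have h4 : pdA i (toAn n (p * MvPolynomial.X j)) -
        toAn n (MvPolynomial.pderiv i (p * MvPolynomial.X j)) =
        pdA i (toAn n p * coordF n j) - (toAn n p * pdA i (coordF n j) +
          coordF n j * pdA i (toAn n p)) +
          coordF n j * (pdA i (toAn n p) - toAn n (MvPolynomial.pderiv i p)) := by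
      rw [Derivation.leibniz, map_add, map_mul, toAn_X, smul_eq_mul, smul_eq_mul, map_mul,
        map_mul, toAn_X, pdA_coordF]
      have h5 : toAn n (MvPolynomial.pderiv i (MvPolynomial.X j)) =
          algebraMap ℂ (AnFun n) (if i = j then 1 else 0) := by
        rw [MvPolynomial.pderiv_X, Pi.single_apply]
        by_cases hij : i = j
        · rw [if_pos hij, if_pos hij.symm, map_one, map_one]
        · rw [if_neg hij, if_neg (fun h => hij h.symm), map_zero, map_zero]
      rw [h5]
      ring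
    rw [h4]
    exact h3

theorem pdA_qM (i : Fin n) (M : ℕ) : ∀ f ∈ qM n (M + 1), pdA i f ∈ qM n M := by
  have key : ∀ M : ℕ, ∀ f ∈ mX n ^ (M + 1), pdA i f ∈ qM n M := by
    intro M
    induction M with
    | zero =>
      intro f _
      simp [qM]
    | succ M ih =>
      intro f hf
      rw [pow_succ'] at hf
      refine Submodule.mul_induction_on hf ?_ ?_
      · intro a ha b hb
        have h1 := nul_le_qM (M + 1) (pdA_mul i a b)
        have h2 : a * pdA i b ∈ qM n (M + 1) := mul_mem_qM ha (ih b hb)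
        have h3 : b * pdA i a ∈ qM n (M + 1) :=
          Ideal.mul_mem_right _ _ (mX_pow_le_qM _ hb)
        have h4 := add_mem h1 (add_mem h2 h3)
        rwa [sub_add_cancel] at h4
      · intro f g hf hg
        have h1 := add_mem (nul_le_qM (M + 1) (pdA_add i f g)) (add_mem hf hg)
        rwa [sub_add_cancel] at h1
  intro f hf
  rw [qM, Submodule.mem_sup] at hf
  obtain ⟨y, hy, z, hz, rfl⟩ := hf
  have h1 := add_mem (nul_le_qM M (pdA_add i y z))
    (add_mem (nul_le_qM M (pdA_nul i hy)) (key M z hz))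
  rwa [sub_add_cancel] at h1

/-- the Taylor series of the partial derivative -/
theorem T_pdA (i : Fin n) (f : AnFun n) : T n (pdA i f) = MvPowerSeries.pderiv ℂ i (T n f) := by
  ext d
  obtain ⟨p, hp⟩ := exists_poly (n := n) (Finsupp.degree d + 1 + 1) f
  have h1 : pdA i f - toAn n (MvPolynomial.pderiv i p) ∈ qM n (Finsupp.degree d + 1) := by
    have h2 := pdA_qM i _ _ hp
    have h3 := nul_le_qM (Finsupp.degree d + 1) (pdA_sub i f (toAn n p))
    have h4 := nul_le_qM (Finsupp.degree d + 1) (pdA_toAn i p)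
    have h5 := add_mem (sub_mem h2 h3) h4
    have h6 : pdA i (f - toAn n p) - (pdA i (f - toAn n p) - (pdA i f - pdA i (toAn n p))) +
        (pdA i (toAn n p) - toAn n (MvPolynomial.pderiv i p)) =
        pdA i f - toAn n (MvPolynomial.pderiv i p) := by ring
    rwa [h6] at h5
  rw [T_apply, coeff_tay h1 (Nat.lt_succ_self _), MvPowerSeries.coeff_pderiv]
  have h2 : Finsupp.degree (d + Finsupp.single i 1) < Finsupp.degree d + 1 + 1 := by
    rw [map_add, Finsupp.degree_single]
    omega
  rw [T_apply, coeff_tay hp h2]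
  have h3 := congrArg (fun g => MvPowerSeries.coeff d g)
    (MvPowerSeries.pderiv_coe (R := ℂ) (i := i) p)
  simp only [MvPowerSeries.coeff_pderiv, MvPolynomial.coeff_coe] at h3
  rw [h3]

end Vale.Agent.P298.H766
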