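import Vale.Agent.P298.H766.Form

/-!
# P298, colength calculus (helper766): the formulas of Teissier
-/

namespace Vale.Agent.P298.H766

open Filter Topology Metric Vale.Agent.P298 Module

variable {n m k : ℕ}

theorem hol_coord (i : Fin n) : Hol (fun x : Fin n → ℂ => x i) :=
  (ContinuousLinearMap.proj (R := ℂ) (φ := fun _ : Fin n => ℂ) i).analyticAt 0

/-- the order of a germ along an arc on which all partial derivatives but one vanish -/
theorem order_arc (hchain : ChainT) (hloc : LocT) {f : (Fin n → ℂ) → ℂ} (hf : Hol f)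
    (f0 : f 0 = 0) (j0 : Fin n) (φ : MvPowerSeries (Fin n) ℂ →ₐ[ℂ] PowerSeries ℂ)
    (h : ∀ i, i ≠ j0 → φ (ser (pd i f)) * PowerSeries.derivative ℂ (φ (MvPowerSeries.X i)) = 0) :
    (φ (ser f)).order = (φ (ser (pd j0 f))).order +
      (φ (ser (fun x : Fin n → ℂ => x j0))).order := by
  have h1 := hchain n φ (ser f)
  have h2 : ∀ i, MvPowerSeries.pderiv ℂ i (ser f) = ser (pd i f) := fun i => (ser_pd hf i).symm
  simp only [h2] at h1
  rw [Finset.sum_eq_single j0 (fun i _ hi => h i hi) (fun hj => absurd (Finset.mem_univ j0) hj)]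
    at h1
  rw [order_eq_derivative (by rw [hloc, constantCoeff_ser hf, f0]), h1, PowerSeries.order_mul,
    ser_coord, order_eq_derivative (g := φ (MvPowerSeries.X j0))
      (by rw [hloc, MvPowerSeries.constantCoeff_X]), add_assoc]

section

variable (hford : FordT) (hcm : CMT) (hchain : ChainT) (hloc : LocT)

include hford hcm hchain hloc

/-- Teissier: the intersection number of the polar curve `∂f/∂x_j = 0`, `j ≠ j0`, with `f` -/
theorem teissier {f : (Fin (m + 1) → ℂ) → ℂ} (hf : Hol f) (f0 : f 0 = 0) (j0 : Fin (m + 1))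
    {μ ν : ℕ}
    (hμ : Colength (Fin.snoc (α := fun _ => (Fin (m + 1) → ℂ) → ℂ)
      (fun j => pd (j0.succAbove j) f) (pd j0 f)) μ)
    (hν : Colength (Fin.snoc (α := fun _ => (Fin (m + 1) → ℂ) → ℂ)
      (fun j => pd (j0.succAbove j) f) (fun x => x j0)) ν) :
    Colength (Fin.snoc (α := fun _ => (Fin (m + 1) → ℂ) → ℂ)
      (fun j => pd (j0.succAbove j) f) f) (μ + ν) := by
  have ha : ∀ j : Fin m, Hol (pd (j0.succAbove j) f) := fun j => hol_pd hf _
  by_cases ha0 : ∀ j : Fin m, pd (j0.succAbove j) f 0 = 0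
  swap
  · push Not at ha0
    obtain ⟨i, hi⟩ := ha0
    have key : ∀ (w : (Fin (m + 1) → ℂ) → ℂ) (e : ℕ),
        Colength (Fin.snoc (α := fun _ => (Fin (m + 1) → ℂ) → ℂ)
          (fun j => pd (j0.succAbove j) f) w) e ↔ e = 0 := by
      intro w e
      refine colength_of_unit (j := i.castSucc) ?_ ?_ e
      · simpa using ha i
      · simpa using hi
    rw [key] at hμ hν ⊢
    omega
  obtain ⟨N, hN, k, φ, h1, h2, h3⟩ := exists_arcs hford hcm (a := fun j => pd (j0.succAbove j) f)
    (l := fun x => x j0) ha (hol_coord j0) ha0 rfl hν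
  rw [h3 _ hf]
  have h4 := (h3 _ (hol_pd hf j0) μ).1 hμ
  have h5 := (h3 _ (hol_coord j0) ν).1 hν
  have h6 : ∀ i, (φ i (ser f)).order = (φ i (ser (pd j0 f))).order +
      (φ i (ser (fun x : Fin (m + 1) → ℂ => x j0))).order := by
    intro i
    refine order_arc hchain hloc hf f0 j0 (φ i) fun j hj => ?_
    obtain ⟨j', rfl⟩ := Fin.exists_succAbove_eq hj
    rw [h1 i j', zero_mul]
  simp only [h6, Finset.sum_add_distrib]
  rw [h4, h5, mul_add]
  push_cast
  rfl

/-- the line case: the order of a function of one variable drops by one under derivation -/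
theorem line {f : (Fin (m + 1) → ℂ) → ℂ} (hf : Hol f) (f0 : f 0 = 0) (j0 : Fin (m + 1)) {d : ℕ}
    (hline : Colength (Fin.snoc (α := fun _ => (Fin (m + 1) → ℂ) → ℂ)
      (fun (j : Fin m) (x : Fin (m + 1) → ℂ) => x (j0.succAbove j)) (fun x => x j0)) 1)
    (hd : Colength (Fin.snoc (α := fun _ => (Fin (m + 1) → ℂ) → ℂ)
      (fun (j : Fin m) (x : Fin (m + 1) → ℂ) => x (j0.succAbove j)) f) d) :
    0 < d ∧ Colength (Fin.snoc (α := fun _ => (Fin (m + 1) → ℂ) → ℂ)
      (fun (j : Fin m) (x : Fin (m + 1) → ℂ) => x (j0.succAbove j)) (pd j0 f)) (d - 1) := by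
  obtain ⟨N, hN, k, φ, h1, h2, h3⟩ := exists_arcs hford hcm
    (a := fun (j : Fin m) (x : Fin (m + 1) → ℂ) => x (j0.succAbove j))
    (l := fun x => x j0) (fun j => hol_coord _) (hol_coord j0) (fun j => rfl) rfl hline
  rw [h3 _ (hol_pd hf j0)]
  have h4 := (h3 _ hf d).1 hd
  have h5 := (h3 _ (hol_coord j0) 1).1 hline
  have h6 : ∀ i, (φ i (ser f)).order = (φ i (ser (pd j0 f))).order +
      (φ i (ser (fun x : Fin (m + 1) → ℂ => x j0))).order := by
    intro i
    refine order_arc hchain hloc hf f0 j0 (φ i) fun j hj => ?_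
    obtain ⟨j', rfl⟩ := Fin.exists_succAbove_eq hj
    have h7 := h1 i j'
    rw [ser_coord] at h7
    rw [h7, map_zero, mul_zero]
  simp only [h6, Finset.sum_add_distrib] at h4
  rw [h5] at h4
  have h7 : ∑ i, (φ i (ser (pd j0 f))).order ≠ ⊤ := by
    intro h8
    rw [h8, top_add] at h4
    exact ENat.natCast_ne_top _ h4.symm
  obtain ⟨S, hS⟩ : ∃ S : ℕ, ∑ i, (φ i (ser (pd j0 f))).order = S :=
    ⟨_, (ENat.natCast_toNat h7).symm⟩
  rw [hS] at h4 ⊢
  have h8 : S + N * 1 = N * d := by exact_mod_cast h4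
  have hd0 : 0 < d := by
    rcases Nat.eq_zero_or_pos d with rfl | h
    · omega
    · exact h
  refine ⟨hd0, ?_⟩
  obtain ⟨e, rfl⟩ := Nat.exists_eq_succ_of_ne_zero hd0.ne'
  have h9 : S = N * e := by
    have : N * (e + 1) = N * e + N * 1 := by ring
    rw [Nat.succ_eq_add_one] at h8
    omega
  rw [h9, Nat.succ_sub_one]

end

/-! ### The restricted Milnor number -/

theorem pd_restrict {f : (Fin (m + 1) → ℂ) → ℂ} {x : Fin m → ℂ}
    (hf : DifferentiableAt ℂ f (Fin.snoc (α := fun _ => ℂ) x 0)) (j : Fin m) :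
    pd j (fun x : Fin m → ℂ => f (Fin.snoc (α := fun _ => ℂ) x 0)) x =
      pd j.castSucc f (Fin.snoc (α := fun _ => ℂ) x 0) := by
  have h1 : (fun x : Fin m → ℂ => f (Fin.snoc (α := fun _ => ℂ) x 0)) = f ∘ inclL m := by
    funext y
    rw [Function.comp_apply, inclL_apply]
  have h2 : DifferentiableAt ℂ f (inclL m x) := by
    rw [inclL_apply]
    exact hf
  rw [pd, pd, h1, fderiv_comp x h2 (inclL m).differentiableAt, ContinuousLinearMap.fderiv,
    ContinuousLinearMap.comp_apply]
  congr 2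
  · rw [inclL_apply]
  · rw [inclL_apply]
    funext i
    refine Fin.lastCases ?_ (fun i => ?_) i
    · simp [(Fin.castSucc_ne_last j).symm]
    · by_cases hij : i = j
      · subst hij
        simp
      · rw [Fin.snoc_castSucc, Pi.single_eq_of_ne hij, Pi.single_eq_of_ne]
        intro h
        exact hij (Fin.castSucc_injective m h)

/-- the Milnor number of the restriction to the hyperplane `x_m = 0` -/
theorem milnor_restrict {f : (Fin (m + 1) → ℂ) → ℂ} (hf : Hol f) (ν : ℕ) :
    Milnor (fun x : Fin m → ℂ => f (Fin.snoc (α := fun _ => ℂ) x 0)) ν ↔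
      Colength (Fin.snoc (α := fun _ => (Fin (m + 1) → ℂ) → ℂ)
        (fun j : Fin m => pd j.castSucc f) (fun x => x (Fin.last m))) ν := by
  rw [colength_restrict (s := fun j : Fin m => pd j.castSucc f) (fun j => hol_pd hf _), Milnor]
  have han : AnalyticAt ℂ f 0 := hf
  have h1 : ∀ j : Fin m, (pd j fun x : Fin m → ℂ => f (Fin.snoc (α := fun _ => ℂ) x 0)) =ᶠ[𝓝 0]
      fun x => pd j.castSucc f (Fin.snoc (α := fun _ => ℂ) x 0) := by
    intro j
    filter_upwards [tendsto_incl.eventually han.eventually_analyticAt] with x hx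
    exact pd_restrict hx.differentiableAt j
  refine colength_congr (fun j => ?_) (fun j => ?_) ν
  · exact inIdeal_of_eventuallyEq (inIdeal_self _ j) (h1 j)
  · exact inIdeal_of_eventuallyEq (inIdeal_self _ j) (h1 j).symm

theorem colength_milnor_iff {f : (Fin (m + 1) → ℂ) → ℂ} (j0 : Fin (m + 1)) (μ : ℕ) :
    Colength (Fin.snoc (α := fun _ => (Fin (m + 1) → ℂ) → ℂ)
      (fun j => pd (j0.succAbove j) f) (pd j0 f)) μ ↔ Milnor f μ := by
  refine colength_congr (fun j => ?_) (fun j => ?_) μ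
  · refine Fin.lastCases ?_ (fun i => ?_) j
    · rw [Fin.snoc_last]
      exact inIdeal_self (fun i => pd i f) j0
    · rw [Fin.snoc_castSucc]
      exact inIdeal_self (fun i => pd i f) (j0.succAbove i)
  · by_cases hj : j = j0
    · subst hj
      have h := inIdeal_self (Fin.snoc (α := fun _ => (Fin (m + 1) → ℂ) → ℂ)
        (fun i => pd (j.succAbove i) f) (pd j f)) (Fin.last m)
      rwa [Fin.snoc_last] at h
    · obtain ⟨j', rfl⟩ := Fin.exists_succAbove_eq hj
      have h := inIdeal_self (Fin.snoc (α := fun _ => (Fin (m + 1) → ℂ) → ℂ)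
        (fun i => pd (j0.succAbove i) f) (pd j0 f)) j'.castSucc
      rwa [Fin.snoc_castSucc] at h

/-- (N2-a) Teissier's formula with the Milnor number of the restriction -/
theorem teissier_milnor (hford : FordT) (hcm : CMT) (hchain : ChainT) (hloc : LocT)
    {f : (Fin (m + 1) → ℂ) → ℂ} (hf : Hol f) (f0 : f 0 = 0) {μ ν : ℕ} (hμ : Milnor f μ)
    (hν : Milnor (fun x : Fin m → ℂ => f (Fin.snoc (α := fun _ => ℂ) x 0)) ν) :
    Colength (Fin.snoc (α := fun _ => (Fin (m + 1) → ℂ) → ℂ)
      (fun j : Fin m => pd j.castSucc f) f) (μ + ν) := by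
  have h := teissier hford hcm hchain hloc hf f0 (Fin.last m) (μ := μ) (ν := ν)
  simp only [Fin.succAbove_last] at h
  refine h ?_ ?_
  · have h1 := (colength_milnor_iff (f := f) (Fin.last m) μ).2 hμ
    simpa only [Fin.succAbove_last] using h1
  · exact (milnor_restrict hf ν).1 hν

end Vale.Agent.P298.H766
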